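import Vale.Agent.Lib.P147T.Mon

/-!
# P147: masses of up-crossings, first consequences of the weight axioms.

Contents: the finite sets `lists n`, initial-segment free sums, `crossing`, `vg`, `Ballistic`,
the product formula for sums over a grade.
-/

open scoped ENNReal BigOperators

namespace Vale.Agent.Lib.P147T

variable {d : ℕ}

open Classical in
/-- All lists of `n` steps. -/
noncomputable def lists : ℕ → Finset (List (Step d))
  | 0 => {[]}
  | n + 1 => ((lists n) ×ˢ (Finset.univ : Finset (Step d))).image (fun p => p.1 ++ [p.2])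

theorem mem_lists {n : ℕ} {r : List (Step d)} : r ∈ lists n ↔ r.length = n := by
  classical
  induction n generalizing r with
  | zero => simp [lists]
  | succ n ih =>
    simp only [lists, Finset.mem_image, Finset.mem_product, Finset.mem_univ, and_true]
    constructor
    · rintro ⟨⟨a, s⟩, ha, rfl⟩
      simp [ih.1 ha]
    · intro h
      rcases List.eq_nil_or_concat r with rfl | ⟨l, s, rfl⟩
      · simp at h
      · refine ⟨(l, s), ih.2 (by simpa using h), by simp⟩

theorem sum_lists (W : Wt d) (l : List (Step d)) (n : ℕ) :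
    ∑ r ∈ lists n, W.w (l ++ r) = W.w l := by
  classical
  induction n generalizing l with
  | zero => simp [lists]
  | succ n ih =>
    simp only [lists]
    rw [Finset.sum_image]
    · rw [Finset.sum_product]
      simp only [← List.append_assoc, W.w_snoc]
      exact ih l
    · rintro ⟨a, s⟩ _ ⟨a', s'⟩ _ h
      simp only at h
      have := List.append_inj' h (by simp)
      simp only [List.cons.injEq, and_true] at this
      exact Prod.ext this.1 this.2

/-- A initial-segment free family of extensions of `t` has total weight at most `W.w t`. -/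
theorem segFree_sum_le (W : Wt d) (t : List (Step d)) (F : Set (List (Step d)))
    (hpf : ∀ l ∈ F, ∀ r, l ++ r ∈ F → r = []) (hext : ∀ l ∈ F, ∃ r, l = t ++ r) :
    ∑' l : F, W.w l.1 ≤ W.w t := by
  classical
  rw [ENNReal.tsum_eq_iSup_sum]
  refine iSup_le fun S => ?_
  -- a common length
  obtain ⟨N, hN⟩ : ∃ N, ∀ l ∈ S, (l.1 : List (Step d)).length ≤ N :=
    ⟨S.sup fun l => (l.1 : List (Step d)).length, fun l hl =>
      Finset.le_sup (f := fun l : F => (l.1 : List (Step d)).length) hl⟩
  have hlen : ∀ l : F, t.length ≤ (l.1 : List (Step d)).length := fun l => by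
    obtain ⟨r, hr⟩ := hext l.1 l.2
    rw [hr]; simp
  -- expand everything to level `N + t.length`
  have h1 : ∀ l ∈ S, W.w l.1 = ∑ r ∈ lists (N + t.length - (l.1 : List (Step d)).length),
      W.w (l.1 ++ r) := fun l _ => (sum_lists W _ _).symm
  rw [Finset.sum_congr rfl h1, Finset.sum_sigma']
  rw [← sum_lists W t N]
  have hmem : ∀ x ∈ S.sigma (fun l : F => lists (N + t.length - (l.1 : List (Step d)).length)),
      ∃ r, x.1.1 ++ x.2 = t ++ r ∧ r ∈ lists N := by
    rintro ⟨l, r⟩ hx
    simp only [Finset.mem_sigma, mem_lists] at hx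
    obtain ⟨r0, hr0⟩ := hext l.1 l.2
    refine ⟨r0 ++ r, by simp only [hr0, List.append_assoc], ?_⟩
    rw [mem_lists, List.length_append, hx.2]
    have h2 := hN l hx.1
    have h3 : (l.1 : List (Step d)).length = t.length + r0.length := by rw [hr0]; simp
    omega
  -- injectivity of the concatenation
  let φ : (Σ _ : F, List (Step d)) → List (Step d) := fun x => (x.2 : List (Step d))
  choose! ρ hρ1 hρ2 using hmem
  refine le_trans (le_of_eq ?_) (Finset.sum_le_sum_of_subset (s := (S.sigma
    (fun l : F => lists (N + t.length - (l.1 : List (Step d)).length))).image ρ) ?_)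
  · rw [Finset.sum_image]
    · refine Finset.sum_congr rfl fun x hx => ?_
      rw [hρ1 x hx]
    · rintro ⟨l, r⟩ hx ⟨l', r'⟩ hx' h
      have h1 := hρ1 _ hx
      have h2 := hρ1 _ hx'
      have h3 : l.1 ++ r = l'.1 ++ r' := by
        have : ρ ⟨l, r⟩ = ρ ⟨l', r'⟩ := h
        simp only at h1 h2
        rw [h1, h2, this]
      simp only [Finset.coe_sigma, Set.mem_sigma_iff, Finset.mem_coe, mem_lists] at hx hx'
      -- comparable initial segments in a initial-segment free family are equal
      have hll : l = l' := by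
        rcases List.append_eq_append_iff.1 h3 with ⟨a', ha', _⟩ | ⟨c', hc', _⟩
        · have := hpf l.1 l.2 a' (by rw [← ha']; exact l'.2)
          subst this
          exact Subtype.ext (by simpa using ha'.symm)
        · have := hpf l'.1 l'.2 c' (by rw [← hc']; exact l.2)
          subst this
          exact Subtype.ext (by simpa using hc')
      subst hll
      have : r = r' := List.append_cancel_left h3
      subst this
      rfl
  · intro r hr
    obtain ⟨x, hx, rfl⟩ := Finset.mem_image.1 hr
    exact hρ2 x hx

/-- Total weight of the up-crossings of height `g`. -/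
noncomputable def crossing (W : Wt d) (L : Site d →+ ℤ) (g : ℕ) : ℝ≥0∞ :=
  ∑' a : {a : List (Step d) // Up L g a}, W.w a.1

theorem up_segFree {L : Site d →+ ℤ} {g : ℕ} {l r : List (Step d)}
    (h : Up L g l) (h' : Up L g (l ++ r)) : r = [] := by
  by_contra hr
  have := h'.2 _ (endp_mem_dep_append l hr)
  rw [h.1] at this
  omega

theorem crossing_le_one (W : Wt d) (L : Site d →+ ℤ) (g : ℕ) : crossing W L g ≤ 1 := by
  have := segFree_sum_le W [] {a | Up L g a}
    (fun l hl r hr => up_segFree hl hr) (fun l _ => ⟨l, rfl⟩)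
  rwa [W.w_nil] at this

/-- The mass of the grade `g` elements of the monoid. -/
noncomputable def vg (W : Wt d) (L : Site d →+ ℤ) (g : ℕ) : ℝ≥0∞ :=
  ∑' m : Mon L, wM W m * (if m.g = g then 1 else 0)

/-- The mass of the atoms of grade `s`. -/
noncomputable def atomMass (W : Wt d) (L : Site d →+ ℤ) (s : ℕ) : ℝ≥0∞ :=
  ∑' C : Atom L, wM W C.1 * (if C.1.g = s then 1 else 0)

/-- Sums over a grade split as a product of a sum over the up path and one over the down path. -/
theorem mon_product (W : Wt d) (L : Site d →+ ℤ) (g : ℕ) (f h : List (Step d) → ℝ≥0∞) :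
    ∑' m : Mon L, wM W m * ((if m.g = g then 1 else 0) * (f m.a * h m.b)) =
      (∑' a : {a : List (Step d) // Up L g a}, W.w a.1 * f a.1) *
        ∑' b : {b : List (Step d) // Up (-L) g b}, W.w b.1 * h b.1 := by
  classical
  rw [← ENNReal.tsum_mul_right]
  simp_rw [← ENNReal.tsum_mul_left]
  rw [← ENNReal.tsum_prod' (f := fun p : {a : List (Step d) // Up L g a} ×
      {b : List (Step d) // Up (-L) g b} => W.w p.1.1 * f p.1.1 * (W.w p.2.1 * h p.2.1))]
  let φ : {a : List (Step d) // Up L g a} × {b : List (Step d) // Up (-L) g b} → Mon L :=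
    fun p => ⟨g, p.1.1, p.2.1, p.1.2, p.2.2⟩
  have hφ : Function.Injective φ := by
    rintro ⟨⟨a, ha⟩, ⟨b, hb⟩⟩ ⟨⟨a', ha'⟩, ⟨b', hb'⟩⟩ hh
    have h1 : a = a' := congrArg Mon.a hh
    have h2 : b = b' := congrArg Mon.b hh
    subst h1 h2
    rfl
  have hs : Function.support (fun m : Mon L => wM W m * ((if m.g = g then 1 else 0) *
      (f m.a * h m.b))) ⊆ Set.range φ := by
    rintro ⟨g', a, b, ha, hb⟩ hm
    have hg : g' = g := by
      by_contra hne
      simp [hne] at hm
    subst hg
    exact ⟨(⟨a, ha⟩, ⟨b, hb⟩), rfl⟩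
  rw [← hφ.tsum_eq hs]
  refine tsum_congr fun p => ?_
  simp only [φ, wM, if_true, one_mul]
  ring

theorem vg_eq (W : Wt d) (L : Site d →+ ℤ) (g : ℕ) :
    vg W L g = crossing W L g * crossing W (-L) g := by
  have := mon_product W L g (fun _ => 1) (fun _ => 1)
  simp only [mul_one] at this
  exact this

/-- The quantitative content of positive speed along `L`: for all large `T`, with probability
bounded below the walk crosses the strip of height `T` above its start while visiting at most
`A * T` sites. -/
def Ballistic (W : Wt d) (L : Site d →+ ℤ) : Prop :=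
  ∃ (c : ℝ≥0∞) (A T₁ : ℕ), c ≠ 0 ∧ ∀ T, T₁ ≤ T →
    c ≤ ∑' a : {a : List (Step d) // Up L T a ∧ (dep a).card ≤ A * T}, W.w a.1

end Vale.Agent.Lib.P147T
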