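import Mathlib

/-!
# P147: the bootstrapping lemma for slowly decaying sequences.
-/

open Filter Topology

namespace Vale.Agent.Lib.P147T

/-- Iterating a one step lower bound. -/
theorem bootstrap_chain (Q : ℕ → ℝ) (hQ : ∀ n, 0 < Q n) (x : ℝ) (hx0 : 0 ≤ x) (hx1 : x ≤ 1)
    (a k : ℕ) (h : ∀ i, i < k → (1 - x) * Q (a + i) ≤ Q (a + i + 1)) :
    (1 - k * x) * Q a ≤ Q (a + k) := by
  induction k with
  | zero => simp
  | succ n ih =>
    have h1 := ih (fun i hi => h i (by omega))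
    have h2 := h n (by omega)
    have h3 : (1 - x) * ((1 - n * x) * Q a) ≤ (1 - x) * Q (a + n) :=
      mul_le_mul_of_nonneg_left h1 (by linarith)
    have h4 : (1 - ((n + 1 : ℕ) : ℝ) * x) * Q a ≤ (1 - x) * ((1 - n * x) * Q a) := by
      push_cast
      have h5 : 0 ≤ (n : ℝ) * x * x * Q a := by
        have := hQ a
        positivity
      nlinarith
    calc _ ≤ _ := h4
      _ ≤ _ := h3
      _ ≤ _ := h2

/-- A starting point with bounded ratio over a step of length `s₁`. -/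
theorem bootstrap_start (Q : ℕ → ℝ) (hQ : ∀ n, 0 < Q n) (s₁ : ℕ) (hs₁ : 1 ≤ s₁) (A : ℝ)
    (hlow : ∀ N : ℕ, (1 / 2) * Real.exp (-A * (Real.sqrt N + 1)) ≤ Q N) :
    ∃ m₁, s₁ ≤ m₁ ∧ Q (m₁ - s₁) ≤ 3 * Q m₁ := by
  by_contra hcon
  push Not at hcon
  have hk : ∀ k : ℕ, Q (k * s₁) * 3 ^ k ≤ Q 0 := by
    intro k
    induction k with
    | zero => simp
    | succ n ih =>
      have h1 := hcon ((n + 1) * s₁) (by nlinarith)
      have h2 : (n + 1) * s₁ - s₁ = n * s₁ := by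
        rw [Nat.add_mul, one_mul]; omega
      rw [h2] at h1
      have h3 : (0 : ℝ) < 3 ^ n := by positivity
      calc Q ((n + 1) * s₁) * 3 ^ (n + 1) = (3 * Q ((n + 1) * s₁)) * 3 ^ n := by ring
        _ ≤ Q (n * s₁) * 3 ^ n := mul_le_mul_of_nonneg_right h1.le h3.le
        _ ≤ Q 0 := ih
  set B : ℝ := |A| with hB
  have hB0 : 0 ≤ B := abs_nonneg _
  set r : ℝ := Real.sqrt s₁ with hr
  have hr0 : 0 ≤ r := Real.sqrt_nonneg _
  set l : ℝ := |Real.log (2 * Q 0)| with hl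
  have hl0 : 0 ≤ l := abs_nonneg _
  obtain ⟨t, ht⟩ := exists_nat_ge (B * r + B + l + 1)
  have ht1 : (1 : ℝ) ≤ t := by
    have : 0 ≤ B * r := mul_nonneg hB0 hr0
    linarith
  have hN := hlow (t ^ 2 * s₁)
  have hsq : Real.sqrt ((t ^ 2 * s₁ : ℕ) : ℝ) = t * r := by
    push_cast
    rw [Real.sqrt_mul (by positivity), Real.sqrt_sq (by positivity)]
  rw [hsq] at hN
  have h3 := hk (t ^ 2)
  rw [mul_comm (t ^ 2) s₁] at h3
  rw [mul_comm (t ^ 2) s₁] at hN
  have hexp : Real.exp ((t : ℝ) ^ 2) ≤ 3 ^ (t ^ 2) := by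
    have h4 : Real.exp (((t ^ 2 : ℕ) : ℝ) * 1) = Real.exp 1 ^ (t ^ 2) := Real.exp_nat_mul 1 (t ^ 2)
    have h5 : Real.exp 1 ≤ 3 := by
      have := Real.exp_one_lt_d9
      linarith
    have h6 : Real.exp 1 ^ (t ^ 2) ≤ 3 ^ (t ^ 2) :=
      pow_le_pow_left₀ (Real.exp_pos 1).le h5 _
    have h7 : ((t : ℝ) ^ 2) = ((t ^ 2 : ℕ) : ℝ) * 1 := by push_cast; ring
    rw [h7, h4]
    exact h6
  have hmono : Real.exp (-B * ((t : ℝ) * r + 1)) ≤ Real.exp (-A * ((t : ℝ) * r + 1)) := by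
    apply Real.exp_le_exp.mpr
    have h8 : 0 ≤ (t : ℝ) * r + 1 := by positivity
    have h9 : A ≤ B := le_abs_self A
    nlinarith
  have hQ0 := hQ 0
  have hfin : Real.exp ((t : ℝ) ^ 2 - B * ((t : ℝ) * r + 1)) ≤ 2 * Q 0 := by
    have e1 : Real.exp ((t : ℝ) ^ 2 - B * ((t : ℝ) * r + 1)) =
        Real.exp (-B * ((t : ℝ) * r + 1)) * Real.exp ((t : ℝ) ^ 2) := by
      rw [← Real.exp_add]
      congr 1
      ring
    rw [e1]
    have hpos1 : 0 ≤ Real.exp ((t : ℝ) ^ 2) := (Real.exp_pos _).le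
    have hpos3 : (0 : ℝ) ≤ Q (s₁ * t ^ 2) := (hQ _).le
    calc Real.exp (-B * ((t : ℝ) * r + 1)) * Real.exp ((t : ℝ) ^ 2)
        ≤ (2 * Q (s₁ * t ^ 2)) * 3 ^ (t ^ 2) := by
          apply mul_le_mul _ hexp hpos1 (by positivity)
          linarith
      _ = 2 * (Q (s₁ * t ^ 2) * 3 ^ (t ^ 2)) := by ring
      _ ≤ 2 * Q 0 := by linarith
  have hlog : (t : ℝ) ^ 2 - B * ((t : ℝ) * r + 1) ≤ Real.log (2 * Q 0) :=
    (Real.le_log_iff_exp_le (by positivity)).mpr hfin
  have hl1 : Real.log (2 * Q 0) ≤ l := le_abs_self _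
  have h10 : 0 ≤ (t : ℝ) - B * r - 1 - B - l := by linarith
  have h11 : (t : ℝ) ^ 2 - B * ((t : ℝ) * r + 1) =
      (t : ℝ) * ((t : ℝ) - B * r - B - l - 1) + (t : ℝ) * (B + l + 1) - B := by ring
  have h12 : 0 ≤ (t : ℝ) * ((t : ℝ) - B * r - B - l - 1) := by
    apply mul_nonneg (by linarith)
    linarith
  have h13 : (B + l + 1) ≤ (t : ℝ) * (B + l + 1) := by
    have : 0 ≤ B + l + 1 := by linarith
    nlinarith
  linarith

/-- The slowly decreasing property at scale `s` from `m₀` on. -/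
def SlowR (Q : ℕ → ℝ) (s m₀ : ℕ) : Prop :=
  ∀ m, m₀ ≤ m → (1 - 1 / (8 * (s : ℝ))) * Q m ≤ Q (m + 1)

/-- The estimate [*] at scale `2 s`. -/
theorem bootstrap_star (Q η : ℕ → ℝ) (hQ : ∀ n, 0 < Q n) (hηnn : ∀ s, 0 ≤ η s)
    (hdiff : ∀ s m : ℕ, 2 ≤ s → s ≤ m → Q m - Q (m + 1) ≤ η s / s * Q (m - s))
    (s m₀ : ℕ) (hs : 1 ≤ s) (hR : SlowR Q s m₀) (m : ℕ) (hm : m₀ + 2 * s ≤ m) :
    Q m - Q (m + 1) ≤ (4 / 3) * (η (2 * s) / ((2 * s : ℕ) : ℝ)) * Q m := by
  have hs' : (1 : ℝ) ≤ s := by exact_mod_cast hs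
  have hs0 : (0 : ℝ) < s := by linarith
  have hch := bootstrap_chain Q hQ (1 / (8 * (s : ℝ))) (by positivity)
    (by
      rw [div_le_one (by positivity)]
      linarith) (m - 2 * s) (2 * s)
    (fun i hi => by
      have hle : m₀ ≤ m - 2 * s + i := by omega
      exact hR _ hle)
  have hsub : m - 2 * s + 2 * s = m := by omega
  rw [hsub] at hch
  have hcoef : (1 - ((2 * s : ℕ) : ℝ) * (1 / (8 * (s : ℝ)))) = 3 / 4 := by
    push_cast
    field_simp
    ring
  rw [hcoef] at hch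
  have h1 := hdiff (2 * s) m (by omega) (by omega)
  have hdiv : 0 ≤ η (2 * s) / ((2 * s : ℕ) : ℝ) := div_nonneg (hηnn _) (by positivity)
  calc Q m - Q (m + 1) ≤ η (2 * s) / ((2 * s : ℕ) : ℝ) * Q (m - 2 * s) := h1
    _ ≤ η (2 * s) / ((2 * s : ℕ) : ℝ) * ((4 / 3) * Q m) := by
        apply mul_le_mul_of_nonneg_left _ hdiv
        linarith
    _ = _ := by ring

/-- If `Q` decays subexponentially and its increments satisfy the delayed inequality with
`η → 0`, then `Q m ≥ c / m`, so `Q` is not summable. -/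
theorem bootstrap (Q η : ℕ → ℝ) (hQpos : ∀ n, 0 < Q n) (hQanti : Antitone Q)
    (hηanti : Antitone η) (hηnn : ∀ s, 0 ≤ η s) (hη0 : Tendsto η atTop (𝓝 0))
    (hdiff : ∀ s m : ℕ, 2 ≤ s → s ≤ m → Q m - Q (m + 1) ≤ η s / s * Q (m - s))
    (A : ℝ) (hlow : ∀ N : ℕ, (1 / 2) * Real.exp (-A * (Real.sqrt N + 1)) ≤ Q N) :
    ¬ Summable Q := by
  -- step (a)
  obtain ⟨s₀, hs₀⟩ := (hη0.eventually (Iio_mem_nhds (by norm_num : (0 : ℝ) < 1 / 100))).exists_forall_of_atTop
  set s₁ : ℕ := max s₀ 2 with hs₁def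
  have hs₁2 : 2 ≤ s₁ := le_max_right _ _
  have hηs₁ : ∀ s, s₁ ≤ s → η s ≤ 1 / 100 := fun s hs =>
    (hs₀ s (le_trans (le_max_left _ _) hs)).le
  obtain ⟨m₁, hm₁, hm₁Q⟩ := bootstrap_start Q hQpos s₁ (by omega) A hlow
  have hs₁pos : (0 : ℝ) < s₁ := by
    have : (2 : ℝ) ≤ s₁ := by exact_mod_cast hs₁2
    linarith
  have hs₁one : (1 : ℝ) ≤ s₁ := by
    have : (2 : ℝ) ≤ s₁ := by exact_mod_cast hs₁2
    linarith
  -- step (b)
  have hb : ∀ n m, m ≤ n → m₁ ≤ m → Q (m - s₁) ≤ 4 * Q m := by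
    intro n
    induction n with
    | zero =>
      intro m hm hm1
      have hm0 : m = 0 := by omega
      subst hm0
      have := hQpos 0
      linarith
    | succ n ih =>
      intro m hm hm1
      by_cases hmn : m ≤ n
      · exact ih m hmn hm1
      have hmeq : m = n + 1 := by omega
      subst hmeq
      by_cases hbase : n + 1 = m₁
      · rw [hbase]
        have := hQpos m₁
        linarith
      have hm1n : m₁ ≤ n := by omega
      -- one step bound on [m₁, n]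
      have hstep : ∀ m', m₁ ≤ m' → m' ≤ n →
          (1 - 1 / (25 * (s₁ : ℝ))) * Q m' ≤ Q (m' + 1) := by
        intro m' h1 h2
        have h3 := hdiff s₁ m' hs₁2 (le_trans hm₁ h1)
        have h4 := ih m' h2 h1
        have h5 := hηs₁ s₁ le_rfl
        have h6 : η s₁ / s₁ * Q (m' - s₁) ≤ (1 / 100) / s₁ * (4 * Q m') := by
          apply mul_le_mul _ h4 (hQpos _).le (by positivity)
          exact div_le_div_of_nonneg_right h5 hs₁pos.le
        have h7 : (1 / 100) / (s₁ : ℝ) * (4 * Q m') = 1 / (25 * (s₁ : ℝ)) * Q m' := by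
          field_simp
          ring
        rw [h7] at h6
        have h8 : (1 - 1 / (25 * (s₁ : ℝ))) * Q m' = Q m' - 1 / (25 * (s₁ : ℝ)) * Q m' := by ring
        rw [h8]
        linarith
      set a : ℕ := max m₁ (n + 1 - s₁) with ha
      have ham₁ : m₁ ≤ a := le_max_left _ _
      have han : a ≤ n + 1 := by
        apply max_le (by omega)
        omega
      obtain ⟨k, hk⟩ : ∃ k, n + 1 = a + k := ⟨n + 1 - a, by omega⟩
      have hks : k ≤ s₁ := by
        have : n + 1 - s₁ ≤ a := le_max_right _ _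
        omega
      have hx1 : 1 / (25 * (s₁ : ℝ)) ≤ 1 := by
        rw [div_le_one (by positivity)]
        linarith
      have hch := bootstrap_chain Q hQpos (1 / (25 * (s₁ : ℝ))) (by positivity) hx1 a k
        (fun i hi => hstep (a + i) (by omega) (by omega))
      rw [← hk] at hch
      have hcoef : (24 / 25 : ℝ) ≤ 1 - (k : ℝ) * (1 / (25 * (s₁ : ℝ))) := by
        have h9 : (k : ℝ) ≤ s₁ := by exact_mod_cast hks
        have h10 : (k : ℝ) * (1 / (25 * (s₁ : ℝ))) ≤ (s₁ : ℝ) * (1 / (25 * (s₁ : ℝ))) :=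
          mul_le_mul_of_nonneg_right h9 (by positivity)
        have h11 : (s₁ : ℝ) * (1 / (25 * (s₁ : ℝ))) = 1 / 25 := by
          field_simp
        linarith
      have hQa := hQpos a
      have h12 : (24 / 25 : ℝ) * Q a ≤ Q (n + 1) :=
        le_trans (mul_le_mul_of_nonneg_right hcoef hQa.le) hch
      have h13 : Q (n + 1 - s₁) ≤ 3 * Q a := by
        by_cases hcase : m₁ ≤ n + 1 - s₁
        · have : a = n + 1 - s₁ := max_eq_right hcase
          rw [← this]
          linarith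
        · have : a = m₁ := max_eq_left (by omega)
          rw [this]
          have h14 : Q (n + 1 - s₁) ≤ Q (m₁ - s₁) := hQanti (by omega)
          linarith
      linarith
  have hb' : ∀ m, m₁ ≤ m → Q (m - s₁) ≤ 4 * Q m := fun m hm => hb m m le_rfl hm
  -- the property R at the first scale
  have hR0 : SlowR Q s₁ m₁ := by
    intro m hm
    have h3 := hdiff s₁ m hs₁2 (le_trans hm₁ hm)
    have h4 := hb' m hm
    have h5 := hηs₁ s₁ le_rfl
    have h6 : η s₁ / s₁ * Q (m - s₁) ≤ (1 / 100) / s₁ * (4 * Q m) := by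
      apply mul_le_mul _ h4 (hQpos _).le (by positivity)
      exact div_le_div_of_nonneg_right h5 hs₁pos.le
    have h7 : (1 / 100) / (s₁ : ℝ) * (4 * Q m) = 1 / (25 * (s₁ : ℝ)) * Q m := by
      field_simp
      ring
    rw [h7] at h6
    have h8 : 1 / (25 * (s₁ : ℝ)) * Q m ≤ 1 / (8 * (s₁ : ℝ)) * Q m := by
      apply mul_le_mul_of_nonneg_right _ (hQpos _).le
      apply one_div_le_one_div_of_le (by positivity)
      nlinarith
    have h9 : (1 - 1 / (8 * (s₁ : ℝ))) * Q m = Q m - 1 / (8 * (s₁ : ℝ)) * Q m := by ring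
    rw [h9]
    linarith
  -- step (c) and the doubling
  have hRj : ∀ j : ℕ, SlowR Q (2 ^ j * s₁) (m₁ + 4 * (2 ^ j * s₁)) := by
    intro j
    induction j with
    | zero =>
      simp only [pow_zero, one_mul]
      intro m hm
      exact hR0 m (by omega)
    | succ j ih =>
      set s : ℕ := 2 ^ j * s₁ with hs
      have hsone : 1 ≤ s := Nat.mul_pos (by positivity) (by omega)
      have hs2 : 2 ^ (j + 1) * s₁ = 2 * s := by rw [hs, pow_succ]; ring
      rw [hs2]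
      intro m hm
      have hsr : (1 : ℝ) ≤ s := by exact_mod_cast hsone
      have hstar := bootstrap_star Q η hQpos hηnn hdiff s (m₁ + 4 * s) hsone ih m (by omega)
      have hle2 : s₁ ≤ 2 * s := by
        have : s₁ ≤ s := by
          rw [hs]
          exact Nat.le_mul_of_pos_left _ (by positivity)
        omega
      have hηs := hηs₁ (2 * s) hle2
      have hcast : ((2 * s : ℕ) : ℝ) = 2 * (s : ℝ) := by push_cast; ring
      rw [hcast] at hstar
      have h1 : (4 / 3) * (η (2 * s) / (2 * (s : ℝ))) ≤ 1 / (8 * ((2 * s : ℕ) : ℝ)) := by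
        rw [hcast]
        have h2 : η (2 * s) / (2 * (s : ℝ)) ≤ (1 / 100) / (2 * (s : ℝ)) :=
          div_le_div_of_nonneg_right hηs (by positivity)
        have h3 : (1 / 100) / (2 * (s : ℝ)) * (4 / 3) ≤ 1 / (8 * (2 * (s : ℝ))) := by
          rw [div_mul_eq_mul_div, div_le_div_iff₀ (by positivity) (by positivity)]
          nlinarith
        nlinarith
      have h4 : (1 - 1 / (8 * ((2 * s : ℕ) : ℝ))) * Q m = Q m - 1 / (8 * ((2 * s : ℕ) : ℝ)) * Q m := by
        ring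
      rw [h4]
      have h5 := mul_le_mul_of_nonneg_right h1 (hQpos m).le
      linarith
  have hstarj : ∀ j m : ℕ, m₁ + 6 * (2 ^ j * s₁) ≤ m →
      Q m - Q (m + 1) ≤
        (4 / 3) * (η (2 * (2 ^ j * s₁)) / ((2 * (2 ^ j * s₁) : ℕ) : ℝ)) * Q m := by
    intro j m hm
    exact bootstrap_star Q η hQpos hηnn hdiff (2 ^ j * s₁) (m₁ + 4 * (2 ^ j * s₁))
      (Nat.mul_pos (by positivity) (by omega)) (hRj j) m (by omega)
  -- step (d)
  obtain ⟨S₀, hS₀⟩ := (hη0.eventually (Iio_mem_nhds (by norm_num : (0 : ℝ) < 1 / 16))).exists_forall_of_atTop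
  set m₂ : ℕ := 2 * m₁ + 6 * s₁ + 12 * S₀ + 2 with hm₂
  have hkey : ∀ m, m₂ ≤ m → Q m - Q (m + 1) ≤ Q m / m := by
    intro m hm
    set t : ℕ := (m - m₁) / (6 * s₁) with ht
    have h6s : 0 < 6 * s₁ := by omega
    have ht1 : t ≠ 0 := by
      rw [ht]
      have : 1 ≤ (m - m₁) / (6 * s₁) := (Nat.one_le_div_iff h6s).mpr (by omega)
      omega
    set j : ℕ := Nat.log 2 t with hj
    have hj1 : 2 ^ j ≤ t := Nat.pow_log_le_self 2 ht1
    have hj2 : t < 2 ^ (j + 1) := Nat.lt_pow_succ_log_self (by norm_num) t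
    have hd1 : (6 * s₁) * t ≤ m - m₁ := Nat.mul_div_le _ _
    have hd2 : m - m₁ < (6 * s₁) * (t + 1) := by
      have := Nat.lt_mul_div_succ (m - m₁) h6s
      simpa [ht] using this
    have hm3 : m₁ + 6 * (2 ^ j * s₁) ≤ m := by
      have : (6 * s₁) * 2 ^ j ≤ (6 * s₁) * t := Nat.mul_le_mul_left _ hj1
      have h2 : 6 * (2 ^ j * s₁) = (6 * s₁) * 2 ^ j := by ring
      omega
    have h := hstarj j m hm3
    set S : ℕ := 2 * (2 ^ j * s₁) with hS
    have hS1 : 2 ^ (j + 1) * s₁ = S := by rw [hS, pow_succ]; ring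
    have hSm : m < 12 * S := by
      have h1 : t + 1 ≤ 2 ^ (j + 1) := hj2
      have h2 : (6 * s₁) * (t + 1) ≤ (6 * s₁) * 2 ^ (j + 1) := Nat.mul_le_mul_left _ h1
      have h3 : (6 * s₁) * 2 ^ (j + 1) = 6 * S := by rw [← hS1]; ring
      omega
    have hSS₀ : S₀ ≤ S := by omega
    have hηS : η S ≤ 1 / 16 := (hS₀ S hSS₀).le
    have hSpos : 0 < S := by omega
    have hSr : (0 : ℝ) < S := by exact_mod_cast hSpos
    have hmpos : 0 < m := by omega
    have hmr : (0 : ℝ) < m := by exact_mod_cast hmpos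
    have hSmr : (m : ℝ) < 12 * S := by exact_mod_cast hSm
    have hQm := hQpos m
    have hbd : (4 / 3) * (η S / (S : ℝ)) ≤ 1 / (m : ℝ) := by
      have h2 : η S / (S : ℝ) ≤ (1 / 16) / (S : ℝ) := div_le_div_of_nonneg_right hηS hSr.le
      have h3 : (1 / 16) / (S : ℝ) * (4 / 3) ≤ 1 / (m : ℝ) := by
        rw [div_mul_eq_mul_div, div_le_div_iff₀ hSr hmr]
        nlinarith
      nlinarith
    calc Q m - Q (m + 1) ≤ (4 / 3) * (η S / (S : ℝ)) * Q m := h
      _ ≤ 1 / (m : ℝ) * Q m := mul_le_mul_of_nonneg_right hbd hQm.le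
      _ = Q m / m := by ring
  -- the lower bound
  have hm₂2 : 2 ≤ m₂ := by omega
  set c : ℝ := ((m₂ : ℝ) - 1) * Q m₂ with hc
  have hm₂r : (2 : ℝ) ≤ m₂ := by exact_mod_cast hm₂2
  have hcpos : 0 < c := mul_pos (by linarith) (hQpos _)
  have hlower : ∀ k : ℕ, c ≤ (((m₂ + k : ℕ) : ℝ) - 1) * Q (m₂ + k) := by
    intro k
    induction k with
    | zero => simp [hc]
    | succ n ih =>
      have h1 := hkey (m₂ + n) (by omega)
      have hmr : (2 : ℝ) ≤ ((m₂ + n : ℕ) : ℝ) := by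
        have : 2 ≤ m₂ + n := by omega
        exact_mod_cast this
      have h2 : Q (m₂ + n) / ((m₂ + n : ℕ) : ℝ) * ((m₂ + n : ℕ) : ℝ) = Q (m₂ + n) := by
        field_simp
      have h3 : (((m₂ + n + 1 : ℕ) : ℝ) - 1) * Q (m₂ + n + 1) = ((m₂ + n : ℕ) : ℝ) * Q (m₂ + n + 1) := by
        push_cast
        ring
      have h4 : ((m₂ + n : ℕ) : ℝ) * (Q (m₂ + n) - Q (m₂ + n + 1)) ≤ Q (m₂ + n) := by
        calc ((m₂ + n : ℕ) : ℝ) * (Q (m₂ + n) - Q (m₂ + n + 1))
            ≤ ((m₂ + n : ℕ) : ℝ) * (Q (m₂ + n) / ((m₂ + n : ℕ) : ℝ)) :=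
              mul_le_mul_of_nonneg_left h1 (by linarith)
          _ = Q (m₂ + n) := by rw [mul_comm, h2]
      have h5 : m₂ + (n + 1) = m₂ + n + 1 := rfl
      rw [h5, h3]
      nlinarith
  intro hsum
  have hsum2 : Summable (fun k : ℕ => Q (k + m₂)) := (summable_nat_add_iff m₂).mpr hsum
  have hharm : Summable (fun k : ℕ => c * (1 / ((k + m₂ : ℕ) : ℝ))) := by
    refine Summable.of_nonneg_of_le (fun k => ?_) (fun k => ?_) hsum2
    · have : 0 < ((k + m₂ : ℕ) : ℝ) := by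
        have : 0 < k + m₂ := by omega
        exact_mod_cast this
      positivity
    · have h1 := hlower k
      rw [add_comm m₂ k] at h1
      have hpos : (0 : ℝ) < ((k + m₂ : ℕ) : ℝ) := by
        have : 0 < k + m₂ := by omega
        exact_mod_cast this
      have hQk := hQpos (k + m₂)
      have h2 : c ≤ ((k + m₂ : ℕ) : ℝ) * Q (k + m₂) := by nlinarith
      rw [mul_one_div, div_le_iff₀ hpos]
      linarith
  have hharm2 : Summable (fun k : ℕ => (1 / ((k + m₂ : ℕ) : ℝ))) := by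
    have := hharm.mul_left (1 / c)
    refine this.congr (fun k => ?_)
    field_simp
  have hharm3 : Summable (fun k : ℕ => (1 / (k : ℝ))) :=
    (summable_nat_add_iff (f := fun k : ℕ => (1 / (k : ℝ))) m₂).mp (by simpa using hharm2)
  exact Real.not_summable_one_div_natCast hharm3

end Vale.Agent.Lib.P147T
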