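import Mathlib

/-!
# P147: nonnegative matrices on a set, powers and killed row sums.
-/

open scoped ENNReal BigOperators
open Filter Topology

namespace Vale.Agent.Lib.P147T

variable {G : Type}

open Classical in
/-- Powers of a nonnegative matrix. -/
noncomputable def mpow (A : G → G → ℝ≥0∞) : ℕ → G → G → ℝ≥0∞
  | 0, x, y => if x = y then 1 else 0
  | n + 1, x, y => ∑' z, A x z * mpow A n z y

/-- Row sums of the powers, by recursion. -/
noncomputable def Qf (K : G → G → ℝ≥0∞) : ℕ → G → ℝ≥0∞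
  | 0, _ => 1
  | n + 1, x => ∑' y, K x y * Qf K n y

theorem mpow_succ_left (A : G → G → ℝ≥0∞) (n : ℕ) (x y : G) :
    mpow A (n + 1) x y = ∑' z, A x z * mpow A n z y := rfl

theorem Qf_zero (K : G → G → ℝ≥0∞) (x : G) : Qf K 0 x = 1 := rfl

theorem Qf_succ_left (K : G → G → ℝ≥0∞) (n : ℕ) (x : G) :
    Qf K (n + 1) x = ∑' y, K x y * Qf K n y := rfl

theorem tsum_mpow_zero_mul (A : G → G → ℝ≥0∞) (f : G → ℝ≥0∞) (x : G) :
    ∑' z, mpow A 0 x z * f z = f x := by
  classical
  rw [tsum_eq_single x]
  · simp [mpow]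
  · intro z hz
    simp [mpow, hz.symm]

theorem tsum_mul_mpow_zero (A : G → G → ℝ≥0∞) (f : G → ℝ≥0∞) (y : G) :
    ∑' z, f z * mpow A 0 z y = f y := by
  classical
  rw [tsum_eq_single y]
  · simp [mpow]
  · intro z hz
    simp [mpow, hz]

theorem tsum_mpow_zero_row (A : G → G → ℝ≥0∞) (x : G) : ∑' z, mpow A 0 x z = 1 := by
  have := tsum_mpow_zero_mul A (fun _ => 1) x
  simpa using this

theorem tsum_mpow_zero_col (A : G → G → ℝ≥0∞) (y : G) : ∑' z, mpow A 0 z y = 1 := by
  have := tsum_mul_mpow_zero A (fun _ => 1) y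
  simpa using this

theorem mpow_add (A : G → G → ℝ≥0∞) (m n : ℕ) (x y : G) :
    mpow A (m + n) x y = ∑' z, mpow A m x z * mpow A n z y := by
  induction m generalizing x with
  | zero => rw [zero_add, tsum_mpow_zero_mul]
  | succ m ih =>
    have h : m + 1 + n = (m + n) + 1 := by omega
    rw [h, mpow_succ_left]
    calc ∑' z', A x z' * mpow A (m + n) z' y
        = ∑' z', ∑' z, A x z' * (mpow A m z' z * mpow A n z y) := by
          refine tsum_congr fun z' => ?_
          rw [ih, ENNReal.tsum_mul_left]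
      _ = ∑' z, ∑' z', A x z' * (mpow A m z' z * mpow A n z y) := ENNReal.tsum_comm
      _ = ∑' z, mpow A (m + 1) x z * mpow A n z y := by
          refine tsum_congr fun z => ?_
          rw [mpow_succ_left, ← ENNReal.tsum_mul_right]
          refine tsum_congr fun z' => ?_
          ring

theorem mpow_one (A : G → G → ℝ≥0∞) (x y : G) : mpow A 1 x y = A x y := by
  have h : mpow A 1 x y = ∑' z, A x z * mpow A 0 z y := rfl
  rw [h, tsum_mul_mpow_zero]

theorem mpow_succ_right (A : G → G → ℝ≥0∞) (n : ℕ) (x y : G) :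
    mpow A (n + 1) x y = ∑' z, mpow A n x z * A z y := by
  rw [mpow_add]
  exact tsum_congr fun z => by rw [mpow_one]

theorem Qf_eq (K : G → G → ℝ≥0∞) (n : ℕ) (x : G) : Qf K n x = ∑' y, mpow K n x y := by
  induction n generalizing x with
  | zero => rw [Qf_zero, tsum_mpow_zero_row]
  | succ n ih =>
    rw [Qf_succ_left]
    calc ∑' y, K x y * Qf K n y = ∑' y, ∑' z, K x y * mpow K n y z := by
          refine tsum_congr fun y => ?_
          rw [ih, ENNReal.tsum_mul_left]
      _ = ∑' z, ∑' y, K x y * mpow K n y z := ENNReal.tsum_comm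
      _ = ∑' z, mpow K (n + 1) x z := by
          refine tsum_congr fun z => ?_
          rw [mpow_succ_left]

theorem mpow_mono {A B : G → G → ℝ≥0∞} (h : ∀ x y, A x y ≤ B x y) (n : ℕ) (x y : G) :
    mpow A n x y ≤ mpow B n x y := by
  induction n generalizing x with
  | zero => exact le_rfl
  | succ n ih =>
    rw [mpow_succ_left, mpow_succ_left]
    exact ENNReal.tsum_le_tsum fun z => mul_le_mul' (h x z) (ih z)

end Vale.Agent.Lib.P147T
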