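import Vale.Agent.Lib.P147T.Lambda
import Vale.Agent.Lib.P147T.Matrix

/-!
# P147: the Markov chain of relative offsets on the atoms, killed at clashes.

`e` is a unit step with `L (stepVec e) = 1`.  `Clash L e x m` says that the up path of `m`, seen from
its top, and the down path of `m`, started at `x - stepVec e` from the top, have a common departure
site.  `K = kK`, `P = kP`, `D = kD` are the killed, full and defect matrices on the sites.
-/

open scoped ENNReal BigOperators
open Filter Topology

namespace Vale.Agent.Lib.P147T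

variable {d : ℕ}

section
variable {L : Site d →+ ℤ}

/-- Clash of `m` at the relative offset `x`. -/
def Clash (L : Site d →+ ℤ) (e : Step d) (x : Site d) (m : Mon L) : Prop :=
  L x = 0 ∧ ∃ u ∈ dep m.a, ∃ y ∈ dep m.b, u - endp m.a = x - stepVec e + y

/-- The displacement of the relative offset. -/
def Delta (m : Mon L) : Site d := endp m.a + endp m.b

theorem L_Delta (m : Mon L) : L (Delta m) = 0 := by
  have h1 := m.ha.1
  have h2 := m.hb.1
  simp only [AddMonoidHom.neg_apply] at h2
  simp only [Delta, map_add, h1]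
  omega

open Classical in
/-- The full transition matrix. -/
noncomputable def kP (W : Wt d) (L : Site d →+ ℤ) (x y : Site d) : ℝ≥0∞ :=
  ∑' C : Atom L, wM W C.1 * (if x + Delta C.1 = y then 1 else 0)

open Classical in
/-- The killed transition matrix. -/
noncomputable def kK (W : Wt d) (L : Site d →+ ℤ) (e : Step d) (x y : Site d) : ℝ≥0∞ :=
  ∑' C : Atom L, wM W C.1 * (if ¬ Clash L e x C.1 ∧ x + Delta C.1 = y then 1 else 0)

open Classical in
/-- The defect matrix. -/
noncomputable def kD (W : Wt d) (L : Site d →+ ℤ) (e : Step d) (x y : Site d) : ℝ≥0∞ :=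
  ∑' C : Atom L, wM W C.1 * (if Clash L e x C.1 ∧ x + Delta C.1 = y then 1 else 0)

open Classical in
/-- Total weight of the elements of the monoid without clash at `x`. -/
noncomputable def Jf (W : Wt d) (L : Site d →+ ℤ) (e : Step d) (x : Site d) : ℝ≥0∞ :=
  ∑' m : Mon L, wM W m * (if Clash L e x m then 0 else 1)

variable (W : Wt d) (e : Step d) 

theorem kP_eq (x y : Site d) : kP W L x y = kK W L e x y + kD W L e x y := by
  classical
  unfold kP kK kD
  rw [← ENNReal.tsum_add]
  refine tsum_congr fun C => ?_
  by_cases h1 : Clash L e x C.1 <;> by_cases h2 : x + Delta C.1 = y <;> simp [h1, h2]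

theorem kP_row {c : ℝ≥0∞} (hc : CrossLower W L c) (x : Site d) : ∑' y, kP W L x y = 1 := by
  classical
  unfold kP
  rw [ENNReal.tsum_comm]
  have : ∀ C : Atom L, ∑' y, wM W C.1 * (if x + Delta C.1 = y then 1 else 0) = wM W C.1 := by
    intro C
    rw [ENNReal.tsum_mul_left]
    have h2 : (fun y : Site d => if x + Delta C.1 = y then (1 : ℝ≥0∞) else 0)
        = fun y => if y = x + Delta C.1 then 1 else 0 := by
      funext y
      simp only [eq_comm]
    rw [h2, tsum_ite_eq, mul_one]
  simp only [this]
  exact atom_total_eq_one W hc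

theorem kP_col {c : ℝ≥0∞} (hc : CrossLower W L c) (y : Site d) : ∑' x, kP W L x y = 1 := by
  classical
  unfold kP
  rw [ENNReal.tsum_comm]
  have : ∀ C : Atom L, ∑' x, wM W C.1 * (if x + Delta C.1 = y then 1 else 0) = wM W C.1 := by
    intro C
    rw [ENNReal.tsum_mul_left]
    have h2 : (fun x : Site d => if x + Delta C.1 = y then (1 : ℝ≥0∞) else 0)
        = fun x => if x = y - Delta C.1 then 1 else 0 := by
      funext x
      by_cases h : x + Delta C.1 = y
      · have h3 : x = y - Delta C.1 := eq_sub_of_add_eq h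
        rw [if_pos h, if_pos h3]
      · have h3 : ¬ x = y - Delta C.1 := fun h4 => h (by rw [h4]; abel)
        rw [if_neg h, if_neg h3]
    rw [h2, tsum_ite_eq, mul_one]
  simp only [this]
  exact atom_total_eq_one W hc

/-- Clash of a product (needs `L (stepVec e) = 1`). -/
theorem clash_mul (he : L (stepVec e) = 1) (x : Site d) (C m : Mon L) :
    Clash L e x (C * m) ↔ Clash L e x C ∨ Clash L e (x + Delta C) m := by
  constructor
  · rintro ⟨hx, u, hu, y, hy, hxy⟩
    simp only [Mon.mul_a, Mon.mul_b, endp_append] at hu hy hxy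
    rcases mem_dep_append.1 hu with hu | ⟨u', hu', rfl⟩
    · rcases mem_dep_append.1 hy with hy | ⟨y', hy', rfl⟩
      · exfalso
        have h1 := m.ha.2 u hu
        have h2 := C.hb.2 y hy
        have h3 := congrArg L hxy
        simp only [map_sub, map_add, m.ha.1, C.ha.1, hx, he] at h3
        simp only [AddMonoidHom.neg_apply] at h2
        push_cast at h3
        omega
      · right
        refine ⟨by rw [map_add, hx, L_Delta]; simp, u, hu, y', hy', ?_⟩
        unfold Delta
        have : u - endp m.a = u - (endp m.a + endp C.a) + endp C.a := by abel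
        rw [this, hxy]
        abel
    · rcases mem_dep_append.1 hy with hy | ⟨y', hy', rfl⟩
      · left
        refine ⟨hx, u', hu', y, hy, ?_⟩
        rw [← hxy]
        abel
      · exfalso
        have h1 := C.ha.2 u' hu'
        have h2 := m.hb.2 y' hy'
        have h3 := congrArg L hxy
        have h4 := C.hb.1
        simp only [map_sub, map_add, m.ha.1, C.ha.1, hx, he] at h3
        simp only [AddMonoidHom.neg_apply] at h2 h4
        push_cast at h3
        omega
  · rintro (⟨hx, u, hu, y, hy, hxy⟩ | ⟨hx, u, hu, y, hy, hxy⟩)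
    · refine ⟨hx, endp m.a + u, ?_, y, ?_, ?_⟩
      · simp only [Mon.mul_a]
        exact mem_dep_append.2 (Or.inr ⟨u, hu, rfl⟩)
      · simp only [Mon.mul_b]
        exact mem_dep_append.2 (Or.inl hy)
      · simp only [Mon.mul_a, endp_append]
        rw [← hxy]
        abel
    · refine ⟨?_, u, ?_, endp C.b + y, ?_, ?_⟩
      · rw [map_add, L_Delta] at hx
        simpa using hx
      · simp only [Mon.mul_a]
        exact mem_dep_append.2 (Or.inl hu)
      · simp only [Mon.mul_b]
        exact mem_dep_append.2 (Or.inr ⟨y, hy, rfl⟩)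
      · simp only [Mon.mul_a, endp_append]
        unfold Delta at hxy
        have : u - (endp m.a + endp C.a) = u - endp m.a - endp C.a := by abel
        rw [this, hxy]
        abel

open Classical in
theorem Qf_succ (n : ℕ) (x : Site d) :
    Qf (kK W L e) (n + 1) x =
      ∑' C : Atom L, wM W C.1 * (if Clash L e x C.1 then 0 else Qf (kK W L e) n (x + Delta C.1)) := by
  classical
  change ∑' y, kK W L e x y * Qf (kK W L e) n y = _
  unfold kK
  simp_rw [← ENNReal.tsum_mul_right]
  rw [ENNReal.tsum_comm]
  refine tsum_congr fun C => ?_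
  by_cases h1 : Clash L e x C.1
  · simp [h1]
  · simp only [h1, not_false_eq_true, true_and, if_false]
    rw [tsum_eq_single (x + Delta C.1)]
    · simp
    · intro y hy
      have : ¬ x + Delta C.1 = y := fun h => hy h.symm
      simp [this]

open Classical in
theorem Jf_rec (he : L (stepVec e) = 1) (x : Site d) :
    Jf W L e x =
      1 + ∑' C : Atom L, wM W C.1 * (if Clash L e x C.1 then 0 else Jf W L e (x + Delta C.1)) := by
  classical
  unfold Jf
  rw [first_step W (fun m => if Clash L e x m then (0 : ℝ≥0∞) else 1)]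
  have h1 : ¬ Clash L e x (1 : Mon L) := by
    rintro ⟨_, u, hu, _⟩
    simp at hu
  rw [if_neg h1]
  congr 1
  refine tsum_congr fun C => ?_
  by_cases h2 : Clash L e x C.1
  · simp [clash_mul e he, h2]
  · simp [clash_mul e he, h2]

theorem sum_Qf_le_Jf (he : L (stepVec e) = 1) (N : ℕ) (x : Site d) :
    ∑ n ∈ Finset.range N, Qf (kK W L e) n x ≤ Jf W L e x := by
  classical
  induction N generalizing x with
  | zero => simp
  | succ N ih =>
    rw [Finset.sum_range_succ', Jf_rec W e he x]
    have hq : Qf (kK W L e) 0 x = 1 := rfl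
    rw [hq, add_comm]
    gcongr
    simp_rw [Qf_succ W e]
    rw [← Summable.tsum_finsetSum (fun _ _ => ENNReal.summable)]
    refine ENNReal.tsum_le_tsum fun C => ?_
    rw [← Finset.mul_sum]
    gcongr
    by_cases h : Clash L e x C.1
    · simp [h]
    · simp only [h, if_false]
      exact ih _

/-- The clashes of an atom occur at no more offsets than its pair count. -/
theorem clash_card_le (he : L (stepVec e) = 1) (m : Mon L) (S : Finset (Site d))
    (hS : ∀ x ∈ S, Clash L e x m) : S.card ≤ pairCount m := by
  classical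
  have hch : ∀ x ∈ S, ∃ p : Site d × Site d, p.1 ∈ dep m.a ∧ p.2 ∈ dep m.b ∧
      p.1 - endp m.a = x - stepVec e + p.2 := by
    intro x hx
    obtain ⟨_, u, hu, y, hy, h⟩ := hS x hx
    exact ⟨(u, y), hu, hy, h⟩
  choose! f hf1 hf2 hf3 using hch
  let T : Finset (Site d × Site d) := (Finset.range m.g).biUnion (fun k =>
    ((dep m.a).filter (fun u => L u + 1 + (k : ℤ) = (m.g : ℤ))) ×ˢ
      ((dep m.b).filter (fun y => (-L) y = (k : ℤ))))
  have hmaps : ∀ x ∈ S, f x ∈ T := by
    intro x hx
    have h1 := hf1 x hx
    have h2 := hf2 x hx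
    have h3 := hf3 x hx
    have hL : L (f x).1 - L (endp m.a) = L x - L (stepVec e) + L (f x).2 := by
      have := congrArg L h3
      simpa only [map_sub, map_add] using this
    have hx0 := (hS x hx).1
    rw [m.ha.1, hx0, he] at hL
    have hup := m.ha.2 _ h1
    have hk : (0 : ℤ) ≤ (m.g : ℤ) - 1 - L (f x).1 := by omega
    obtain ⟨k, hk'⟩ := Int.eq_ofNat_of_zero_le hk
    refine Finset.mem_biUnion.2 ⟨k, Finset.mem_range.2 (by omega), ?_⟩
    refine Finset.mem_product.2 ⟨Finset.mem_filter.2 ⟨h1, by omega⟩, Finset.mem_filter.2 ⟨h2, ?_⟩⟩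
    simp only [AddMonoidHom.neg_apply]
    omega
  have hinj : Set.InjOn f (S : Set (Site d)) := by
    intro x hx x' hx' hxx
    have h3 := hf3 x hx
    have h3' := hf3 x' hx'
    rw [hxx] at h3
    have : x - stepVec e + (f x').2 = x' - stepVec e + (f x').2 := h3.symm.trans h3'
    have h4 := add_right_cancel this
    exact sub_left_injective h4
  calc S.card ≤ T.card := Finset.card_le_card_of_injOn f (fun x hx => hmaps x hx) hinj
    _ ≤ ∑ k ∈ Finset.range m.g, (((dep m.a).filter (fun u => L u + 1 + (k : ℤ) = (m.g : ℤ))) ×ˢ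
          ((dep m.b).filter (fun y => (-L) y = (k : ℤ)))).card := Finset.card_biUnion_le
    _ = pairCount m := by
      unfold pairCount prA prB
      refine Finset.sum_congr rfl fun k _ => ?_
      rw [Finset.card_product]

/-- The total defect is finite. -/
theorem kD_total_ne_top (he : L (stepVec e) = 1) {c : ℝ≥0∞} (hc : CrossLower W L c)
    (hBu : Ballistic W L) (hBd : Ballistic W (-L)) :
    ∑' x, ∑' y, kD W L e x y ≠ ∞ := by
  classical
  have hmean := pairCount_mean_ne_top W hc hBu hBd
  refine ne_top_of_le_ne_top hmean ?_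
  have hy : ∀ x : Site d, ∑' y, kD W L e x y =
      ∑' C : Atom L, wM W C.1 * (if Clash L e x C.1 then 1 else 0) := by
    intro x
    unfold kD
    rw [ENNReal.tsum_comm]
    refine tsum_congr fun C => ?_
    rw [ENNReal.tsum_mul_left]
    congr 1
    by_cases hcl : Clash L e x C.1
    · simp only [hcl, true_and, if_true]
      have h1 : ∀ i : Site d, (if x + Delta C.1 = i then (1 : ℝ≥0∞) else 0) =
          if i = x + Delta C.1 then 1 else 0 := fun i => by
        by_cases h : i = x + Delta C.1
        · simp [h]
        · have h' : ¬ x + Delta C.1 = i := fun h2 => h h2.symm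
          simp [h, h']
      simp_rw [h1]
      exact tsum_ite_eq (x + Delta C.1) (fun _ => (1 : ℝ≥0∞))
    · simp [hcl]
  simp_rw [hy]
  rw [ENNReal.tsum_comm]
  refine ENNReal.tsum_le_tsum fun C => ?_
  rw [ENNReal.tsum_mul_left]
  gcongr
  rw [ENNReal.tsum_eq_iSup_sum]
  refine iSup_le fun S => ?_
  have hS : ∀ x ∈ S.filter (fun x => Clash L e x C.1), Clash L e x C.1 := fun x hx =>
    (Finset.mem_filter.1 hx).2
  have hc' := clash_card_le e he C.1 (S.filter (fun x => Clash L e x C.1)) hS
  calc ∑ x ∈ S, (if Clash L e x C.1 then (1 : ℝ≥0∞) else 0)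
      = ((S.filter (fun x => Clash L e x C.1)).card : ℝ≥0∞) := by
        rw [Finset.sum_ite]
        simp
    _ ≤ (pairCount C.1 : ℝ≥0∞) := by exact_mod_cast hc'

end

end Vale.Agent.Lib.P147T
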