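import Vale.Agent.Lib.P147T.Matrix

/-!
# P147: concentration of a translation invariant walk with four coin atoms.

If the step distribution `π` puts mass at least `q` on each of the four vectors `± e₁ ± e₂`, with
`e₁, e₂` independent over `ℤ`, then all entries of the `n`-th power of the convolution matrix are at
most `1 / ((n + 1) * 4 * q)`.
-/

open scoped ENNReal BigOperators
open Filter Topology

namespace Vale.Agent.Lib.P147T

theorem centralBinom_sq_le (k : ℕ) : (2 * k + 1) * (Nat.centralBinom k) ^ 2 ≤ 16 ^ k := by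
  induction k with
  | zero => simp
  | succ k ih =>
    have h := Nat.succ_mul_centralBinom_succ k
    have key : (k + 1) ^ 2 * ((2 * (k + 1) + 1) * (Nat.centralBinom (k + 1)) ^ 2) ≤
        (k + 1) ^ 2 * 16 ^ (k + 1) := by
      calc (k + 1) ^ 2 * ((2 * (k + 1) + 1) * (Nat.centralBinom (k + 1)) ^ 2)
          = (2 * k + 3) * ((k + 1) * Nat.centralBinom (k + 1)) ^ 2 := by ring
        _ = (2 * k + 3) * (2 * (2 * k + 1) * Nat.centralBinom k) ^ 2 := by rw [h]
        _ = ((2 * k + 3) * (2 * k + 1)) * 4 * ((2 * k + 1) * (Nat.centralBinom k) ^ 2) := by ring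
        _ ≤ (4 * (k + 1) ^ 2) * 4 * 16 ^ k := by
            apply Nat.mul_le_mul _ ih
            apply Nat.mul_le_mul_right
            nlinarith
        _ = (k + 1) ^ 2 * 16 ^ (k + 1) := by ring
    exact Nat.le_of_mul_le_mul_left key (by positivity)

/-- The central binomial estimate. -/
theorem choose_sq_le (m : ℕ) : (m + 1) * (m.choose (m / 2)) ^ 2 ≤ 4 ^ m := by
  obtain ⟨k, rfl | rfl⟩ := Nat.even_or_odd' m
  · rw [show 2 * k / 2 = k by omega]
    have h := centralBinom_sq_le k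
    rw [Nat.centralBinom_eq_two_mul_choose] at h
    calc (2 * k + 1) * ((2 * k).choose k) ^ 2 ≤ 16 ^ k := h
      _ = 4 ^ (2 * k) := by rw [pow_mul]; norm_num
  · rw [show (2 * k + 1) / 2 = k by omega]
    have h1 := centralBinom_sq_le (k + 1)
    have h2 : Nat.centralBinom (k + 1) = 2 * (2 * k + 1).choose k := by
      rw [Nat.centralBinom_eq_two_mul_choose, show 2 * (k + 1) = (2 * k + 1) + 1 by ring,
        Nat.choose_succ_succ, Nat.choose_symm_half]
      ring
    rw [h2] at h1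
    have h3 : 16 ^ (k + 1) = 4 * 4 ^ (2 * k + 1) := by
      rw [pow_succ, pow_succ, pow_mul]; norm_num; ring
    rw [h3] at h1
    have h4 : 4 * ((2 * k + 1 + 1) * ((2 * k + 1).choose k) ^ 2) ≤ 4 * 4 ^ (2 * k + 1) := by
      refine le_trans ?_ h1
      have : 0 ≤ ((2 * k + 1).choose k) ^ 2 := Nat.zero_le _
      nlinarith
    exact Nat.le_of_mul_le_mul_left h4 (by norm_num)

/-- Sign of a Boolean. -/
def sgn (b : Bool) : ℤ := if b then 1 else -1

section Operators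

variable {G ι : Type} [AddCommGroup G]

/-- Weighted translation operator. -/
noncomputable def opT (w : ι → ℝ≥0∞) (Δ : ι → G) : Module.End ℝ≥0∞ (G → ℝ≥0∞) where
  toFun f x := ∑' i, w i * f (x + Δ i)
  map_add' f g := by
    funext x
    simp only [Pi.add_apply, mul_add]
    exact ENNReal.tsum_add
  map_smul' c f := by
    funext x
    simp only [Pi.smul_apply, smul_eq_mul, RingHom.id_apply]
    rw [← ENNReal.tsum_mul_left]
    congr 1
    funext i
    ring

/-- Translation operator. -/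
noncomputable def opτ (a : G) : Module.End ℝ≥0∞ (G → ℝ≥0∞) where
  toFun f x := f (x + a)
  map_add' _ _ := rfl
  map_smul' _ _ := rfl

theorem opT_apply (w : ι → ℝ≥0∞) (Δ : ι → G) (f : G → ℝ≥0∞) (x : G) :
    opT w Δ f x = ∑' i, w i * f (x + Δ i) := rfl

theorem opτ_apply (a : G) (f : G → ℝ≥0∞) (x : G) : opτ a f x = f (x + a) := rfl

theorem opT_comm (w w' : ι → ℝ≥0∞) (Δ : ι → G) : Commute (opT w Δ) (opT w' Δ) := by
  show opT w Δ * opT w' Δ = opT w' Δ * opT w Δ
  apply LinearMap.ext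
  intro f
  funext x
  show ∑' i, w i * (∑' j, w' j * f (x + Δ i + Δ j)) = ∑' j, w' j * (∑' i, w i * f (x + Δ j + Δ i))
  simp_rw [← ENNReal.tsum_mul_left]
  rw [ENNReal.tsum_comm]
  refine tsum_congr fun j => tsum_congr fun i => ?_
  rw [show x + Δ i + Δ j = x + Δ j + Δ i by abel]
  ring

theorem opT_τ_comm (w : ι → ℝ≥0∞) (Δ : ι → G) (a : G) : Commute (opT w Δ) (opτ a) := by
  show opT w Δ * opτ a = opτ a * opT w Δ
  apply LinearMap.ext
  intro f
  funext x
  show ∑' i, w i * f (x + Δ i + a) = ∑' i, w i * f (x + a + Δ i)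
  refine tsum_congr fun i => ?_
  rw [show x + Δ i + a = x + a + Δ i by abel]

theorem opτ_comm (a b : G) : Commute (opτ a) (opτ b) := by
  show opτ a * opτ b = opτ b * opτ a
  apply LinearMap.ext
  intro f
  funext x
  show f (x + a + b) = f (x + b + a)
  rw [show x + a + b = x + b + a by abel]

theorem opτ_mul (a b : G) : opτ a * opτ b = opτ (a + b) := by
  apply LinearMap.ext
  intro f
  funext x
  show f (x + a + b) = f (x + (a + b))
  rw [add_assoc]

theorem opτ_zero : (opτ (0 : G)) = 1 := by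
  apply LinearMap.ext
  intro f
  funext x
  show f (x + 0) = f x
  rw [add_zero]

theorem opτ_pow (a : G) (k : ℕ) : (opτ a) ^ k = opτ (k • a) := by
  induction k with
  | zero => simp [opτ_zero]
  | succ k ih => rw [pow_succ, ih, opτ_mul, succ_nsmul]

/-- The symmetric two point average. -/
noncomputable def opA (e : G) : Module.End ℝ≥0∞ (G → ℝ≥0∞) := opτ e + opτ (-e)

theorem opA_comm (e e' : G) : Commute (opA e) (opA e') := by
  unfold opA
  exact ((opτ_comm _ _).add_right (opτ_comm _ _)).add_left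
    ((opτ_comm _ _).add_right (opτ_comm _ _))

theorem opT_A_comm (w : ι → ℝ≥0∞) (Δ : ι → G) (e : G) : Commute (opT w Δ) (opA e) := by
  unfold opA
  exact (opT_τ_comm _ _ _).add_right (opT_τ_comm _ _ _)

theorem natCast_end_apply (n : ℕ) (f : G → ℝ≥0∞) (x : G) :
    ((n : Module.End ℝ≥0∞ (G → ℝ≥0∞)) f) x = (n : ℝ≥0∞) * f x := by
  induction n with
  | zero => simp
  | succ n ih =>
    rw [Nat.cast_succ, LinearMap.add_apply, Pi.add_apply, ih, Module.End.one_apply]
    push_cast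
    ring

/-- Explicit form of the powers of the two point average. -/
theorem opA_pow_apply (e : G) (m : ℕ) (f : G → ℝ≥0∞) (x : G) :
    ((opA e) ^ m) f x =
      ∑ k ∈ Finset.range (m + 1), ((m.choose k : ℕ) : ℝ≥0∞) * f (x + ((k : ℤ) - ((m - k : ℕ) : ℤ)) • e) := by
  unfold opA
  rw [(opτ_comm e (-e)).add_pow, LinearMap.sum_apply, Finset.sum_apply]
  refine Finset.sum_congr rfl fun k _ => ?_
  have hfun : ((m.choose k : ℕ) : Module.End ℝ≥0∞ (G → ℝ≥0∞)) f = ((m.choose k : ℕ) : ℝ≥0∞) • f := by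
    funext y
    rw [natCast_end_apply, Pi.smul_apply, smul_eq_mul]
  rw [Module.End.mul_apply, hfun, map_smul, Pi.smul_apply, smul_eq_mul, Module.End.mul_apply]
  congr 1
  rw [opτ_pow, opτ_pow, opτ_apply, opτ_apply]
  congr 1
  rw [add_assoc, sub_smul, smul_neg, sub_eq_add_neg]
  simp only [natCast_zsmul]

/-- The weight of a word of moves in the plane. -/
theorem opU_pow_le (e₁ e₂ : G) (hind : ∀ k l : ℤ, k • e₁ + l • e₂ = 0 → k = 0 ∧ l = 0)
    (m : ℕ) (g : G → ℝ≥0∞) (x : G) :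
    ((opA e₁ * opA e₂) ^ m) g x ≤ ((m.choose (m / 2) : ℕ) : ℝ≥0∞) ^ 2 * ∑' z, g z := by
  classical
  rw [(opA_comm e₁ e₂).mul_pow, Module.End.mul_apply, opA_pow_apply]
  simp_rw [opA_pow_apply e₂ m g]
  set c : ℝ≥0∞ := ((m.choose (m / 2) : ℕ) : ℝ≥0∞) with hc
  have hchoose : ∀ k : ℕ, ((m.choose k : ℕ) : ℝ≥0∞) ≤ c := fun k => by
    rw [hc]; exact_mod_cast Nat.choose_le_middle k m
  let φ : ℕ × ℕ → G := fun p =>
    x + ((p.1 : ℤ) - ((m - p.1 : ℕ) : ℤ)) • e₁ + ((p.2 : ℤ) - ((m - p.2 : ℕ) : ℤ)) • e₂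
  have hφ : Set.InjOn φ ((Finset.range (m + 1) ×ˢ Finset.range (m + 1) : Finset (ℕ × ℕ)) : Set (ℕ × ℕ)) := by
    rintro ⟨k, l⟩ hp ⟨k', l'⟩ hp' h
    simp only [Finset.coe_product, Set.mem_prod, Finset.coe_range, Set.mem_Iio] at hp hp'
    have h0 : (((k : ℤ) - ((m - k : ℕ) : ℤ)) - ((k' : ℤ) - ((m - k' : ℕ) : ℤ))) • e₁ +
        (((l : ℤ) - ((m - l : ℕ) : ℤ)) - ((l' : ℤ) - ((m - l' : ℕ) : ℤ))) • e₂ = 0 := by
      have h' : φ (k, l) = φ (k', l') := h
      simp only [φ] at h'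
      generalize ((k : ℤ) - ((m - k : ℕ) : ℤ)) = a1 at h' ⊢
      generalize ((k' : ℤ) - ((m - k' : ℕ) : ℤ)) = a2 at h' ⊢
      generalize ((l : ℤ) - ((m - l : ℕ) : ℤ)) = b1 at h' ⊢
      generalize ((l' : ℤ) - ((m - l' : ℕ) : ℤ)) = b2 at h' ⊢
      have h3 : (a1 - a2) • e₁ + (b1 - b2) • e₂ =
          (x + a1 • e₁ + b1 • e₂) - (x + a2 • e₁ + b2 • e₂) := by
        rw [sub_smul, sub_smul]; abel
      rw [h3, h', sub_self]
    obtain ⟨h1, h2⟩ := hind _ _ h0
    have hk : k = k' := by omega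
    have hl : l = l' := by omega
    rw [hk, hl]
  calc ∑ k ∈ Finset.range (m + 1), ((m.choose k : ℕ) : ℝ≥0∞) *
        ∑ l ∈ Finset.range (m + 1), ((m.choose l : ℕ) : ℝ≥0∞) *
          g (x + ((k : ℤ) - ((m - k : ℕ) : ℤ)) • e₁ + ((l : ℤ) - ((m - l : ℕ) : ℤ)) • e₂)
      ≤ ∑ k ∈ Finset.range (m + 1), c *
        ∑ l ∈ Finset.range (m + 1), c * g (φ (k, l)) := by
        refine Finset.sum_le_sum fun k _ => ?_
        refine mul_le_mul' (hchoose k) ?_
        refine Finset.sum_le_sum fun l _ => ?_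
        exact mul_le_mul' (hchoose l) le_rfl
    _ = c ^ 2 * ∑ p ∈ Finset.range (m + 1) ×ˢ Finset.range (m + 1), g (φ p) := by
        rw [Finset.sum_product, Finset.mul_sum]
        refine Finset.sum_congr rfl fun k _ => ?_
        rw [← Finset.mul_sum, ← mul_assoc, sq]
    _ = c ^ 2 * ∑ z ∈ (Finset.range (m + 1) ×ˢ Finset.range (m + 1)).image φ, g z := by
        rw [Finset.sum_image hφ]
    _ ≤ c ^ 2 * ∑' z, g z := by
        gcongr
        exact ENNReal.sum_le_tsum _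

theorem tsum_opT (w : ι → ℝ≥0∞) (Δ : ι → G) (g : G → ℝ≥0∞) :
    ∑' z, opT w Δ g z = (∑' i, w i) * ∑' z, g z := by
  simp_rw [opT_apply]
  rw [ENNReal.tsum_comm]
  simp_rw [ENNReal.tsum_mul_left]
  have h : ∀ i, ∑' z, g (z + Δ i) = ∑' z, g z := fun i => (Equiv.addRight (Δ i)).tsum_eq g
  simp_rw [h]
  rw [ENNReal.tsum_mul_right]

theorem tsum_opT_pow (w : ι → ℝ≥0∞) (Δ : ι → G) (k : ℕ) (g : G → ℝ≥0∞) :
    ∑' z, ((opT w Δ) ^ k) g z = (∑' i, w i) ^ k * ∑' z, g z := by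
  induction k with
  | zero => simp
  | succ k ih =>
    rw [pow_succ', Module.End.mul_apply, tsum_opT, ih, pow_succ']
    ring

open Classical in
theorem mpow_eq_op (π : ι → ℝ≥0∞) (Δ : ι → G) (n : ℕ) (x y : G) :
    mpow (fun x y => ∑' i, π i * (if x + Δ i = y then 1 else 0)) n x y =
      ((opT π Δ) ^ n) (fun z => if z = y then 1 else 0) x := by
  induction n generalizing x with
  | zero => rfl
  | succ n ih =>
    rw [pow_succ', Module.End.mul_apply, opT_apply]
    show ∑' z, (∑' i, π i * (if x + Δ i = z then 1 else 0)) *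
      mpow (fun x y => ∑' i, π i * (if x + Δ i = y then 1 else 0)) n z y = _
    simp_rw [ih, ← ENNReal.tsum_mul_right]
    rw [ENNReal.tsum_comm]
    refine tsum_congr fun i => ?_
    rw [tsum_eq_single (x + Δ i)]
    · simp
    · intro z hz
      have : x + Δ i ≠ z := fun h => hz h.symm
      simp [this]

end Operators

open Classical in
theorem conc_abstract {G ι : Type} [AddCommGroup G] (π : ι → ℝ≥0∞) (Δ : ι → G)
    (hπ : ∑' i, π i = 1) (e₁ e₂ : G) (hind : ∀ k l : ℤ, k • e₁ + l • e₂ = 0 → k = 0 ∧ l = 0)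
    (coin : Bool × Bool → ι) (hcoin : Function.Injective coin)
    (hΔ : ∀ σ, Δ (coin σ) = sgn σ.1 • e₁ + sgn σ.2 • e₂)
    (q : ℝ≥0∞) (hq : q ≠ 0) (hqπ : ∀ σ, q ≤ π (coin σ)) (n : ℕ) (x y : G) :
    ((n : ℝ≥0∞) + 1) * (4 * q) *
      mpow (fun x y => ∑' i, π i * (if x + Δ i = y then 1 else 0)) n x y ≤ 1 := by
  -- the coin weights
  let cw : ι → ℝ≥0∞ := fun i => ∑ σ : Bool × Bool, if i = coin σ then q else 0
  have hcw : ∀ i, cw i ≤ π i := by
    intro i
    by_cases h : ∃ σ, i = coin σ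
    · obtain ⟨σ, rfl⟩ := h
      have : cw (coin σ) = q := by
        show (∑ τ : Bool × Bool, if coin σ = coin τ then q else 0) = q
        rw [Finset.sum_eq_single σ]
        · simp
        · intro τ _ hτ
          have : coin σ ≠ coin τ := fun h => hτ (hcoin h).symm
          simp [this]
        · simp
      rw [this]
      exact hqπ σ
    · have : cw i = 0 := by
        apply Finset.sum_eq_zero
        intro σ _
        have : i ≠ coin σ := fun h' => h ⟨σ, h'⟩
        simp [this]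
      rw [this]
      exact bot_le
  let π' : ι → ℝ≥0∞ := fun i => π i - cw i
  have hdec : ∀ i, π i = π' i + cw i := fun i => (tsub_add_cancel_of_le (hcw i)).symm
  -- total mass
  have hcwsum : ∑' i, cw i = 4 * q := by
    have h1 : ∑' i, cw i = ∑ σ : Bool × Bool, ∑' i, (if i = coin σ then q else 0) := by
      show ∑' i, ∑ σ : Bool × Bool, (if i = coin σ then q else 0) = _
      rw [Summable.tsum_finsetSum (fun _ _ => ENNReal.summable)]
    rw [h1]
    simp only [tsum_ite_eq]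
    simp [Finset.card_univ]
  set p' : ℝ≥0∞ := ∑' i, π' i with hp'
  have hsum : 4 * q + p' = 1 := by
    rw [← hπ, ← hcwsum, hp', add_comm, ← ENNReal.tsum_add]
    exact tsum_congr fun i => (hdec i).symm
  -- the operator identity
  let U : Module.End ℝ≥0∞ (G → ℝ≥0∞) := opA e₁ * opA e₂
  let T' := opT π' Δ
  have hT : opT π Δ = q • U + T' := by
    apply LinearMap.ext
    intro f
    funext z
    show ∑' i, π i * f (z + Δ i) = q * (U f z) + ∑' i, π' i * f (z + Δ i)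
    have hU : U f z = ∑ σ : Bool × Bool, f (z + Δ (coin σ)) := by
      show (opτ e₁ + opτ (-e₁)) ((opτ e₂ + opτ (-e₂)) f) z = _
      simp only [hΔ, Fintype.sum_prod_type, Fintype.sum_bool, sgn]
      simp only [LinearMap.add_apply, Pi.add_apply, opτ_apply, if_true, if_false, Bool.false_eq_true,
        one_smul, neg_smul]
      rw [show z + -e₁ + e₂ = z + (-e₁ + e₂) by abel, show z + e₁ + e₂ = z + (e₁ + e₂) by abel,
        show z + e₁ + -e₂ = z + (e₁ + -e₂) by abel, show z + -e₁ + -e₂ = z + (-e₁ + -e₂) by abel]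
    have hcoinsum : ∑' i, cw i * f (z + Δ i) = q * U f z := by
      rw [hU, Finset.mul_sum]
      have h1 : ∀ i, cw i * f (z + Δ i) =
          ∑ σ : Bool × Bool, if i = coin σ then q * f (z + Δ (coin σ)) else 0 := by
        intro i
        show (∑ σ : Bool × Bool, if i = coin σ then q else 0) * f (z + Δ i) = _
        rw [Finset.sum_mul]
        refine Finset.sum_congr rfl fun σ _ => ?_
        split_ifs with h
        · rw [h]
        · simp
      simp_rw [h1]
      rw [Summable.tsum_finsetSum (fun _ _ => ENNReal.summable)]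
      simp only [tsum_ite_eq]
    rw [← hcoinsum, ← ENNReal.tsum_add]
    refine tsum_congr fun i => ?_
    rw [hdec i, add_mul, add_comm]
  have hcomm : Commute (q • U) T' := by
    have h1 : Commute U T' :=
      ((opT_A_comm π' Δ e₁).symm).mul_left ((opT_A_comm π' Δ e₂).symm)
    exact h1.smul_left q
  -- expansion
  rw [mpow_eq_op, hT, hcomm.add_pow, LinearMap.sum_apply, Finset.sum_apply]
  set δ : G → ℝ≥0∞ := fun z => if z = y then 1 else 0 with hδ
  have hδsum : ∑' z, δ z = 1 := by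
    simp [hδ]
  have hterm : ∀ m ∈ Finset.range (n + 1),
      (((q • U) ^ m * T' ^ (n - m) * ((n.choose m : ℕ) : Module.End ℝ≥0∞ (G → ℝ≥0∞))) δ) x ≤
        ((n.choose m : ℕ) : ℝ≥0∞) * q ^ m * ((m.choose (m / 2) : ℕ) : ℝ≥0∞) ^ 2 * p' ^ (n - m) := by
    intro m _
    have hfun : ((n.choose m : ℕ) : Module.End ℝ≥0∞ (G → ℝ≥0∞)) δ = ((n.choose m : ℕ) : ℝ≥0∞) • δ := by
      funext w
      rw [natCast_end_apply, Pi.smul_apply, smul_eq_mul]
    rw [Module.End.mul_apply, hfun, map_smul, Pi.smul_apply, smul_eq_mul, Module.End.mul_apply,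
      smul_pow, LinearMap.smul_apply, Pi.smul_apply, smul_eq_mul]
    have h1 := opU_pow_le e₁ e₂ hind m ((T' ^ (n - m)) δ) x
    have h2 : ∑' z, (T' ^ (n - m)) δ z = p' ^ (n - m) := by
      rw [tsum_opT_pow, hδsum, mul_one]
    rw [h2] at h1
    calc ((n.choose m : ℕ) : ℝ≥0∞) * (q ^ m * (U ^ m) ((T' ^ (n - m)) δ) x)
        ≤ ((n.choose m : ℕ) : ℝ≥0∞) * (q ^ m * (((m.choose (m / 2) : ℕ) : ℝ≥0∞) ^ 2 * p' ^ (n - m))) := by
          gcongr
      _ = _ := by ring
  -- the binomial sum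
  have hterm2 : ∀ m ∈ Finset.range (n + 1),
      ((n : ℝ≥0∞) + 1) * (4 * q) *
        (((n.choose m : ℕ) : ℝ≥0∞) * q ^ m * ((m.choose (m / 2) : ℕ) : ℝ≥0∞) ^ 2 * p' ^ (n - m)) ≤
      (4 * q) ^ (m + 1) * p' ^ (n + 1 - (m + 1)) * (((n + 1).choose (m + 1) : ℕ) : ℝ≥0∞) := by
    intro m _
    have hnat : (n + 1) * n.choose m = (n + 1).choose (m + 1) * (m + 1) :=
      Nat.add_one_mul_choose_eq n m
    have hnat' : ((n : ℝ≥0∞) + 1) * ((n.choose m : ℕ) : ℝ≥0∞) =
        (((n + 1).choose (m + 1) : ℕ) : ℝ≥0∞) * ((m : ℝ≥0∞) + 1) := by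
      exact_mod_cast hnat
    have hc : ((m : ℝ≥0∞) + 1) * ((m.choose (m / 2) : ℕ) : ℝ≥0∞) ^ 2 ≤ 4 ^ m := by
      exact_mod_cast choose_sq_le m
    rw [Nat.add_sub_add_right]
    calc ((n : ℝ≥0∞) + 1) * (4 * q) *
        (((n.choose m : ℕ) : ℝ≥0∞) * q ^ m * ((m.choose (m / 2) : ℕ) : ℝ≥0∞) ^ 2 * p' ^ (n - m))
        = (((n : ℝ≥0∞) + 1) * ((n.choose m : ℕ) : ℝ≥0∞)) * (4 * q) * q ^ m *
            ((m.choose (m / 2) : ℕ) : ℝ≥0∞) ^ 2 * p' ^ (n - m) := by ring
      _ = (((n + 1).choose (m + 1) : ℕ) : ℝ≥0∞) * (4 * q) * q ^ m *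
            (((m : ℝ≥0∞) + 1) * ((m.choose (m / 2) : ℕ) : ℝ≥0∞) ^ 2) * p' ^ (n - m) := by
          rw [hnat']; ring
      _ ≤ (((n + 1).choose (m + 1) : ℕ) : ℝ≥0∞) * (4 * q) * q ^ m * 4 ^ m * p' ^ (n - m) := by
          gcongr
      _ = (4 * q) ^ (m + 1) * p' ^ (n - m) * (((n + 1).choose (m + 1) : ℕ) : ℝ≥0∞) := by
          rw [pow_succ, mul_pow]; ring
  calc ((n : ℝ≥0∞) + 1) * (4 * q) * ∑ m ∈ Finset.range (n + 1),
        (((q • U) ^ m * T' ^ (n - m) * ((n.choose m : ℕ) : Module.End ℝ≥0∞ (G → ℝ≥0∞))) δ) x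
      ≤ ((n : ℝ≥0∞) + 1) * (4 * q) * ∑ m ∈ Finset.range (n + 1),
        (((n.choose m : ℕ) : ℝ≥0∞) * q ^ m * ((m.choose (m / 2) : ℕ) : ℝ≥0∞) ^ 2 * p' ^ (n - m)) := by
        gcongr with m hm
        exact hterm m hm
    _ = ∑ m ∈ Finset.range (n + 1), ((n : ℝ≥0∞) + 1) * (4 * q) *
        (((n.choose m : ℕ) : ℝ≥0∞) * q ^ m * ((m.choose (m / 2) : ℕ) : ℝ≥0∞) ^ 2 * p' ^ (n - m)) := by
        rw [Finset.mul_sum]
    _ ≤ ∑ m ∈ Finset.range (n + 1),
        (4 * q) ^ (m + 1) * p' ^ (n + 1 - (m + 1)) * (((n + 1).choose (m + 1) : ℕ) : ℝ≥0∞) :=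
        Finset.sum_le_sum hterm2
    _ ≤ ∑ j ∈ Finset.range (n + 1 + 1), (4 * q) ^ j * p' ^ (n + 1 - j) * (((n + 1).choose j : ℕ) : ℝ≥0∞) := by
        rw [Finset.sum_range_succ' _ (n + 1)]
        exact le_self_add
    _ = (4 * q + p') ^ (n + 1) := (add_pow _ _ _).symm
    _ = 1 := by rw [hsum, one_pow]

end Vale.Agent.Lib.P147T
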