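import Vale.Agent.Lib.P147T.Basic

/-!
# P147: from positive probability of ballistic escape to the crossing hypothesis.
-/

open MeasureTheory Filter Topology
open scoped ENNReal BigOperators

namespace Vale.Agent.Lib.P147T

variable {d : ℕ}

private theorem walk_zero (s : ℕ → Step d) : walk s 0 = 0 := by
  simp [walk]

private theorem walk_succ (s : ℕ → Step d) (n : ℕ) :
    walk s (n + 1) = walk s n + stepVec (s n) := by
  simp [walk, Finset.sum_range_succ]

private theorem walk_shift (s : ℕ → Step d) (a m : ℕ) :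
    walk (fun k => s (a + k)) m = walk s (a + m) - walk s a := by
  induction m with
  | zero => simp [walk_zero]
  | succ m ih =>
    rw [walk_succ, ih, ← add_assoc, walk_succ]
    abel

private theorem endp_pre (Y : ℕ → Step d) (m : ℕ) :
    endp ((List.range m).map Y) = walk Y m := by
  induction m with
  | zero => simp [walk_zero]
  | succ m ih =>
    rw [List.range_succ, List.map_append, endp_append, ih, walk_succ]
    simp

private theorem mem_dep_pre (Y : ℕ → Step d) (m : ℕ) (x : Site d) :
    x ∈ dep ((List.range m).map Y) ↔ ∃ k, k < m ∧ x = walk Y k := by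
  induction m with
  | zero => simp
  | succ m ih =>
    rw [List.range_succ, List.map_append, mem_dep_append, ih, endp_pre]
    simp only [List.map_cons, List.map_nil, mem_dep_cons, dep_nil]
    constructor
    · rintro (⟨k, hk, rfl⟩ | ⟨y, hy | ⟨z, hz, _⟩, rfl⟩)
      · exact ⟨k, by omega, rfl⟩
      · subst hy; exact ⟨m, by omega, by simp⟩
      · simp at hz
    · rintro ⟨k, hk, rfl⟩
      rcases Nat.lt_succ_iff_lt_or_eq.1 hk with h | rfl
      · exact Or.inl ⟨k, h, rfl⟩
      · exact Or.inr ⟨0, Or.inl rfl, by simp⟩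

/-- The good futures. -/
private def DD (L : Site d →+ ℤ) (n N : ℕ) : Set (ℕ → Step d) :=
  {Y | (∀ m, 0 ≤ L (walk Y m)) ∧ Tendsto (fun m => L (walk Y m)) atTop atTop ∧
    ∀ m, N ≤ m → (rangeCard Y m : ℤ) ≤ n * L (walk Y m)}

/-- The pieces of the event. -/
private def Piece (L : Site d →+ ℤ) (x : List (Step d) × ℕ × ℕ) : Set (ℕ → Step d) :=
  {s | (List.range x.1.length).map s = x.1 ∧ (fun m => s (x.1.length + m)) ∈ DD L x.2.1 x.2.2}

private theorem rangeCard_shift_le (s : ℕ → Step d) (a m : ℕ) :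
    rangeCard (fun k => s (a + k)) m ≤ rangeCard s (a + m) := by
  classical
  unfold rangeCard
  refine Finset.card_le_card_of_injOn (fun x => x + walk s a) ?_ ?_
  · intro x hx
    simp only [Finset.coe_image, Set.mem_image, Finset.mem_coe, Finset.mem_range] at hx ⊢
    obtain ⟨k, hk, rfl⟩ := hx
    refine ⟨a + k, by omega, ?_⟩
    rw [walk_shift]
    abel
  · intro x _ y _ h
    exact add_right_cancel h

private theorem event_subset (L : Site d →+ ℤ) :
    {s : ℕ → Step d | Tendsto (fun n => L (walk s n)) atTop atTop ∧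
      ∃ c : ℝ, 0 < c ∧ ∀ᶠ n in atTop, c * (rangeCard s n : ℝ) ≤ (L (walk s n) : ℝ)} ⊆
      ⋃ x, Piece L x := by
  classical
  rintro s ⟨hs, c, hc, hev⟩
  -- the minimum of the level
  obtain ⟨N', hN'⟩ := (hs.eventually (eventually_ge_atTop (0 : ℤ))).exists_forall_of_atTop
  obtain ⟨n0, hn0, hmin⟩ := Finset.exists_min_image (Finset.range (N' + 1))
    (fun n => L (walk s n)) ⟨0, by simp⟩
  have h0 : L (walk s n0) ≤ 0 := by
    have := hmin 0 (by simp)
    simpa [walk_zero] using this
  have hmin' : ∀ n, L (walk s n0) ≤ L (walk s n) := by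
    intro n
    by_cases hn : n < N' + 1
    · exact hmin n (by simpa using hn)
    · exact h0.trans (hN' n (by omega))
  obtain ⟨N, hN⟩ := (eventually_atTop.1 hev)
  obtain ⟨n, hn⟩ := exists_nat_ge (1 / c)
  refine Set.mem_iUnion.2 ⟨((List.range n0).map s, n, N), ?_⟩
  have hlen : ((List.range n0).map s).length = n0 := by simp
  refine ⟨by simp, ?_⟩
  simp only [hlen]
  have hlev : ∀ m, L (walk (fun k => s (n0 + k)) m) = L (walk s (n0 + m)) - L (walk s n0) := by
    intro m
    rw [walk_shift, map_sub]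
  refine ⟨fun m => ?_, ?_, fun m hm => ?_⟩
  · rw [hlev]
    have := hmin' (n0 + m)
    omega
  · have h1 : Tendsto (fun m => L (walk s (n0 + m))) atTop atTop :=
      hs.comp (tendsto_atTop_mono (fun m => Nat.le_add_left m n0) tendsto_id)
    simp_rw [hlev]
    exact tendsto_atTop_add_const_right _ _ h1
  · have h1 := hN (n0 + m) (by omega)
    have h2 : (rangeCard (fun k => s (n0 + k)) m : ℝ) ≤ (rangeCard s (n0 + m) : ℝ) := by
      exact_mod_cast rangeCard_shift_le s n0 m
    have h3 : (L (walk s (n0 + m)) : ℝ) ≤ (L (walk (fun k => s (n0 + k)) m) : ℝ) := by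
      rw [hlev]
      have : L (walk s (n0 + m)) ≤ L (walk s (n0 + m)) - L (walk s n0) := by omega
      exact_mod_cast this
    have h4 : c * (rangeCard (fun k => s (n0 + k)) m : ℝ) ≤
        (L (walk (fun k => s (n0 + k)) m) : ℝ) := by
      calc c * (rangeCard (fun k => s (n0 + k)) m : ℝ)
          ≤ c * (rangeCard s (n0 + m) : ℝ) := by gcongr
        _ ≤ _ := h1
        _ ≤ _ := h3
    have h5 : (0 : ℝ) ≤ (L (walk (fun k => s (n0 + k)) m) : ℝ) := by
      have : 0 ≤ L (walk (fun k => s (n0 + k)) m) := by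
        rw [hlev]
        have := hmin' (n0 + m)
        omega
      exact_mod_cast this
    have h6 : (rangeCard (fun k => s (n0 + k)) m : ℝ) ≤
        (n : ℝ) * (L (walk (fun k => s (n0 + k)) m) : ℝ) := by
      have h7 : (rangeCard (fun k => s (n0 + k)) m : ℝ) ≤
          (1 / c) * (L (walk (fun k => s (n0 + k)) m) : ℝ) := by
        rw [one_div, ← div_eq_inv_mul, le_div_iff₀ hc]
        linarith
      exact h7.trans (by gcongr)
    exact_mod_cast h6

/-- First arrival at level `T`. -/
private theorem first_arrival (L : Site d →+ ℤ) (hunit : ∀ s : Step d, |L (stepVec s)| ≤ 1)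
    {n N : ℕ} {Y : ℕ → Step d} (hY : Y ∈ DD L n N) {T : ℕ} (hT : N + 1 ≤ T) :
    ∃ a : List (Step d), Up L T a ∧ (dep a).card ≤ (n + 1) * T ∧
      (List.range a.length).map Y = a := by
  classical
  obtain ⟨hnn, hlim, hrc⟩ := hY
  have hex : ∃ m, (T : ℤ) ≤ L (walk Y m) :=
    ((hlim.eventually (eventually_ge_atTop (T : ℤ)))).exists
  let τ := Nat.find hex
  have hτ : (T : ℤ) ≤ L (walk Y τ) := Nat.find_spec hex
  have hτ' : ∀ k, k < τ → L (walk Y k) < T := fun k hk => by
    have := Nat.find_min hex hk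
    omega
  have hτ0 : τ ≠ 0 := by
    intro h0
    have : (T : ℤ) ≤ L (walk Y 0) := h0 ▸ hτ
    rw [walk_zero, map_zero] at this
    omega
  have hτeq : L (walk Y τ) = T := by
    obtain ⟨k, hk⟩ := Nat.exists_eq_succ_of_ne_zero hτ0
    have h1 := hτ' k (by omega)
    have h2 := hunit (Y k)
    rw [abs_le] at h2
    have h3 : L (walk Y τ) = L (walk Y k) + L (stepVec (Y k)) := by
      rw [hk, Nat.succ_eq_add_one, walk_succ, map_add]
    omega
  refine ⟨(List.range τ).map Y, ⟨?_, ?_⟩, ?_, by simp⟩
  · rw [endp_pre, hτeq]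
  · intro x hx
    obtain ⟨k, hk, rfl⟩ := (mem_dep_pre Y τ x).1 hx
    exact ⟨hnn k, hτ' k hk⟩
  · have hsub : dep ((List.range τ).map Y) ⊆ (Finset.range τ).image (walk Y) := by
      intro x hx
      obtain ⟨k, hk, rfl⟩ := (mem_dep_pre Y τ x).1 hx
      exact Finset.mem_image.2 ⟨k, Finset.mem_range.2 hk, rfl⟩
    have hcard1 := Finset.card_le_card hsub
    by_cases hτN : N ≤ τ
    · have h1 := hrc τ hτN
      rw [hτeq] at h1
      have h2 : rangeCard Y τ ≤ n * T := by exact_mod_cast h1
      have h3 : ((Finset.range τ).image (walk Y)).card ≤ rangeCard Y τ := by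
        unfold rangeCard
        exact Finset.card_le_card (Finset.image_subset_image
          (Finset.range_subset_range.2 (Nat.le_succ _)))
      calc _ ≤ _ := hcard1
        _ ≤ _ := h3
        _ ≤ _ := h2
        _ ≤ _ := by nlinarith
    · have h1 : ((Finset.range τ).image (walk Y)).card ≤ τ :=
        Finset.card_image_le.trans (by simp)
      calc _ ≤ _ := hcard1
        _ ≤ _ := h1
        _ ≤ T := by omega
        _ ≤ _ := by nlinarith

theorem ballistic_of_event (W : Wt d) (Q : Measure (ℕ → Step d))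
    (hQ : ∀ l, W.w l = Q {s | (List.range l.length).map s = l}) (L : Site d →+ ℤ)
    (hunit : ∀ s : Step d, |L (stepVec s)| ≤ 1)
    (h : 0 < Q {s | Tendsto (fun n => L (walk s n)) atTop atTop ∧
      ∃ c : ℝ, 0 < c ∧ ∀ᶠ n in atTop, c * (rangeCard s n : ℝ) ≤ (L (walk s n) : ℝ)}) :
    Ballistic W L := by
  classical
  -- one piece has positive measure
  have hpos : ∃ x, Q (Piece L x) ≠ 0 := by
    by_contra hne
    simp only [not_exists, not_not] at hne
    have h1 : Q (⋃ x, Piece L x) = 0 := measure_iUnion_null hne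
    have h2 := measure_mono (μ := Q) (event_subset L)
    rw [h1] at h2
    exact absurd h (not_lt.2 h2)
  obtain ⟨⟨g, n, N⟩, hx⟩ := hpos
  refine ⟨Q (Piece L (g, n, N)), n + 1, N + 1, hx, fun T hT => ?_⟩
  -- cover the piece by cylinders
  have hcover : Piece L (g, n, N) ⊆
      ⋃ a : {a : List (Step d) // Up L T a ∧ (dep a).card ≤ (n + 1) * T},
        {s | (List.range (g ++ a.1).length).map s = g ++ a.1} := by
    rintro s ⟨hg, hD⟩
    simp only at hg hD
    obtain ⟨a, ha1, ha2, ha3⟩ := first_arrival L hunit hD hT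
    refine Set.mem_iUnion.2 ⟨⟨a, ha1, ha2⟩, ?_⟩
    simp only [Set.mem_ofPred_eq, List.length_append]
    rw [List.range_add, List.map_append, hg, List.map_map]
    congr 1
  calc Q (Piece L (g, n, N))
      ≤ Q (⋃ a : {a : List (Step d) // Up L T a ∧ (dep a).card ≤ (n + 1) * T},
        {s | (List.range (g ++ a.1).length).map s = g ++ a.1}) := measure_mono hcover
    _ ≤ ∑' a : {a : List (Step d) // Up L T a ∧ (dep a).card ≤ (n + 1) * T},
        Q {s | (List.range (g ++ a.1).length).map s = g ++ a.1} := measure_iUnion_le _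
    _ = ∑' a : {a : List (Step d) // Up L T a ∧ (dep a).card ≤ (n + 1) * T},
        W.w (g ++ a.1) := by simp_rw [hQ]
    _ ≤ ∑' a : {a : List (Step d) // Up L T a ∧ (dep a).card ≤ (n + 1) * T}, W.w a.1 :=
        ENNReal.tsum_le_tsum fun a => W.w_le g a.1

end Vale.Agent.Lib.P147T
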