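import Vale.Agent.Lib.P147T.Moves

/-!
# P147: the combinatorial core.
-/

open scoped ENNReal BigOperators
open Filter Topology

namespace Vale.Agent.Lib.P147T

variable {d : ℕ}

theorem exists_other (hd : 3 ≤ d) (i : Fin d) : ∃ j : Fin d, j ≠ i := by
  have : 1 < Fintype.card (Fin d) := by simp; omega
  obtain ⟨j, hj⟩ := Fintype.exists_ne_of_one_lt_card this i
  exact ⟨j, hj⟩

theorem stepVec_up_down (i : Fin d) : stepVec (i, false) = - stepVec ((i, true) : Step d) := by
  funext j
  by_cases hj : j = i <;> simp [stepVec, hj]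

/-- Two opposite ballistic crossings are impossible in dimension at least three. -/
theorem core (W : Wt d) (hd : 3 ≤ d) (i : Fin d) (hu : Ballistic W (lvl i))
    (hl : Ballistic W (-lvl i)) : False := by
  obtain ⟨j₁, hj₁⟩ := exists_other hd i
  -- lower bounds for the crossing masses
  obtain ⟨c₁, hc₁, hlow₁⟩ := crossing_lower W (i, true) (lvl_vec_up i) hu
  obtain ⟨c₂, hc₂, hlow₂⟩ := crossing_lower W (i, false) (by simp [lvl_vec_down]) hl
  have hcL : CrossLower W (lvl i) (min c₁ c₂) := by
    refine ⟨by simp [hc₁, hc₂, min_eq_iff], fun g => ⟨(min_le_left _ _).trans (hlow₁ g),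
      (min_le_right _ _).trans (hlow₂ g)⟩⟩
  have hcne : min c₁ c₂ ≠ 0 := hcL.1
  set c := min c₁ c₂ with hcdef
  set x₀ : Site d := stepVec ((j₁, true) : Step d) with hx₀
  set K := kK W (lvl i) (i, true) with hK
  set P := kP W (lvl i) with hP
  set D := kD W (lvl i) (i, true) with hD
  -- the chain
  have hkil : Kil P K D :=
    ⟨kP_eq W (i, true), kP_row W hcL, kP_col W hcL⟩
  -- summability of the killed masses
  have hJ : Jf W (lvl i) (i, true) x₀ * (W.w [(j₁, true), (i, false)] * c) ≤ 1 :=
    star_bound W hcL (i, true) (i, false) (j₁, true) (lvl_vec_up i) (lvl_vec_down i)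
      (stepVec_up_down i) (lvl_vec_ne hj₁) (lvl_unit i)
  have hJtop : Jf W (lvl i) (i, true) x₀ ≠ ∞ := by
    intro htop
    rw [htop, ENNReal.top_mul (mul_ne_zero (W.w_pos _) hcne)] at hJ
    simp at hJ
  have hsum : ∑' n, Qf K n x₀ ≠ ∞ := by
    refine ne_top_of_le_ne_top hJtop ?_
    rw [ENNReal.tsum_eq_iSup_nat]
    exact iSup_le fun N => sum_Qf_le_Jf W (i, true) (lvl_vec_up i) N x₀
  have hΛ : ∑' x, ∑' y, D x y ≠ ∞ :=
    kD_total_ne_top W (i, true) (lvl_vec_up i) hcL hu hl
  -- the killed masses at the base point tend to zero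
  have hQ0 : Tendsto (fun n => Qf K n x₀) atTop (𝓝 0) :=
    ENNReal.tendsto_atTop_zero_of_tsum_ne_top hsum
  have hreach : ∀ x y, D x y ≠ 0 → Tendsto (fun n => Qf K n y) atTop (𝓝 0) := by
    intro x y hxy
    -- `y` lies in the slice
    have hy : y i = 0 := by
      obtain ⟨C, hC⟩ : ∃ C : Atom (lvl i), wM W C.1 *
          (open Classical in if Clash (lvl i) (i, true) x C.1 ∧ x + Delta C.1 = y then 1 else 0) ≠ 0 := by
        by_contra hcon
        push Not at hcon
        exact hxy (by simp only [hD, kD]; exact ENNReal.tsum_eq_zero.2 hcon)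
      classical
      by_cases h2 : Clash (lvl i) (i, true) x C.1 ∧ x + Delta C.1 = y
      · have h3 : lvl i y = 0 := by
          rw [← h2.2, map_add, h2.1.1, L_Delta, add_zero]
        exact h3
      · simp [h2] at hC
    by_cases hy0 : y = 0
    · subst hy0
      rw [← tendsto_add_atTop_iff_nat 1]
      simp only [Qf_zero_site W i, hK]
      exact tendsto_const_nhds
    · obtain ⟨k, a, ha, hak⟩ := reach W i hd j₁ hj₁ y hy hy0
      -- squeeze
      have h1 : Tendsto (fun n => a⁻¹ * Qf K (n + k) x₀) atTop (𝓝 0) := by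
        have := ENNReal.Tendsto.const_mul (a := a⁻¹) ((tendsto_add_atTop_iff_nat k).2 hQ0)
          (Or.inr (ENNReal.inv_ne_top.2 ha))
        simpa using this
      refine tendsto_of_tendsto_of_tendsto_of_le_of_le tendsto_const_nhds h1
        (fun _ => bot_le) (fun n => ?_)
      have h4 := hak n
      have hat : a ≠ ∞ → Qf K n y ≤ a⁻¹ * Qf K (n + k) x₀ := fun hat => by
        exact (ENNReal.mul_le_iff_le_inv ha hat).1 h4
      by_cases haT : a = ∞
      · rw [haT, ENNReal.top_mul'] at h4
        by_cases hq : Qf K n y = 0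
        · rw [hq]; exact bot_le
        · rw [if_neg hq] at h4
          have h5 : Qf K (n + k) x₀ ≤ 1 := Qf_le_one hkil _ _
          exact absurd (top_le_iff.1 (h4.trans h5)) (by simp)
      · exact hat haT
  obtain ⟨C, hC, hconc⟩ := kP_conc W i hd hcL
  obtain ⟨A, hA⟩ := Qf_lower W i hd hcL hΛ j₁ hj₁
  exact sausage_main hkil C hC hconc hΛ x₀ hsum hreach A hA

end Vale.Agent.Lib.P147T
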