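import Vale.Agent.Lib.P147.Defs

/-!
# P147: the range of the walk (one more statement level definition)

`Step`, `Site`, `stepVec`, `quenched`, `walk` and `IsAnnealedLaw` are those of
`Vale.Agent.Lib.P147.Defs`.
-/

namespace Vale.Agent.Lib.P147T

export Vale.Agent.Lib.P147 (Step Site stepVec Env quenched walk IsAnnealedLaw)

variable {d : ℕ}

/-- The number of distinct sites visited up to time `n` by the walk with step sequence `s`. -/
noncomputable def rangeCard (s : ℕ → Step d) (n : ℕ) : ℕ :=
  open Classical in ((Finset.range (n + 1)).image (walk s)).card

end Vale.Agent.Lib.P147T
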