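import Vale.Agent.Lib.P147T.Paths
import Vale.Agent.Lib.P147.Env

/-!
# P147: the annealed law gives a weight system.
-/

open MeasureTheory ProbabilityTheory Filter Topology
open scoped ENNReal BigOperators

namespace Vale.Agent.Lib.P147T

variable {d : ℕ}

open Vale.Agent.Lib.P147 in
theorem endp_eq_disp (l : List (Step d)) : endp l = disp stepVec l := by
  induction l with
  | nil => simp
  | cons e l ih => simp [ih]

open Vale.Agent.Lib.P147 in
theorem pos_mem_dep (l : List (Step d)) {a : ℕ} (ha : a < l.length) : pos stepVec l a ∈ dep l := by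
  induction l generalizing a with
  | nil => simp at ha
  | cons e l ih =>
    cases a with
    | zero => exact mem_dep_cons.2 (Or.inl (by simp))
    | succ a =>
      refine mem_dep_cons.2 (Or.inr ⟨pos stepVec l a, ih (by simpa using ha), ?_⟩)
      simp [pos, List.take_succ_cons]

open Vale.Agent.Lib.P147 in
/-- The weights of the annealed law (via the model hypotheses proved in
`Vale.Agent.Lib.P147.Env`). -/
theorem exists_wt (μ : Measure (Step d → ℝ)) [IsProbabilityMeasure μ]
    (hμ : ∀ᵐ p ∂μ, (∀ e, 0 < p e) ∧ ∑ e, p e = 1)
    (Q : Measure (ℕ → Step d)) [IsProbabilityMeasure Q] (hQ : IsAnnealedLaw μ Q) :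
    ∃ W : Wt d, ∀ l, W.w l = Q {s | (List.range l.length).map s = l} := by
  classical
  have hM := model_of_annealed hμ hQ
  have hsnoc : ∀ l : List (Step d), ∑ s : Step d, Q (cyl (l ++ [s])) = Q (cyl l) := by
    intro l
    have hU : cyl l = ⋃ s ∈ (Finset.univ : Finset (Step d)), cyl (l ++ [s]) := by
      ext t
      simp only [Set.mem_iUnion, Finset.mem_univ, exists_true_left, mem_cyl_append]
      constructor
      · intro h
        refine ⟨t l.length, h, ?_⟩
        simp [cyl, pre, shift]
      · rintro ⟨_, h, _⟩
        exact h
    rw [hU, measure_biUnion_finset]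
    · intro a _ b _ hab
      refine Set.disjoint_left.2 fun t ha hb => hab ?_
      have h1 := (mem_cyl_append.1 ha).2
      have h2 := (mem_cyl_append.1 hb).2
      simp only [cyl, pre, List.length_cons, List.length_nil, zero_add, List.range_one,
        List.map_cons, List.map_nil, List.cons.injEq, and_true, Set.mem_ofPred_eq] at h1 h2
      rw [← h1, ← h2]
    · intro a _
      exact measurableSet_cyl _
  refine ⟨{ w := fun l => Q (cyl l)
            w_nil := by simp
            w_snoc := hsnoc
            w_split := ?_
            w_le := hM.w2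
            w_pos := hM.w3 }, ?_⟩
  · intro l₁ l₂ h
    refine hM.w1 l₁ l₂ ?_
    intro a ha b hb
    have := h _ (pos_mem_dep l₁ ha) _ (pos_mem_dep l₂ hb)
    rwa [endp_eq_disp] at this
  · intro l
    rfl

end Vale.Agent.Lib.P147T
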