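import Vale.Agent.Lib.P147T.Moment

/-!
# P147: the pair count `T` of an atom has finite mean.

`prA m k` is the number of departure sites of the up path of `m` at distance `k` below the top
(that is at level `g - 1 - k`), `prB m k` the number of departure sites of the down path at depth
`k` (that is at `-L`-level `k`), and `pairCount m = ∑ k < g, prA m k * prB m k` counts the pairs
of a site of the up path and of the down path on a common relative level.
-/

open scoped ENNReal BigOperators
open Filter Topology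

namespace Vale.Agent.Lib.P147T

variable {d : ℕ}

section
variable {L : Site d →+ ℤ}

open Classical in
/-- Number of departure sites of the up path at distance `k` below the top level. -/
noncomputable def prA (m : Mon L) (k : ℕ) : ℕ :=
  ((dep m.a).filter (fun u => L u + 1 + k = m.g)).card

open Classical in
/-- Number of departure sites of the down path at depth `k`. -/
noncomputable def prB (m : Mon L) (k : ℕ) : ℕ :=
  ((dep m.b).filter (fun y => (-L) y = k)).card

/-- The number of pairs of departure sites on a common relative level. -/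
noncomputable def pairCount (m : Mon L) : ℕ :=
  ∑ k ∈ Finset.range m.g, prA m k * prB m k

private theorem card_filter_append_aux (l₁ l₂ : List (Step d)) (P : Site d → Prop) [DecidablePred P]
    (hdisj : ∀ x ∈ dep l₁, ∀ y ∈ dep l₂, x ≠ endp l₁ + y) :
    ((dep (l₁ ++ l₂)).filter P).card =
      ((dep l₁).filter P).card + ((dep l₂).filter (fun y => P (endp l₁ + y))).card := by
  classical
  have hset : (dep (l₁ ++ l₂)).filter P =
      (dep l₁).filter P ∪ ((dep l₂).filter (fun y => P (endp l₁ + y))).image (fun y => endp l₁ + y) := by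
    ext x
    simp only [Finset.mem_filter, Finset.mem_union, Finset.mem_image, mem_dep_append]
    constructor
    · rintro ⟨h | ⟨y, hy, rfl⟩, hP⟩
      · exact Or.inl ⟨h, hP⟩
      · exact Or.inr ⟨y, ⟨hy, hP⟩, rfl⟩
    · rintro (⟨h, hP⟩ | ⟨y, ⟨hy, hP⟩, rfl⟩)
      · exact ⟨Or.inl h, hP⟩
      · exact ⟨Or.inr ⟨y, hy, rfl⟩, hP⟩
  rw [hset, Finset.card_union_of_disjoint, Finset.card_image_of_injective]
  · intro a b hab
    exact add_left_cancel hab
  · rw [Finset.disjoint_left]
    intro x hx hx'
    obtain ⟨y, hy, rfl⟩ := Finset.mem_image.1 hx'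
    exact hdisj _ (Finset.mem_filter.1 hx).1 y (Finset.mem_filter.1 hy).1 rfl

theorem prA_mul (C m : Mon L) (k : ℕ) :
    prA (C * m) k = prA C k + (if C.g ≤ k then prA m (k - C.g) else 0) := by
  classical
  have hdisj : ∀ x ∈ dep m.a, ∀ y ∈ dep C.a, x ≠ endp m.a + y := by
    intro x hx y hy hxy
    have h2 := m.ha.2 x hx
    have h3 := C.ha.2 y hy
    rw [hxy, map_add, m.ha.1] at h2
    omega
  have h := card_filter_append_aux m.a C.a (fun u => L u + 1 + k = ((C * m).g : ℤ)) hdisj
  have h1 : prA (C * m) k = ((dep (m.a ++ C.a)).filter (fun u => L u + 1 + k = ((C * m).g : ℤ))).card := rfl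
  rw [h1, h, add_comm]
  congr 1
  · unfold prA
    congr 1
    apply Finset.filter_congr
    intro y _
    rw [map_add, m.ha.1]
    simp only [Mon.mul_g]
    push_cast
    constructor <;> intro h <;> omega
  · split_ifs with hk
    · unfold prA
      congr 1
      apply Finset.filter_congr
      intro u _
      simp only [Mon.mul_g]
      push_cast [hk]
      constructor <;> intro h <;> omega
    · rw [Finset.card_eq_zero, Finset.filter_eq_empty_iff]
      intro u hu hP
      have h2 := m.ha.2 u hu
      simp only [Mon.mul_g] at hP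
      push_cast at hP
      omega

theorem prB_mul (C m : Mon L) (k : ℕ) :
    prB (C * m) k = prB C k + (if C.g ≤ k then prB m (k - C.g) else 0) := by
  classical
  have hdisj : ∀ x ∈ dep C.b, ∀ y ∈ dep m.b, x ≠ endp C.b + y := by
    intro x hx y hy hxy
    have h2 := C.hb.2 x hx
    have h3 := m.hb.2 y hy
    rw [hxy, map_add, C.hb.1] at h2
    omega
  have h := card_filter_append_aux C.b m.b (fun u => (-L) u = (k : ℤ)) hdisj
  have h1 : prB (C * m) k = ((dep (C.b ++ m.b)).filter (fun u => (-L) u = (k : ℤ))).card := rfl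
  rw [h1, h]
  congr 1
  split_ifs with hk
  · unfold prB
    congr 1
    apply Finset.filter_congr
    intro u _
    rw [map_add, C.hb.1]
    push_cast [hk]
    constructor <;> intro h <;> omega
  · rw [Finset.card_eq_zero, Finset.filter_eq_empty_iff]
    intro u hu hP
    have h2 := m.hb.2 u hu
    rw [map_add, C.hb.1] at hP
    omega

theorem prA_eq_zero (m : Mon L) {k : ℕ} (hk : m.g ≤ k) : prA m k = 0 := by
  classical
  unfold prA
  rw [Finset.card_eq_zero, Finset.filter_eq_empty_iff]
  intro u hu hP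
  have h2 := m.ha.2 u hu
  omega

theorem prB_eq_zero (m : Mon L) {k : ℕ} (hk : m.g ≤ k) : prB m k = 0 := by
  classical
  unfold prB
  rw [Finset.card_eq_zero, Finset.filter_eq_empty_iff]
  intro u hu hP
  have h2 := m.hb.2 u hu
  omega

theorem sum_prA (m : Mon L) : ∑ k ∈ Finset.range m.g, prA m k = (dep m.a).card := by
  classical
  unfold prA
  have hmaps : Set.MapsTo (fun u => (((m.g : ℤ) - 1 - L u).toNat)) (dep m.a : Set (Site d)) (Finset.range m.g : Set ℕ) := by
    intro u hu
    have h2 := m.ha.2 u hu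
    simp only [Finset.coe_range, Set.mem_Iio]
    omega
  rw [Finset.card_eq_sum_card_fiberwise hmaps]
  apply Finset.sum_congr rfl
  intro k hk
  congr 1
  apply Finset.filter_congr
  intro u hu
  have h2 := m.ha.2 u hu
  constructor <;> intro h <;> omega

theorem sum_prB (m : Mon L) : ∑ k ∈ Finset.range m.g, prB m k = (dep m.b).card := by
  classical
  unfold prB
  have hmaps : Set.MapsTo (fun u => (((-L) u).toNat)) (dep m.b : Set (Site d)) (Finset.range m.g : Set ℕ) := by
    intro u hu
    have h2 := m.hb.2 u hu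
    simp only [Finset.coe_range, Set.mem_Iio]
    omega
  rw [Finset.card_eq_sum_card_fiberwise hmaps]
  apply Finset.sum_congr rfl
  intro k hk
  congr 1
  apply Finset.filter_congr
  intro u hu
  have h2 := m.hb.2 u hu
  constructor <;> intro h <;> omega

theorem pairCount_mul (C m : Mon L) : pairCount (C * m) = pairCount C + pairCount m := by
  unfold pairCount
  simp only [Mon.mul_g]
  rw [Finset.sum_range_add]
  congr 1
  · refine Finset.sum_congr rfl fun k hk => ?_
    have hk' : ¬ C.g ≤ k := by
      have := Finset.mem_range.1 hk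
      omega
    rw [prA_mul, prB_mul, if_neg hk', if_neg hk']
    simp
  · refine Finset.sum_congr rfl fun k _ => ?_
    rw [prA_mul, prB_mul, prA_eq_zero C (by omega), prB_eq_zero C (by omega)]
    simp

variable (W : Wt d)

/-- A profile (function of the depth) which is additive along products has mass over a grade
bounded by its total mass over the atoms. -/
theorem profile_bound {c : ℝ≥0∞} (hc : CrossLower W L c)
    (pr : Mon L → ℕ → ℕ) (hone : ∀ k, pr 1 k = 0)
    (hmul : ∀ (C m : Mon L) (k : ℕ), pr (C * m) k = pr C k + (if C.g ≤ k then pr m (k - C.g) else 0))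
    (g k : ℕ) :
    ∑' m : Mon L, wM W m * ((if m.g = g then 1 else 0) * (pr m k : ℝ≥0∞)) ≤
      ∑' C : Atom L, wM W C.1 * ∑' j, (pr C.1 j : ℝ≥0∞) := by
  classical
  set ψ : ℕ → ℝ≥0∞ := fun k => ∑' C : Atom L, wM W C.1 * (pr C.1 k : ℝ≥0∞) with hψ
  have hπ : ∑' C : Atom L, wM W C.1 = 1 := atom_total_eq_one W hc
  have hvg : ∀ n, vg W L n ≤ 1 := fun n => by
    rw [vg_eq]
    calc crossing W L n * crossing W (-L) n ≤ 1 * 1 :=
          mul_le_mul' (crossing_le_one W L n) (crossing_le_one W (-L) n)
      _ = 1 := by simp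
  have key : ∀ k g, ∑' m : Mon L, wM W m * ((if m.g = g then 1 else 0) * (pr m k : ℝ≥0∞)) ≤
      ∑ j ∈ Finset.range (k + 1), ψ j := by
    intro k
    induction k using Nat.strong_induction_on with
    | _ k ih =>
      intro g
      set R : ℝ≥0∞ := ∑ j ∈ Finset.range k, ψ j with hR
      have hfs := first_step W (L := L) (fun m => (if m.g = g then 1 else 0) * (pr m k : ℝ≥0∞))
      rw [hfs]
      simp only [Mon.one_g, hone, Nat.cast_zero, mul_zero, zero_add]
      have hC : ∀ C : Atom L, ∑' m : Mon L, wM W m *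
          ((if (C.1 * m).g = g then 1 else 0) * (pr (C.1 * m) k : ℝ≥0∞)) ≤
          (pr C.1 k : ℝ≥0∞) + R := by
        intro C
        have hCg : 0 < C.1.g := C.2.1
        -- the two parts
        have h1 : ∑' m : Mon L, wM W m * (if C.1.g + m.g = g then 1 else 0) ≤ 1 := by
          by_cases hle : C.1.g ≤ g
          · refine le_trans (le_of_eq ?_) (hvg (g - C.1.g))
            unfold vg
            refine tsum_congr fun m => ?_
            have : (C.1.g + m.g = g) ↔ (m.g = g - C.1.g) := by omega
            simp only [this]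
          · have : ∀ m : Mon L, wM W m * (if C.1.g + m.g = g then (1 : ℝ≥0∞) else 0) = 0 := by
              intro m
              rw [if_neg (by omega), mul_zero]
            simp [this]
        have h2 : ∑' m : Mon L, wM W m * ((if C.1.g + m.g = g then 1 else 0) *
            (if C.1.g ≤ k then (pr m (k - C.1.g) : ℝ≥0∞) else 0)) ≤ R := by
          by_cases hle : C.1.g ≤ k
          · by_cases hle2 : C.1.g ≤ g
            · have h3 := ih (k - C.1.g) (by omega) (g - C.1.g)
              refine le_trans (le_of_eq ?_) (h3.trans ?_)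
              · refine tsum_congr fun m => ?_
                have : (C.1.g + m.g = g) ↔ (m.g = g - C.1.g) := by omega
                simp only [this, if_pos hle]
              · apply Finset.sum_le_sum_of_subset
                intro j hj
                simp only [Finset.mem_range] at hj ⊢
                omega
            · have : ∀ m : Mon L, wM W m * ((if C.1.g + m.g = g then 1 else 0) *
                  (if C.1.g ≤ k then (pr m (k - C.1.g) : ℝ≥0∞) else 0)) = 0 := by
                intro m
                rw [if_neg (show ¬ C.1.g + m.g = g by omega)]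
                simp
              rw [tsum_congr this]
              simp
          · simp [hle]
        calc ∑' m : Mon L, wM W m *
              ((if (C.1 * m).g = g then 1 else 0) * (pr (C.1 * m) k : ℝ≥0∞))
            = ∑' m : Mon L, ((pr C.1 k : ℝ≥0∞) * (wM W m * (if C.1.g + m.g = g then 1 else 0)) +
                wM W m * ((if C.1.g + m.g = g then 1 else 0) *
                  (if C.1.g ≤ k then (pr m (k - C.1.g) : ℝ≥0∞) else 0))) := by
              refine tsum_congr fun m => ?_
              simp only [Mon.mul_g, hmul]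
              by_cases h1 : C.1.g + m.g = g <;> by_cases h2 : C.1.g ≤ k <;> simp [h1, h2] <;> ring
          _ = (pr C.1 k : ℝ≥0∞) * ∑' m : Mon L, wM W m * (if C.1.g + m.g = g then 1 else 0) +
                ∑' m : Mon L, wM W m * ((if C.1.g + m.g = g then 1 else 0) *
                  (if C.1.g ≤ k then (pr m (k - C.1.g) : ℝ≥0∞) else 0)) := by
              rw [ENNReal.tsum_add, ENNReal.tsum_mul_left]
          _ ≤ (pr C.1 k : ℝ≥0∞) * 1 + R := by gcongr
          _ = (pr C.1 k : ℝ≥0∞) + R := by rw [mul_one]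
      calc ∑' C : Atom L, wM W C.1 * ∑' m : Mon L, wM W m *
            ((if (C.1 * m).g = g then 1 else 0) * (pr (C.1 * m) k : ℝ≥0∞))
          ≤ ∑' C : Atom L, wM W C.1 * ((pr C.1 k : ℝ≥0∞) + R) :=
            ENNReal.tsum_le_tsum fun C => by gcongr; exact hC C
        _ = ψ k + R := by
            simp only [mul_add]
            rw [ENNReal.tsum_add, ENNReal.tsum_mul_right, hπ, one_mul]
        _ = ∑ j ∈ Finset.range (k + 1), ψ j := by
            rw [Finset.sum_range_succ, add_comm]
  calc ∑' m : Mon L, wM W m * ((if m.g = g then 1 else 0) * (pr m k : ℝ≥0∞))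
      ≤ ∑ j ∈ Finset.range (k + 1), ψ j := key k g
    _ ≤ ∑' j, ψ j := ENNReal.sum_le_tsum _
    _ = ∑' C : Atom L, wM W C.1 * ∑' j, (pr C.1 j : ℝ≥0∞) := by
        simp only [hψ]
        rw [ENNReal.tsum_comm]
        refine tsum_congr fun C => ?_
        rw [ENNReal.tsum_mul_left]

theorem tsum_prA_eq (m : Mon L) : ∑' j, (prA m j : ℝ≥0∞) = ((dep m.a).card : ℝ≥0∞) := by
  rw [tsum_eq_sum (s := Finset.range m.g) (fun j hj => by
    rw [prA_eq_zero m (by simpa using hj)]; simp)]
  rw [← sum_prA]
  push_cast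
  rfl

theorem tsum_prB_eq (m : Mon L) : ∑' j, (prB m j : ℝ≥0∞) = ((dep m.b).card : ℝ≥0∞) := by
  rw [tsum_eq_sum (s := Finset.range m.g) (fun j hj => by
    rw [prB_eq_zero m (by simpa using hj)]; simp)]
  rw [← sum_prB]
  push_cast
  rfl

theorem prA_bound {c : ℝ≥0∞} (hc : CrossLower W L c) (g k : ℕ) :
    ∑' m : Mon L, wM W m * ((if m.g = g then 1 else 0) * (prA m k : ℝ≥0∞)) ≤
      ∑' C : Atom L, wM W C.1 * ((dep C.1.a).card : ℝ≥0∞) := by
  have := profile_bound W hc prA (fun k => prA_eq_zero 1 (by simp)) prA_mul g k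
  simpa only [tsum_prA_eq] using this

theorem prB_bound {c : ℝ≥0∞} (hc : CrossLower W L c) (g k : ℕ) :
    ∑' m : Mon L, wM W m * ((if m.g = g then 1 else 0) * (prB m k : ℝ≥0∞)) ≤
      ∑' C : Atom L, wM W C.1 * ((dep C.1.b).card : ℝ≥0∞) := by
  have := profile_bound W hc prB (fun k => prB_eq_zero 1 (by simp)) prB_mul g k
  simpa only [tsum_prB_eq] using this

/-- The mean pair count of the elements of grade `g` is at most linear in `g`. -/
theorem theta_upper {c : ℝ≥0∞} (hc : CrossLower W L c) (g : ℕ) :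
    c ^ 2 * ∑' m : Mon L, wM W m * ((if m.g = g then 1 else 0) * (pairCount m : ℝ≥0∞)) ≤
      g * ((∑' C : Atom L, wM W C.1 * ((dep C.1.a).card : ℝ≥0∞)) *
        ∑' C : Atom L, wM W C.1 * ((dep C.1.b).card : ℝ≥0∞)) := by
  classical
  set Ea := ∑' C : Atom L, wM W C.1 * ((dep C.1.a).card : ℝ≥0∞) with hEa
  set Eb := ∑' C : Atom L, wM W C.1 * ((dep C.1.b).card : ℝ≥0∞) with hEb
  -- the functions of the two paths
  let fA : ℕ → List (Step d) → ℝ≥0∞ := fun k a =>
    (((dep a).filter (fun u => L u + 1 + k = g)).card : ℝ≥0∞)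
  let fB : ℕ → List (Step d) → ℝ≥0∞ := fun k b =>
    (((dep b).filter (fun y => (-L) y = k)).card : ℝ≥0∞)
  have hA : ∀ (k : ℕ) (m : Mon L), m.g = g → (prA m k : ℝ≥0∞) = fA k m.a := by
    intro k m hm
    simp only [fA, prA, hm]
  have hB : ∀ (k : ℕ) (m : Mon L), (prB m k : ℝ≥0∞) = fB k m.b := by
    intro k m
    simp only [fB, prB]
  -- each level
  have hlev : ∀ k : ℕ, c ^ 2 * ∑' m : Mon L, wM W m *
      ((if m.g = g then 1 else 0) * ((prA m k : ℝ≥0∞) * (prB m k : ℝ≥0∞))) ≤ Ea * Eb := by
    intro k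
    have h0 : ∑' m : Mon L, wM W m *
        ((if m.g = g then 1 else 0) * ((prA m k : ℝ≥0∞) * (prB m k : ℝ≥0∞))) =
        (∑' a : {a : List (Step d) // Up L g a}, W.w a.1 * fA k a.1) *
          ∑' b : {b : List (Step d) // Up (-L) g b}, W.w b.1 * fB k b.1 := by
      rw [← mon_product]
      refine tsum_congr fun m => ?_
      by_cases hm : m.g = g
      · simp only [hm, if_true, hA k m hm, hB k m]
      · simp [hm]
    have h1 : ∑' m : Mon L, wM W m * ((if m.g = g then 1 else 0) * (prA m k : ℝ≥0∞)) =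
        (∑' a : {a : List (Step d) // Up L g a}, W.w a.1 * fA k a.1) * crossing W (-L) g := by
      have := mon_product W L g (fA k) (fun _ => 1)
      simp only [mul_one] at this
      rw [show crossing W (-L) g = ∑' b : {b : List (Step d) // Up (-L) g b}, W.w b.1 from rfl,
        ← this]
      refine tsum_congr fun m => ?_
      by_cases hm : m.g = g
      · simp only [hm, if_true, hA k m hm]
      · simp [hm]
    have h2 : ∑' m : Mon L, wM W m * ((if m.g = g then 1 else 0) * (prB m k : ℝ≥0∞)) =
        crossing W L g * ∑' b : {b : List (Step d) // Up (-L) g b}, W.w b.1 * fB k b.1 := by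
      have := mon_product W L g (fun _ => 1) (fB k)
      simp only [mul_one, one_mul] at this
      rw [show crossing W L g = ∑' a : {a : List (Step d) // Up L g a}, W.w a.1 from rfl,
        ← this]
      refine tsum_congr fun m => ?_
      simp only [hB k m]
    have h3 := prA_bound W hc g k
    have h4 := prB_bound W hc g k
    rw [h1] at h3
    rw [h2] at h4
    rw [h0]
    set α := ∑' a : {a : List (Step d) // Up L g a}, W.w a.1 * fA k a.1
    set β := ∑' b : {b : List (Step d) // Up (-L) g b}, W.w b.1 * fB k b.1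
    calc c ^ 2 * (α * β) = (α * c) * (c * β) := by ring
      _ ≤ (α * crossing W (-L) g) * (crossing W L g * β) := by
          gcongr
          · exact (hc.2 g).2
          · exact (hc.2 g).1
      _ ≤ Ea * Eb := mul_le_mul' h3 h4
  -- sum over the levels
  have hsum : ∑' m : Mon L, wM W m * ((if m.g = g then 1 else 0) * (pairCount m : ℝ≥0∞)) =
      ∑ k ∈ Finset.range g, ∑' m : Mon L, wM W m *
        ((if m.g = g then 1 else 0) * ((prA m k : ℝ≥0∞) * (prB m k : ℝ≥0∞))) := by
    rw [← Summable.tsum_finsetSum (fun _ _ => ENNReal.summable)]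
    refine tsum_congr fun m => ?_
    by_cases hm : m.g = g
    · simp only [hm, if_true, one_mul, pairCount]
      rw [← Finset.mul_sum]
      subst hm
      push_cast
      rfl
    · simp [hm]
  rw [hsum, Finset.mul_sum]
  calc ∑ k ∈ Finset.range g, c ^ 2 * ∑' m : Mon L, wM W m *
        ((if m.g = g then 1 else 0) * ((prA m k : ℝ≥0∞) * (prB m k : ℝ≥0∞)))
      ≤ ∑ _k ∈ Finset.range g, Ea * Eb := Finset.sum_le_sum fun k _ => hlev k
    _ = g * (Ea * Eb) := by simp [Finset.sum_const, nsmul_eq_mul]

/-- Finiteness of the mean pair count of the atoms (Markov and `moment_finite`). -/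
theorem pairCount_mean_ne_top {c : ℝ≥0∞} (hc : CrossLower W L c)
    (hBu : Ballistic W L) (hBd : Ballistic W (-L)) :
    ∑' C : Atom L, wM W C.1 * (pairCount C.1 : ℝ≥0∞) ≠ ∞ := by
  classical
  have hEa := moment_a W hc hBu
  have hEb := moment_b W hc hBd
  set B : ℝ≥0∞ := (∑' C : Atom L, wM W C.1 * ((dep C.1.a).card : ℝ≥0∞)) *
        ∑' C : Atom L, wM W C.1 * ((dep C.1.b).card : ℝ≥0∞) with hB
  have hBtop : B ≠ ∞ := ENNReal.mul_ne_top hEa hEb
  have hc0 : c ≠ 0 := hc.1
  have hc1 : c ≤ 1 := (hc.2 0).1.trans (crossing_le_one W L 0)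
  have hctop : c ≠ ∞ := ne_top_of_le_ne_top ENNReal.one_ne_top hc1
  have hc2 : c ^ 2 ≠ 0 := pow_ne_zero 2 hc0
  have hc2top : c ^ 2 ≠ ∞ := ENNReal.pow_ne_top hctop
  set q : ℝ≥0∞ := c ^ 2 / 2 with hq
  have hq0 : q ≠ 0 := by
    simp only [hq]
    exact ENNReal.div_ne_zero.2 ⟨hc2, by simp⟩
  have hqtop : q ≠ ∞ := by
    simp only [hq]
    exact ENNReal.div_ne_top hc2top (by simp)
  have hqq : q + q = c ^ 2 := ENNReal.add_halves _
  have hvg : ∀ n, vg W L n ≤ 1 := fun n => by
    rw [vg_eq]
    calc crossing W L n * crossing W (-L) n ≤ 1 * 1 :=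
          mul_le_mul' (crossing_le_one W L n) (crossing_le_one W (-L) n)
      _ = 1 := by simp
  have hdiv : B / (c ^ 2 * q) ≠ ∞ := ENNReal.div_ne_top hBtop (mul_ne_zero hc2 hq0)
  obtain ⟨A, hA⟩ := ENNReal.exists_nat_gt hdiv
  have hA' : B ≤ (A : ℝ≥0∞) * (c ^ 2 * q) := by
    exact (ENNReal.div_le_iff (mul_ne_zero hc2 hq0) (ENNReal.mul_ne_top hc2top hqtop)).1 hA.le
  have hA0 : (A : ℝ≥0∞) ≠ 0 := by
    intro h0
    rw [h0] at hA
    simp at hA
  refine moment_finite W (atom_total_eq_one W hc) (atom_mean_ne_top W hc) hvg pairCount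
    pairCount_mul q hq0 A 1 ?_
  intro T hT
  set x : ℝ≥0∞ := ∑' m : Mon L, wM W m * (if m.g = T ∧ ¬ pairCount m ≤ A * T then 1 else 0) with hx
  set y : ℝ≥0∞ := ∑' m : Mon L, wM W m * (if m.g = T ∧ pairCount m ≤ A * T then 1 else 0) with hy
  have hT0 : (T : ℝ≥0∞) ≠ 0 := by
    have : T ≠ 0 := by omega
    exact_mod_cast this
  have hTtop : (T : ℝ≥0∞) ≠ ∞ := ENNReal.natCast_ne_top T
  -- the total mass of the grade
  have hxy : y + x = vg W L T := by
    rw [hy, hx, ← ENNReal.tsum_add]
    unfold vg
    refine tsum_congr fun m => ?_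
    by_cases h1 : m.g = T <;> by_cases h2 : pairCount m ≤ A * T <;> simp [h1, h2]
  have hvlow : c ^ 2 ≤ vg W L T := by
    rw [vg_eq, pow_two]
    exact mul_le_mul' (hc.2 T).1 (hc.2 T).2
  -- Markov
  have hM : (A : ℝ≥0∞) * T * x ≤
      ∑' m : Mon L, wM W m * ((if m.g = T then 1 else 0) * (pairCount m : ℝ≥0∞)) := by
    rw [hx, ← ENNReal.tsum_mul_left]
    refine ENNReal.tsum_le_tsum fun m => ?_
    by_cases h1 : m.g = T
    · by_cases h2 : pairCount m ≤ A * T
      · simp [h1, h2]
      · simp only [h1, h2, not_false_eq_true, and_self, if_true, mul_one, one_mul]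
        have h3 : (A : ℝ≥0∞) * T ≤ (pairCount m : ℝ≥0∞) := by
          have : A * T ≤ pairCount m := by omega
          exact_mod_cast this
        calc (A : ℝ≥0∞) * T * wM W m = wM W m * ((A : ℝ≥0∞) * T) := by ring
          _ ≤ wM W m * (pairCount m : ℝ≥0∞) := by gcongr
    · simp [h1]
  have hU := theta_upper W hc T
  have h1 : (T : ℝ≥0∞) * (c ^ 2 * (A * x)) ≤ T * B := by
    calc (T : ℝ≥0∞) * (c ^ 2 * (A * x)) = c ^ 2 * ((A : ℝ≥0∞) * T * x) := by ring
      _ ≤ c ^ 2 * ∑' m : Mon L, wM W m * ((if m.g = T then 1 else 0) * (pairCount m : ℝ≥0∞)) := by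
          gcongr
      _ ≤ T * B := hU
  have h2 : c ^ 2 * (A * x) ≤ B := (ENNReal.mul_le_mul_iff_right hT0 hTtop).1 h1
  have h3 : (A : ℝ≥0∞) * (c ^ 2 * x) ≤ (A : ℝ≥0∞) * (c ^ 2 * q) := by
    calc (A : ℝ≥0∞) * (c ^ 2 * x) = c ^ 2 * (A * x) := by ring
      _ ≤ B := h2
      _ ≤ _ := hA'
  have h4 : c ^ 2 * x ≤ c ^ 2 * q :=
    (ENNReal.mul_le_mul_iff_right hA0 (ENNReal.natCast_ne_top A)).1 h3
  have h5 : x ≤ q := (ENNReal.mul_le_mul_iff_right hc2 hc2top).1 h4
  have h6 : q + q ≤ y + q := by
    rw [hqq]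
    calc c ^ 2 ≤ vg W L T := hvlow
      _ = y + x := hxy.symm
      _ ≤ y + q := by gcongr
  exact (ENNReal.add_le_add_iff_right hqtop).1 h6

end

end Vale.Agent.Lib.P147T
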