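import Vale.Agent.Lib.P147T.Renewal

/-!
# P147: finite first moment of additive functionals of atoms.

The proof of `moment_finite` goes through the generating function
`S_N(θ) = ∑_{grade ≤ N} wM m θ^{h m}`: the first step identity gives `S_N ≤ 1 + ρ(θ) S_N`
with `ρ(θ) = ∑_C wM C θ^{h C}`, so `(1 - ρ(θ)) S_N ≤ 1`, while ballisticity gives
`S_N ≥ c₀ ∑_{T₁ ≤ T ≤ N} θ^{A T}`.  Letting `θ → 1` bounds the mean of `h`.
-/

open scoped ENNReal BigOperators
open Filter Topology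

namespace Vale.Agent.Lib.P147T

variable {d : ℕ}

section
variable (W : Wt d) {L : Site d →+ ℤ}

/-- The truncated generating function. -/
private noncomputable def SN (h : Mon L → ℕ) (θ : ℝ≥0∞) (N : ℕ) : ℝ≥0∞ :=
  ∑' m : Mon L, wM W m * ((if m.g ≤ N then 1 else 0) * θ ^ h m)

private theorem SN_le (h : Mon L → ℕ) (hadd : ∀ C m : Mon L, h (C * m) = h C + h m)
    (θ : ℝ≥0∞) (hθ : θ ≤ 1) (N : ℕ) :
    SN W h θ N ≤ 1 + (∑' C : Atom L, wM W C.1 * θ ^ h C.1) * SN W h θ N := by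
  classical
  have hfs := first_step W (fun m => (if m.g ≤ N then 1 else 0) * θ ^ h m)
  refine le_trans (le_of_eq hfs) (add_le_add ?_ ?_)
  · have h1 : θ ^ h (1 : Mon L) ≤ 1 := pow_le_one₀ zero_le hθ
    calc _ ≤ (1 : ℝ≥0∞) * 1 := mul_le_mul' (by split_ifs <;> simp) h1
      _ = 1 := one_mul 1
  · rw [← ENNReal.tsum_mul_right]
    refine ENNReal.tsum_le_tsum fun C => ?_
    rw [mul_assoc]
    refine mul_le_mul' le_rfl ?_
    unfold SN
    rw [← ENNReal.tsum_mul_left]
    refine ENNReal.tsum_le_tsum fun m => ?_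
    rw [mul_left_comm (θ ^ h C.1)]
    refine mul_le_mul' le_rfl ?_
    rw [hadd, pow_add, Mon.mul_g]
    by_cases hg : C.1.g + m.g ≤ N
    · have hm : m.g ≤ N := by omega
      simp only [if_pos hg, if_pos hm, one_mul]
      exact le_rfl
    · simp [if_neg hg]

private theorem SN_ne_top (h : Mon L → ℕ) (hv : ∀ g, vg W L g ≤ 1)
    (θ : ℝ≥0∞) (hθ : θ ≤ 1) (N : ℕ) : SN W h θ N ≠ ∞ := by
  classical
  have hle : SN W h θ N ≤ ∑ g ∈ Finset.range (N + 1), vg W L g := by
    unfold SN vg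
    rw [← Summable.tsum_finsetSum (fun _ _ => ENNReal.summable)]
    refine ENNReal.tsum_le_tsum fun m => ?_
    rw [← Finset.mul_sum]
    refine mul_le_mul' le_rfl ?_
    rw [Finset.sum_ite_eq]
    by_cases hg : m.g ≤ N
    · have : m.g ∈ Finset.range (N + 1) := Finset.mem_range.2 (by omega)
      rw [if_pos hg, if_pos this, one_mul]
      exact pow_le_one₀ zero_le hθ
    · simp [if_neg hg]
  refine ne_top_of_le_ne_top ?_ hle
  refine ne_top_of_le_ne_top (b := ∑ g ∈ Finset.range (N + 1), (1 : ℝ≥0∞)) ?_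
    (Finset.sum_le_sum fun g _ => hv g)
  simp

private theorem SN_ge (h : Mon L → ℕ) (θ : ℝ≥0∞) (hθ : θ ≤ 1) (N : ℕ)
    (c₀ : ℝ≥0∞) (A T₁ : ℕ)
    (hbal : ∀ T, T₁ ≤ T → c₀ ≤ ∑' m : Mon L, wM W m * (if m.g = T ∧ h m ≤ A * T then 1 else 0)) :
    c₀ * ∑ T ∈ Finset.Ico T₁ (N + 1), θ ^ (A * T) ≤ SN W h θ N := by
  classical
  rw [Finset.mul_sum]
  calc ∑ T ∈ Finset.Ico T₁ (N + 1), c₀ * θ ^ (A * T)
      ≤ ∑ T ∈ Finset.Ico T₁ (N + 1),
          ∑' m : Mon L, wM W m * (if m.g = T ∧ h m ≤ A * T then 1 else 0) * θ ^ (A * T) := by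
        refine Finset.sum_le_sum fun T hT => ?_
        rw [ENNReal.tsum_mul_right]
        exact mul_le_mul' (hbal T (Finset.mem_Ico.1 hT).1) le_rfl
    _ = ∑' m : Mon L, ∑ T ∈ Finset.Ico T₁ (N + 1),
          wM W m * (if m.g = T ∧ h m ≤ A * T then 1 else 0) * θ ^ (A * T) := by
        rw [Summable.tsum_finsetSum (fun _ _ => ENNReal.summable)]
    _ ≤ _ := by
        unfold SN
        refine ENNReal.tsum_le_tsum fun m => ?_
        by_cases hm : m.g ∈ Finset.Ico T₁ (N + 1)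
        · rw [Finset.sum_eq_single_of_mem m.g hm]
          · have hm' : m.g ≤ N := by have := (Finset.mem_Ico.1 hm).2; omega
            rw [if_pos hm', one_mul, mul_assoc]
            refine mul_le_mul' le_rfl ?_
            by_cases hh : h m ≤ A * m.g
            · simp only [true_and, if_pos hh, one_mul]
              exact pow_le_pow_right_of_le_one' hθ hh
            · simp [hh]
          · intro T _ hT
            have : ¬ (m.g = T ∧ h m ≤ A * T) := fun hc => hT hc.1.symm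
            simp [this]
        · rw [Finset.sum_eq_zero]
          · exact zero_le
          · intro T hT
            have : ¬ (m.g = T ∧ h m ≤ A * T) := fun hc => hm (hc.1 ▸ hT)
            simp [this]

private theorem real_one_sub_pow (t : ℝ) (h0 : 0 ≤ t) (h1 : t ≤ 1) (K : ℕ) :
    ∀ k, k ≤ K → (k : ℝ) * ((1 - t) * t ^ K) ≤ 1 - t ^ k := by
  intro k
  induction k with
  | zero => intro _; simp
  | succ k ih =>
    intro hk
    have h4 := ih (by omega)
    have h2 : t ^ K ≤ t ^ k := pow_le_pow_of_le_one h0 h1 (by omega)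
    have h3 : (1 - t) * t ^ K ≤ (1 - t) * t ^ k := mul_le_mul_of_nonneg_left h2 (by linarith)
    push_cast
    rw [pow_succ]
    nlinarith

/-- The numerical choice of the parameters. -/
private theorem exists_params (K A' T₁ : ℕ) (hA : 1 ≤ A') :
    ∃ (t : ℝ) (N : ℕ), 0 < t ∧ t < 1 ∧ T₁ ≤ N + 1 ∧
      1 / (4 * (A' : ℝ)) ≤ ((1 - t) * t ^ K) * ∑ T ∈ Finset.Ico T₁ (N + 1), t ^ (A' * T) := by
  set M : ℕ := K + A' * T₁ + 1 with hM
  have hMpos : (0 : ℝ) < M := by rw [hM]; positivity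
  set t : ℝ := 1 - 1 / (4 * (M : ℝ)) with ht
  have hM1 : (1 : ℝ) ≤ M := by rw [hM]; push_cast; nlinarith [Nat.cast_nonneg (α := ℝ) K, Nat.cast_nonneg (α := ℝ) (A' * T₁)]
  have h14 : 1 / (4 * (M : ℝ)) ≤ 1 / 4 := by
    apply one_div_le_one_div_of_le (by norm_num); linarith
  have hinvpos : 0 < 1 / (4 * (M : ℝ)) := by positivity
  have ht0 : 0 < t := by rw [ht]; linarith
  have ht1 : t < 1 := by rw [ht]; linarith
  have hbern : ∀ n : ℕ, n ≤ M → (3 / 4 : ℝ) ≤ t ^ n := by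
    intro n hn
    have h1 := one_add_mul_le_pow (a := -(1 / (4 * (M : ℝ)))) (by linarith) n
    have h2 : t = 1 + -(1 / (4 * (M : ℝ))) := by rw [ht]; ring
    rw [h2]
    have hnM : (n : ℝ) ≤ M := by exact_mod_cast hn
    have h3 : (n : ℝ) * (1 / (4 * (M : ℝ))) ≤ 1 / 4 := by
      rw [mul_one_div, div_le_iff₀ (by positivity)]
      nlinarith
    nlinarith
  have hA' : (0 : ℝ) < A' := by exact_mod_cast hA
  set q : ℝ := t ^ A' with hq
  have hq0 : 0 < q := by rw [hq]; positivity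
  have hq1 : q < 1 := by
    rw [hq]
    exact pow_lt_one₀ ht0.le ht1 (by omega)
  obtain ⟨n0, hn0⟩ := exists_pow_lt_of_lt_one (show (0 : ℝ) < 1 / 4 by norm_num) hq1
  refine ⟨t, n0 + T₁, ht0, ht1, by omega, ?_⟩
  have hsum : ∑ T ∈ Finset.Ico T₁ (n0 + T₁ + 1), t ^ (A' * T)
      = ∑ T ∈ Finset.Ico T₁ (n0 + T₁ + 1), q ^ T := by
    refine Finset.sum_congr rfl fun T _ => ?_
    rw [hq, pow_mul]
  rw [hsum]
  have hgeom : (∑ T ∈ Finset.Ico T₁ (n0 + T₁ + 1), q ^ T) * (1 - q)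
      = q ^ T₁ - q ^ (n0 + T₁ + 1) := by
    have := geom_sum_Ico_mul q (show T₁ ≤ n0 + T₁ + 1 by omega)
    have h2 : (∑ T ∈ Finset.Ico T₁ (n0 + T₁ + 1), q ^ T) * (q - 1)
        = q ^ (n0 + T₁ + 1) - q ^ T₁ := this
    linarith
  set Z := ∑ T ∈ Finset.Ico T₁ (n0 + T₁ + 1), q ^ T with hZ
  have hZ0 : 0 ≤ Z := Finset.sum_nonneg fun T _ => by positivity
  -- `1 - q ≤ A' (1 - t)`
  have h1q : 1 - q ≤ A' * (1 - t) := by
    have := real_one_sub_pow t ht0.le ht1.le A' A' le_rfl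
    have h3 : 1 - q = 1 - t ^ A' := by rw [hq]
    -- direct Bernoulli
    have h4 := one_add_mul_le_pow (a := -(1 - t)) (by linarith) A'
    have h5 : 1 + -(1 - t) = t := by ring
    rw [h5] at h4
    rw [hq]
    nlinarith
  have hqT : (3 / 4 : ℝ) ≤ q ^ T₁ := by
    rw [hq, ← pow_mul]
    exact hbern _ (by rw [hM]; omega)
  have hqN : q ^ (n0 + T₁ + 1) ≤ 1 / 4 := by
    have h2 : q ^ (n0 + T₁ + 1) ≤ q ^ n0 :=
      pow_le_pow_of_le_one hq0.le hq1.le (by omega)
    exact le_trans h2 hn0.le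
  have htK : (3 / 4 : ℝ) ≤ t ^ K := hbern _ (by rw [hM]; omega)
  have hmain : 1 / 2 ≤ (1 - q) * Z := by
    rw [mul_comm, hgeom]; linarith
  have h1t : 0 ≤ 1 - t := by linarith
  have hmain2 : 1 / 2 ≤ A' * ((1 - t) * Z) := by
    calc (1 / 2 : ℝ) ≤ (1 - q) * Z := hmain
      _ ≤ (A' * (1 - t)) * Z := mul_le_mul_of_nonneg_right h1q hZ0
      _ = _ := by ring
  have hYpos : 1 / (2 * (A' : ℝ)) ≤ (1 - t) * Z := by
    rw [div_le_iff₀ (by positivity)]
    nlinarith
  have : 1 / (4 * (A' : ℝ)) ≤ (3 / 4 : ℝ) * (1 / (2 * (A' : ℝ))) := by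
    rw [div_mul_div_comm, div_le_div_iff₀ (by positivity) (by positivity)]
    nlinarith
  calc 1 / (4 * (A' : ℝ)) ≤ (3 / 4 : ℝ) * (1 / (2 * (A' : ℝ))) := this
    _ ≤ t ^ K * ((1 - t) * Z) := by
        have h0 : 0 ≤ 1 / (2 * (A' : ℝ)) := by positivity
        exact mul_le_mul htK hYpos h0 (by positivity)
    _ = _ := by ring

/-- An additive functional which is at most linear in the grade with probability bounded below
has finite mean over the atoms. -/
theorem moment_finite (hπ : ∑' C : Atom L, wM W C.1 = 1)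
    (hμ : ∑' C : Atom L, wM W C.1 * (C.1.g : ℝ≥0∞) ≠ ∞)
    (hv : ∀ g, vg W L g ≤ 1) (h : Mon L → ℕ) (hadd : ∀ C m : Mon L, h (C * m) = h C + h m)
    (c₀ : ℝ≥0∞) (hc₀ : c₀ ≠ 0) (A T₁ : ℕ)
    (hbal : ∀ T, T₁ ≤ T → c₀ ≤ ∑' m : Mon L, wM W m * (if m.g = T ∧ h m ≤ A * T then 1 else 0)) :
    ∑' C : Atom L, wM W C.1 * (h C.1 : ℝ≥0∞) ≠ ∞ := by
  classical
  -- pass to a positive slope
  set A' : ℕ := A + 1 with hA'
  have hbal' : ∀ T, T₁ ≤ T →
      c₀ ≤ ∑' m : Mon L, wM W m * (if m.g = T ∧ h m ≤ A' * T then 1 else 0) := by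
    intro T hT
    refine le_trans (hbal T hT) (ENNReal.tsum_le_tsum fun m => mul_le_mul' le_rfl ?_)
    by_cases h1 : m.g = T ∧ h m ≤ A * T
    · have h2 : m.g = T ∧ h m ≤ A' * T := ⟨h1.1, le_trans h1.2 (Nat.mul_le_mul_right _ (by omega))⟩
      simp [if_pos h1, if_pos h2]
    · simp [if_neg h1]
  have hA1 : 1 ≤ A' := by omega
  have hA'pos : (0 : ℝ) < A' := by exact_mod_cast hA1
  -- the constant
  set a : ℝ≥0∞ := ENNReal.ofReal (1 / (4 * (A' : ℝ))) * c₀ with ha
  have ha0 : a ≠ 0 := by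
    rw [ha]
    refine mul_ne_zero ?_ hc₀
    simp only [ne_eq, ENNReal.ofReal_eq_zero, not_le]
    positivity
  have hbound : ∀ S : Finset (Atom L), a * ∑ C ∈ S, wM W C.1 * (h C.1 : ℝ≥0∞) ≤ 1 := by
    intro S
    set K : ℕ := S.sup fun C => h C.1 with hK
    obtain ⟨t, N, ht0, ht1, hN, hnum⟩ := exists_params K A' T₁ hA1
    set θ : ℝ≥0∞ := ENNReal.ofReal t with hθdef
    have hθ : θ ≤ 1 := by
      rw [hθdef, ← ENNReal.ofReal_one]
      exact ENNReal.ofReal_le_ofReal ht1.le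
    have hθpow : ∀ k : ℕ, θ ^ k = ENNReal.ofReal (t ^ k) := fun k => by
      rw [hθdef, ENNReal.ofReal_pow ht0.le]
    set ρ : ℝ≥0∞ := ∑' C : Atom L, wM W C.1 * θ ^ h C.1 with hρ
    set D : ℝ≥0∞ := ∑' C : Atom L, wM W C.1 * ENNReal.ofReal (1 - t ^ h C.1) with hD
    have hρD : ρ + D = 1 := by
      rw [hρ, hD, ← ENNReal.tsum_add, ← hπ]
      refine tsum_congr fun C => ?_
      rw [← mul_add, hθpow, ← ENNReal.ofReal_add (by positivity)
        (by linarith [pow_le_one₀ (n := h C.1) ht0.le ht1.le])]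
      simp
    set S0 : ℝ≥0∞ := SN W h θ N with hS0
    have hS0top : S0 ≠ ∞ := SN_ne_top W h hv θ hθ N
    have hρle : ρ ≤ 1 := by rw [← hρD]; exact le_self_add
    have hρS : ρ * S0 ≠ ∞ :=
      ENNReal.mul_ne_top (ne_top_of_le_ne_top ENNReal.one_ne_top hρle) hS0top
    have hDS : D * S0 ≤ 1 := by
      have h1 : ρ * S0 + D * S0 ≤ ρ * S0 + 1 := by
        rw [← add_mul, hρD, one_mul, add_comm (ρ * S0)]
        exact SN_le W h hadd θ hθ N
      exact (ENNReal.add_le_add_iff_left hρS).1 h1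
    -- lower bound on `D`
    have hDlow : ENNReal.ofReal ((1 - t) * t ^ K) * ∑ C ∈ S, wM W C.1 * (h C.1 : ℝ≥0∞) ≤ D := by
      rw [Finset.mul_sum]
      refine le_trans (Finset.sum_le_sum fun C hC => ?_)
        (ENNReal.sum_le_tsum (f := fun C : Atom L =>
          wM W C.1 * ENNReal.ofReal (1 - t ^ h C.1)) S)
      rw [mul_left_comm]
      refine mul_le_mul' le_rfl ?_
      have hk : h C.1 ≤ K := Finset.le_sup (f := fun C : Atom L => h C.1) hC
      have h2 := real_one_sub_pow t ht0.le ht1.le K (h C.1) hk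
      have h3 : ENNReal.ofReal ((1 - t) * t ^ K) * (h C.1 : ℝ≥0∞)
          = ENNReal.ofReal ((h C.1 : ℝ) * ((1 - t) * t ^ K)) := by
        rw [← ENNReal.ofReal_natCast, ← ENNReal.ofReal_mul
          (mul_nonneg (by linarith) (by positivity)), mul_comm]
      rw [h3]
      exact ENNReal.ofReal_le_ofReal h2
    -- lower bound on `S0`
    have hSlow : c₀ * ENNReal.ofReal (∑ T ∈ Finset.Ico T₁ (N + 1), t ^ (A' * T)) ≤ S0 := by
      have h1 := SN_ge W h θ hθ N c₀ A' T₁ hbal'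
      refine le_trans (le_of_eq ?_) h1
      congr 1
      rw [ENNReal.ofReal_sum_of_nonneg (fun T _ => by positivity)]
      exact Finset.sum_congr rfl fun T _ => (hθpow _).symm
    -- conclusion
    set Y : ℝ≥0∞ := ∑ C ∈ S, wM W C.1 * (h C.1 : ℝ≥0∞) with hY
    set Z : ℝ := ∑ T ∈ Finset.Ico T₁ (N + 1), t ^ (A' * T) with hZ
    have hZ0 : 0 ≤ Z := Finset.sum_nonneg fun T _ => by positivity
    have hfac : 0 ≤ (1 - t) * t ^ K := mul_nonneg (by linarith) (by positivity)
    have hofr : ENNReal.ofReal (1 / (4 * (A' : ℝ)))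
        ≤ ENNReal.ofReal ((1 - t) * t ^ K) * ENNReal.ofReal Z := by
      rw [← ENNReal.ofReal_mul hfac]
      exact ENNReal.ofReal_le_ofReal hnum
    calc a * Y = ENNReal.ofReal (1 / (4 * (A' : ℝ))) * c₀ * Y := rfl
      _ ≤ (ENNReal.ofReal ((1 - t) * t ^ K) * ENNReal.ofReal Z) * c₀ * Y := by gcongr
      _ = (ENNReal.ofReal ((1 - t) * t ^ K) * Y) * (c₀ * ENNReal.ofReal Z) := by ring
      _ ≤ D * S0 := mul_le_mul' hDlow hSlow
      _ ≤ 1 := hDS
  -- sum over all finite subsets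
  have hfinal : ∑' C : Atom L, wM W C.1 * (h C.1 : ℝ≥0∞) ≤ a⁻¹ := by
    rw [ENNReal.tsum_eq_iSup_sum]
    refine iSup_le fun S => ?_
    rw [ENNReal.le_inv_iff_mul_le, mul_comm]
    exact hbound S
  exact ne_top_of_le_ne_top (ENNReal.inv_ne_top.2 ha0) hfinal

/-- The departure sites of a concatenation. -/
private theorem dep_append_eq (l₁ l₂ : List (Step d)) :
    dep (l₁ ++ l₂) = dep l₁ ∪ tr (endp l₁) (dep l₂) := by
  classical
  ext x
  simp only [Finset.mem_union, mem_dep_append, mem_tr]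

private theorem tr_card (t : Site d) (S : Finset (Site d)) : (tr t S).card = S.card := by
  classical
  unfold tr
  exact Finset.card_image_of_injective _ (fun x y h => add_left_cancel h)

private theorem dep_card_append_of_up {L' : Site d →+ ℤ} {g₁ g₂ : ℕ} {l₁ l₂ : List (Step d)}
    (h₁ : Up L' g₁ l₁) (h₂ : Up L' g₂ l₂) :
    (dep (l₁ ++ l₂)).card = (dep l₁).card + (dep l₂).card := by
  classical
  rw [dep_append_eq, Finset.card_union_of_disjoint, tr_card]
  rw [Finset.disjoint_left]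
  intro x hx hx2
  obtain ⟨y, hy, rfl⟩ := mem_tr.1 hx2
  have h3 := h₁.2 _ hx
  have h4 := h₂.2 y hy
  rw [map_add, h₁.1] at h3
  omega

/-- The number of departure sites of the up path is additive. -/
theorem dep_card_a (C m : Mon L) :
    (dep (C * m).a).card = (dep C.a).card + (dep m.a).card := by
  rw [Mon.mul_a, dep_card_append_of_up m.ha C.ha, add_comm]

/-- The number of departure sites of the down path is additive. -/
theorem dep_card_b (C m : Mon L) :
    (dep (C * m).b).card = (dep C.b).card + (dep m.b).card := by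
  rw [Mon.mul_b, dep_card_append_of_up C.hb m.hb]

/-- `E_a < ∞`. -/
theorem moment_a {c : ℝ≥0∞} (hc : CrossLower W L c) (hB : Ballistic W L) :
    ∑' C : Atom L, wM W C.1 * ((dep C.1.a).card : ℝ≥0∞) ≠ ∞ := by
  classical
  obtain ⟨c', A, T₁, hc', hbal⟩ := hB
  refine moment_finite W (atom_total_eq_one W hc) (atom_mean_ne_top W hc) (vg_le_one W)
    (fun m => (dep m.a).card) dep_card_a (c' * c) (mul_ne_zero hc' hc.1) A T₁ ?_
  intro T hT
  have hprod := mon_product W L T (fun a => if (dep a).card ≤ A * T then 1 else 0) (fun _ => 1)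
  have hrw : ∀ m : Mon L, wM W m * (if m.g = T ∧ (dep m.a).card ≤ A * T then 1 else 0)
      = wM W m * ((if m.g = T then 1 else 0) *
          ((if (dep m.a).card ≤ A * T then 1 else 0) * 1)) := by
    intro m
    by_cases h1 : m.g = T <;> by_cases h2 : (dep m.a).card ≤ A * T <;> simp [h1, h2]
  simp_rw [hrw]
  rw [hprod]
  refine mul_le_mul' ?_ ?_
  · refine le_trans (hbal T hT) ?_
    let φ : {a : List (Step d) // Up L T a ∧ (dep a).card ≤ A * T} →
        {a : List (Step d) // Up L T a} := fun a => ⟨a.1, a.2.1⟩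
    have hφ : Function.Injective φ := fun a b hab => Subtype.ext (congrArg (fun x => x.1) hab)
    refine le_trans (le_of_eq ?_) (ENNReal.tsum_comp_le_tsum_of_injective hφ
      (fun a : {a : List (Step d) // Up L T a} =>
        W.w a.1 * (if (dep a.1).card ≤ A * T then 1 else 0)))
    refine tsum_congr fun a => ?_
    simp [φ, a.2.2]
  · simp only [mul_one]
    exact (hc.2 T).2

/-- `E_b < ∞`. -/
theorem moment_b {c : ℝ≥0∞} (hc : CrossLower W L c) (hB : Ballistic W (-L)) :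
    ∑' C : Atom L, wM W C.1 * ((dep C.1.b).card : ℝ≥0∞) ≠ ∞ := by
  classical
  obtain ⟨c', A, T₁, hc', hbal⟩ := hB
  refine moment_finite W (atom_total_eq_one W hc) (atom_mean_ne_top W hc) (vg_le_one W)
    (fun m => (dep m.b).card) dep_card_b (c * c') (mul_ne_zero hc.1 hc') A T₁ ?_
  intro T hT
  have hprod := mon_product W L T (fun _ => 1) (fun b => if (dep b).card ≤ A * T then 1 else 0)
  have hrw : ∀ m : Mon L, wM W m * (if m.g = T ∧ (dep m.b).card ≤ A * T then 1 else 0)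
      = wM W m * ((if m.g = T then 1 else 0) *
          (1 * (if (dep m.b).card ≤ A * T then 1 else 0))) := by
    intro m
    by_cases h1 : m.g = T <;> by_cases h2 : (dep m.b).card ≤ A * T <;> simp [h1, h2]
  simp_rw [hrw]
  rw [hprod]
  refine mul_le_mul' ?_ ?_
  · simp only [mul_one]
    exact (hc.2 T).1
  · refine le_trans (hbal T hT) ?_
    let φ : {b : List (Step d) // Up (-L) T b ∧ (dep b).card ≤ A * T} →
        {b : List (Step d) // Up (-L) T b} := fun b => ⟨b.1, b.2.1⟩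
    have hφ : Function.Injective φ := fun a b hab => Subtype.ext (congrArg (fun x => x.1) hab)
    refine le_trans (le_of_eq ?_) (ENNReal.tsum_comp_le_tsum_of_injective hφ
      (fun b : {b : List (Step d) // Up (-L) T b} =>
        W.w b.1 * (if (dep b.1).card ≤ A * T then 1 else 0)))
    refine tsum_congr fun b => ?_
    simp [φ, b.2.2]

end

end Vale.Agent.Lib.P147T
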