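import Vale.Agent.Lib.P147T.Paths

/-!
# P147: the graded monoid of pairs of up-crossings and its free decomposition
-/

open scoped ENNReal BigOperators

namespace Vale.Agent.Lib.P147T

variable {d : ℕ}

/-- Pairs of an up-crossing of height `g` for `L` and one for `-L`. -/
@[ext] structure Mon (L : Site d →+ ℤ) where
  /-- the grade -/
  g : ℕ
  /-- the path going up -/
  a : List (Step d)
  /-- the path going down -/
  b : List (Step d)
  ha : Up L g a
  hb : Up (-L) g b

namespace Mon

variable {L : Site d →+ ℤ}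

/-- The unit. -/
def one : Mon L := ⟨0, [], [], Up.zero_iff.2 rfl, Up.zero_iff.2 rfl⟩

/-- The twisted product: `C` sits on top of `m` in the path `a` and first in the path `b`. -/
def mul (C m : Mon L) : Mon L :=
  ⟨C.g + m.g, m.a ++ C.a, C.b ++ m.b,
    by rw [add_comm]; exact m.ha.append C.ha, C.hb.append m.hb⟩

instance : One (Mon L) := ⟨one⟩
instance : Mul (Mon L) := ⟨mul⟩

@[simp] theorem one_g : (1 : Mon L).g = 0 := rfl
@[simp] theorem one_a : (1 : Mon L).a = [] := rfl
@[simp] theorem one_b : (1 : Mon L).b = [] := rfl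
@[simp] theorem mul_g (C m : Mon L) : (C * m).g = C.g + m.g := rfl
@[simp] theorem mul_a (C m : Mon L) : (C * m).a = m.a ++ C.a := rfl
@[simp] theorem mul_b (C m : Mon L) : (C * m).b = C.b ++ m.b := rfl

theorem g_eq_zero {m : Mon L} (h : m.g = 0) : m = 1 := by
  obtain ⟨g, a, b, ha, hb⟩ := m
  simp only at h
  subst h
  have h1 := Up.zero_iff.1 ha
  have h2 := Up.zero_iff.1 hb
  subst h1 h2
  rfl

protected theorem mul_assoc (x y z : Mon L) : x * y * z = x * (y * z) := by
  ext1 <;> simp [add_assoc]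

@[simp] protected theorem one_mul (x : Mon L) : 1 * x = x := by
  ext1 <;> simp

@[simp] protected theorem mul_one (x : Mon L) : x * 1 = x := by
  ext1 <;> simp

/-- Equidivisibility. -/
theorem equidiv {x y x' y' : Mon L} (h : x * y = x' * y') (hg : x.g ≤ x'.g) :
    ∃ z : Mon L, x' = x * z ∧ y = z * y' := by
  have hgg : x.g + y.g = x'.g + y'.g := congrArg Mon.g h
  have ha : y.a ++ x.a = y'.a ++ x'.a := congrArg Mon.a h
  have hb : x.b ++ y.b = x'.b ++ y'.b := congrArg Mon.b h
  have hg' : y'.g ≤ y.g := by omega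
  obtain ⟨ta, hta⟩ := Up.initSeg y'.ha y.ha hg' ha.symm
  obtain ⟨tb, htb⟩ := Up.initSeg x.hb x'.hb hg hb
  -- the grade of `z`
  obtain ⟨n, hn⟩ := Nat.exists_eq_add_of_le hg
  have hn' : y.g = y'.g + n := by omega
  have hax : ta ++ x.a = x'.a := by
    have : y'.a ++ (ta ++ x.a) = y'.a ++ x'.a := by
      rw [← List.append_assoc, ← hta]; exact ha
    exact List.append_cancel_left this
  have hby : tb ++ y'.b = y.b := by
    have : x.b ++ (tb ++ y'.b) = x.b ++ y.b := by
      rw [← List.append_assoc, ← htb]; exact hb.symm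
    exact List.append_cancel_left this
  have hUa : Up L n ta := by
    have h0 := y.ha
    rw [hn', hta] at h0
    have h1 := x'.ha
    rw [hn, ← hax, add_comm] at h1
    exact Up.mid y'.ha h0 h1
  have hUb : Up (-L) n tb := by
    have h0 := x'.hb
    rw [hn, htb] at h0
    have h1 := y.hb
    rw [hn', ← hby, add_comm] at h1
    exact Up.mid x.hb h0 h1
  refine ⟨⟨n, ta, tb, hUa, hUb⟩, ?_, ?_⟩
  · ext1
    · simpa using hn
    · simpa using hax.symm
    · simpa using htb
  · ext1
    · simp only [mul_g]; omega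
    · simpa using hta
    · simpa using hby.symm

/-- Atoms: elements of positive grade without a nontrivial factorisation. -/
def Irr (m : Mon L) : Prop := 0 < m.g ∧ ∀ x y : Mon L, m = x * y → x.g = 0 ∨ y.g = 0

end Mon

/-- The type of atoms. -/
abbrev Atom (L : Site d →+ ℤ) := {m : Mon L // Mon.Irr m}

namespace Mon

variable {L : Site d →+ ℤ}

theorem exists_atom_mul (m : Mon L) (hm : 0 < m.g) : ∃ (C : Atom L) (m' : Mon L), m = C.1 * m' := by
  induction hk : m.g using Nat.strong_induction_on generalizing m with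
  | _ k ih =>
    by_cases hI : Irr m
    · exact ⟨⟨m, hI⟩, 1, by simp⟩
    · have : ∃ x y : Mon L, m = x * y ∧ x.g ≠ 0 ∧ y.g ≠ 0 := by
        by_contra hcon
        apply hI
        refine ⟨hm, fun x y hxy => ?_⟩
        by_contra h2
        push Not at h2
        exact hcon ⟨x, y, hxy, h2.1, h2.2⟩
      obtain ⟨x, y, rfl, hx, hy⟩ := this
      have hlt : x.g < k := by rw [← hk]; simp only [mul_g]; omega
      obtain ⟨C, x', rfl⟩ := ih x.g hlt x (Nat.pos_of_ne_zero hx) rfl
      exact ⟨C, x' * y, Mon.mul_assoc _ _ _⟩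

theorem atom_mul_inj {C C' : Atom L} {m m' : Mon L} (h : C.1 * m = C'.1 * m') :
    C = C' ∧ m = m' := by
  wlog hle : C.1.g ≤ C'.1.g generalizing C C' m m'
  · obtain ⟨h1, h2⟩ := this h.symm (by omega)
    exact ⟨h1.symm, h2.symm⟩
  obtain ⟨z, hz1, hz2⟩ := equidiv h hle
  have hz : z.g = 0 := by
    rcases C'.2.2 _ _ hz1 with h0 | h0
    · have := C.2.1
      omega
    · exact h0
  have hz' : z = 1 := g_eq_zero hz
  subst hz'
  have h1 : C = C' := Subtype.ext (by simpa using hz1.symm)
  exact ⟨h1, by simpa using hz2⟩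

theorem atom_mul_ne_one (C : Atom L) (m : Mon L) : C.1 * m ≠ 1 := by
  intro h
  have : (C.1 * m).g = 0 := by rw [h]; rfl
  have h2 := C.2.1
  simp only [mul_g] at this
  omega

/-- The universal first-step identity: the monoid is free on its atoms. -/
theorem free_sum (F : Mon L → ℝ≥0∞) :
    ∑' m, F m = F 1 + ∑' (C : Atom L), ∑' m, F (C.1 * m) := by
  classical
  have h1 : ∑' (C : Atom L), ∑' m, F (C.1 * m) = ∑' p : Atom L × Mon L, F (p.1.1 * p.2) :=
    (ENNReal.tsum_prod (f := fun (C : Atom L) (m : Mon L) => F (C.1 * m))).symm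
  let φ : Atom L × Mon L → Mon L := fun p => p.1.1 * p.2
  have hinj : Function.Injective φ := by
    rintro ⟨C, m⟩ ⟨C', m'⟩ h
    obtain ⟨h1, h2⟩ := atom_mul_inj h
    exact Prod.ext h1 h2
  have hsupp : Function.support (fun x : Mon L => if x = 1 then 0 else F x) ⊆ Set.range φ := by
    intro m hm
    have hm1 : m ≠ 1 := by
      rintro rfl
      simp at hm
    have : 0 < m.g := by
      rcases Nat.eq_zero_or_pos m.g with h0 | h0
      · exact absurd (g_eq_zero h0) hm1
      · exact h0
    obtain ⟨C, m', rfl⟩ := exists_atom_mul m this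
    exact ⟨(C, m'), rfl⟩
  have h2 := hinj.tsum_eq hsupp
  have h3 : ∀ p : Atom L × Mon L, (if φ p = 1 then 0 else F (φ p)) = F (φ p) := fun p => by
    rw [if_neg (atom_mul_ne_one p.1 p.2)]
  simp only [h3] at h2
  rw [h1]
  change _ = _ + ∑' p : Atom L × Mon L, F (φ p)
  rw [h2]
  exact ENNReal.tsum_eq_add_tsum_ite (1 : Mon L)

end Mon

/-- The weight of an element of the monoid. -/
noncomputable def wM (W : Wt d) {L : Site d →+ ℤ} (m : Mon L) : ℝ≥0∞ := W.w m.a * W.w m.b

section
variable (W : Wt d) {L : Site d →+ ℤ}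

@[simp] theorem wM_one : wM W (1 : Mon L) = 1 := by
  simp [wM, W.w_nil]

theorem wM_mul (C m : Mon L) : wM W (C * m) = wM W C * wM W m := by
  simp only [wM, Mon.mul_a, Mon.mul_b]
  have h1 : W.w (m.a ++ C.a) = W.w m.a * W.w C.a := by
    apply W.w_split
    intro x hx y hy hxy
    have h2 := m.ha.2 x hx
    have h3 := C.ha.2 y hy
    rw [hxy, map_add, m.ha.1] at h2
    omega
  have h2 : W.w (C.b ++ m.b) = W.w C.b * W.w m.b := by
    apply W.w_split
    intro x hx y hy hxy
    have h2 := C.hb.2 x hx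
    have h3 := m.hb.2 y hy
    rw [hxy, map_add, C.hb.1] at h2
    omega
  rw [h1, h2]
  ring

/-- The weighted first-step identity. -/
theorem first_step (F : Mon L → ℝ≥0∞) :
    ∑' m : Mon L, wM W m * F m =
      F 1 + ∑' C : Atom L, wM W C.1 * ∑' m : Mon L, wM W m * F (C.1 * m) := by
  rw [Mon.free_sum (fun m => wM W m * F m)]
  simp only [wM_one, one_mul, wM_mul]
  congr 1
  refine tsum_congr fun C => ?_
  rw [← ENNReal.tsum_mul_left]
  refine tsum_congr fun m => ?_
  ring

end

end Vale.Agent.Lib.P147T
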