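import Vale.Agent.Lib.P147T.Matrix
import Vale.Agent.Lib.P147T.Bootstrap

/-!
# P147: the abstract killed chain theorem.

`P = K + D` is doubly stochastic, the total defect `Λ = ∑ D` is finite, and the powers of `P`
have entries at most `C / n`.
-/

open scoped ENNReal BigOperators
open Filter Topology

namespace Vale.Agent.Lib.P147T

variable {G : Type}

/-- `P = K + D` is doubly stochastic. -/
structure Kil (P K D : G → G → ℝ≥0∞) : Prop where
  split : ∀ x y, P x y = K x y + D x y
  row : ∀ x, ∑' y, P x y = 1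
  col : ∀ y, ∑' x, P x y = 1

/-- Mass killed before time `N`. -/
noncomputable def Rem (K D : G → G → ℝ≥0∞) (N : ℕ) (x : G) : ℝ≥0∞ :=
  ∑ t ∈ Finset.range N, ∑' w, mpow K t x w * ∑' y, D w y

variable {P K D : G → G → ℝ≥0∞}

theorem Kil.le (h : Kil P K D) (x y : G) : K x y ≤ P x y := by
  rw [h.split]
  exact le_self_add

theorem Kil.row_split (h : Kil P K D) (w : G) : ∑' y, K w y + ∑' y, D w y = 1 := by
  rw [← ENNReal.tsum_add, ← h.row w]
  exact tsum_congr fun y => (h.split w y).symm

theorem Kil.col_split (h : Kil P K D) (y : G) : ∑' x, K x y + ∑' x, D x y = 1 := by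
  rw [← ENNReal.tsum_add, ← h.col y]
  exact tsum_congr fun x => (h.split x y).symm

theorem Kil.row_le (h : Kil P K D) (w : G) : ∑' y, K w y ≤ 1 := by
  rw [← h.row_split w]
  exact le_self_add

theorem Kil.col_le (h : Kil P K D) (y : G) : ∑' x, K x y ≤ 1 := by
  rw [← h.col_split y]
  exact le_self_add

theorem Qf_le_one (h : Kil P K D) (n : ℕ) (x : G) : Qf K n x ≤ 1 := by
  induction n generalizing x with
  | zero => exact le_rfl
  | succ n ih =>
    rw [Qf_succ_left]
    calc ∑' y, K x y * Qf K n y ≤ ∑' y, K x y * 1 :=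
          ENNReal.tsum_le_tsum fun y => mul_le_mul_right (ih y) _
      _ = ∑' y, K x y := by simp
      _ ≤ 1 := h.row_le x

theorem Qf_anti (h : Kil P K D) (n : ℕ) (x : G) : Qf K (n + 1) x ≤ Qf K n x := by
  induction n generalizing x with
  | zero =>
    rw [Qf_succ_left, Qf_zero]
    simpa [Qf_zero] using h.row_le x
  | succ n ih =>
    rw [Qf_succ_left K (n + 1), Qf_succ_left K n]
    exact ENNReal.tsum_le_tsum fun y => mul_le_mul_right (ih y) _

/-- One step of the row sums: mass is lost through the defect. -/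
theorem Qf_step (h : Kil P K D) (m : ℕ) (x : G) :
    Qf K m x = Qf K (m + 1) x + ∑' w, mpow K m x w * ∑' y, D w y := by
  rw [Qf_eq K m x, Qf_eq K (m + 1) x]
  calc ∑' w, mpow K m x w
      = ∑' w, (mpow K m x w * ∑' y, K w y + mpow K m x w * ∑' y, D w y) := by
        refine tsum_congr fun w => ?_
        rw [← mul_add, h.row_split w, mul_one]
    _ = ∑' w, mpow K m x w * ∑' y, K w y + ∑' w, mpow K m x w * ∑' y, D w y :=
        ENNReal.tsum_add
    _ = _ := by
        congr 1
        calc ∑' w, mpow K m x w * ∑' y, K w y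
            = ∑' w, ∑' y, mpow K m x w * K w y := by
              refine tsum_congr fun w => ?_
              rw [ENNReal.tsum_mul_left]
          _ = ∑' y, ∑' w, mpow K m x w * K w y := ENNReal.tsum_comm
          _ = ∑' y, mpow K (m + 1) x y := by
              refine tsum_congr fun y => ?_
              rw [mpow_succ_right]

theorem Qf_add_Rem (h : Kil P K D) (N : ℕ) (x : G) : Qf K N x + Rem K D N x = 1 := by
  induction N with
  | zero => simp [Rem, Qf_zero]
  | succ N ih =>
    unfold Rem at ih ⊢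
    rw [Finset.sum_range_succ, add_comm (∑ t ∈ Finset.range N, _), ← add_assoc, ← Qf_step h N x]
    exact ih

/-- Column sums of the powers. -/
noncomputable def Qh (K : G → G → ℝ≥0∞) (r : ℕ) (w : G) : ℝ≥0∞ := ∑' x, mpow K r x w

theorem Qh_le_one (h : Kil P K D) (r : ℕ) (w : G) : Qh K r w ≤ 1 := by
  unfold Qh
  induction r generalizing w with
  | zero => rw [tsum_mpow_zero_col]
  | succ r ih =>
    calc ∑' x, mpow K (r + 1) x w = ∑' x, ∑' y, mpow K r x y * K y w :=
          tsum_congr fun x => mpow_succ_right K r x w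
      _ = ∑' y, ∑' x, mpow K r x y * K y w := ENNReal.tsum_comm
      _ = ∑' y, (∑' x, mpow K r x y) * K y w :=
          tsum_congr fun y => ENNReal.tsum_mul_right
      _ ≤ ∑' y, 1 * K y w := ENNReal.tsum_le_tsum fun y => mul_le_mul_left (ih y) _
      _ = ∑' y, K y w := by simp
      _ ≤ 1 := h.col_le w

theorem Rem_total_le (h : Kil P K D) (N : ℕ) :
    ∑' x, Rem K D N x ≤ N * ∑' x, ∑' y, D x y := by
  unfold Rem
  rw [Summable.tsum_finsetSum (fun _ _ => ENNReal.summable)]
  calc ∑ t ∈ Finset.range N, ∑' x, ∑' w, mpow K t x w * ∑' y, D w y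
      ≤ ∑ t ∈ Finset.range N, ∑' w, ∑' y, D w y := by
        refine Finset.sum_le_sum fun t _ => ?_
        calc ∑' x, ∑' w, mpow K t x w * ∑' y, D w y
            = ∑' w, ∑' x, mpow K t x w * ∑' y, D w y := ENNReal.tsum_comm
          _ = ∑' w, (∑' x, mpow K t x w) * ∑' y, D w y :=
              tsum_congr fun w => ENNReal.tsum_mul_right
          _ ≤ ∑' w, 1 * ∑' y, D w y :=
              ENNReal.tsum_le_tsum fun w => mul_le_mul_left (Qh_le_one h t w) _
          _ = ∑' w, ∑' y, D w y := by simp
    _ = N * ∑' x, ∑' y, D x y := by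
        simp

/-- The column defect. -/
noncomputable def colDef (D : G → G → ℝ≥0∞) (y : G) : ℝ≥0∞ := ∑' x, D x y

/-- The row defect. -/
noncomputable def rowDef (D : G → G → ℝ≥0∞) (w : G) : ℝ≥0∞ := ∑' y, D w y

/-- One step of the column sums. -/
theorem Qh_step (h : Kil P K D) (r : ℕ) (w : G) :
    Qh K r w = Qh K (r + 1) w + ∑' y, colDef D y * mpow K r y w := by
  unfold Qh colDef
  calc ∑' y, mpow K r y w
      = ∑' y, ((∑' x, K x y) * mpow K r y w + (∑' x, D x y) * mpow K r y w) := by
        refine tsum_congr fun y => ?_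
        rw [← add_mul, h.col_split y, one_mul]
    _ = ∑' y, (∑' x, K x y) * mpow K r y w + ∑' y, (∑' x, D x y) * mpow K r y w :=
        ENNReal.tsum_add
    _ = _ := by
        congr 1
        calc ∑' y, (∑' x, K x y) * mpow K r y w
            = ∑' y, ∑' x, K x y * mpow K r y w :=
              tsum_congr fun y => ENNReal.tsum_mul_right.symm
          _ = ∑' x, ∑' y, K x y * mpow K r y w := ENNReal.tsum_comm
          _ = ∑' x, mpow K (r + 1) x w := by
              refine tsum_congr fun x => ?_
              rw [mpow_succ_left]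

/-- Defect seen through the column sums. -/
noncomputable def F0 (K D : G → G → ℝ≥0∞) (r : ℕ) : ℝ≥0∞ := ∑' w, rowDef D w * Qh K r w

/-- Defect seen through the row sums. -/
noncomputable def F1 (K D : G → G → ℝ≥0∞) (r : ℕ) : ℝ≥0∞ := ∑' y, colDef D y * Qf K r y

/-- The common decrement of `F0` and `F1`. -/
noncomputable def Fa (K D : G → G → ℝ≥0∞) (r : ℕ) : ℝ≥0∞ :=
  ∑' y, ∑' w, colDef D y * (mpow K r y w * rowDef D w)

theorem F0_step (h : Kil P K D) (r : ℕ) : F0 K D r = F0 K D (r + 1) + Fa K D r := by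
  unfold F0 Fa
  calc ∑' w, rowDef D w * Qh K r w
      = ∑' w, (rowDef D w * Qh K (r + 1) w + rowDef D w * ∑' y, colDef D y * mpow K r y w) := by
        refine tsum_congr fun w => ?_
        rw [Qh_step h r w, mul_add]
    _ = ∑' w, rowDef D w * Qh K (r + 1) w +
          ∑' w, rowDef D w * ∑' y, colDef D y * mpow K r y w := ENNReal.tsum_add
    _ = _ := by
        congr 1
        calc ∑' w, rowDef D w * ∑' y, colDef D y * mpow K r y w
            = ∑' w, ∑' y, colDef D y * (mpow K r y w * rowDef D w) := by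
              refine tsum_congr fun w => ?_
              rw [← ENNReal.tsum_mul_left]
              refine tsum_congr fun y => ?_
              ring
          _ = _ := ENNReal.tsum_comm

theorem F1_step (h : Kil P K D) (r : ℕ) : F1 K D r = F1 K D (r + 1) + Fa K D r := by
  unfold F1 Fa
  calc ∑' y, colDef D y * Qf K r y
      = ∑' y, (colDef D y * Qf K (r + 1) y +
          colDef D y * ∑' w, mpow K r y w * rowDef D w) := by
        refine tsum_congr fun y => ?_
        rw [Qf_step h r y, mul_add]
        rfl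
    _ = ∑' y, colDef D y * Qf K (r + 1) y +
          ∑' y, colDef D y * ∑' w, mpow K r y w * rowDef D w := ENNReal.tsum_add
    _ = _ := by
        congr 1
        refine tsum_congr fun y => ?_
        rw [ENNReal.tsum_mul_left]

theorem F0_zero (K D : G → G → ℝ≥0∞) : F0 K D 0 = ∑' x, ∑' y, D x y := by
  unfold F0 Qh rowDef
  refine tsum_congr fun w => ?_
  rw [tsum_mpow_zero_col, mul_one]

theorem F1_zero (K D : G → G → ℝ≥0∞) : F1 K D 0 = ∑' x, ∑' y, D x y := by
  unfold F1 colDef
  rw [ENNReal.tsum_comm]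
  refine tsum_congr fun w => ?_
  simp [Qf_zero]

theorem F0_le (h : Kil P K D) (r : ℕ) : F0 K D r ≤ ∑' x, ∑' y, D x y := by
  unfold F0 rowDef
  refine ENNReal.tsum_le_tsum fun w => ?_
  calc (∑' y, D w y) * Qh K r w ≤ (∑' y, D w y) * 1 := mul_le_mul_right (Qh_le_one h r w) _
    _ = _ := mul_one _

theorem F0_eq_F1 (h : Kil P K D) (hΛ : ∑' x, ∑' y, D x y ≠ ∞) (r : ℕ) : F0 K D r = F1 K D r := by
  induction r with
  | zero => rw [F0_zero, F1_zero]
  | succ r ih =>
    have h1 := F0_step h r
    have h2 := F1_step h r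
    have hfin : Fa K D r ≠ ∞ := by
      apply ne_top_of_le_ne_top hΛ
      calc Fa K D r ≤ F0 K D (r + 1) + Fa K D r := le_add_self
        _ = F0 K D r := h1.symm
        _ ≤ _ := F0_le h r
    rw [ih, h2] at h1
    exact ((ENNReal.add_left_inj hfin).mp h1).symm

/-- The delayed inequality for the defect term. -/
theorem defect_le (h : Kil P K D) (C : ℝ≥0∞)
    (hconc : ∀ (n : ℕ) (x y : G), ((n : ℝ≥0∞) + 1) * mpow P n x y ≤ C)
    (p q r : ℕ) (x : G) :
    ((q : ℝ≥0∞) + 1) * ∑' w, mpow K (p + (q + r)) x w * rowDef D w ≤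
      Qf K p x * C * F0 K D r := by
  have hkey : ∀ w, ((q : ℝ≥0∞) + 1) * mpow K (p + (q + r)) x w ≤ Qf K p x * C * Qh K r w := by
    intro w
    rw [mpow_add, ← ENNReal.tsum_mul_left, Qf_eq, ← ENNReal.tsum_mul_right, ← ENNReal.tsum_mul_right]
    refine ENNReal.tsum_le_tsum fun u => ?_
    rw [mpow_add]
    calc ((q : ℝ≥0∞) + 1) * (mpow K p x u * ∑' u', mpow K q u u' * mpow K r u' w)
        = mpow K p x u * ∑' u', (((q : ℝ≥0∞) + 1) * mpow K q u u') * mpow K r u' w := by
          rw [← ENNReal.tsum_mul_left, ← ENNReal.tsum_mul_left, ← ENNReal.tsum_mul_left]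
          refine tsum_congr fun u' => ?_
          ring
      _ ≤ mpow K p x u * ∑' u', C * mpow K r u' w := by
          apply mul_le_mul_right
          refine ENNReal.tsum_le_tsum fun u' => ?_
          apply mul_le_mul_left
          exact le_trans (mul_le_mul_right (mpow_mono h.le q u u') _) (hconc q u u')
      _ = mpow K p x u * C * Qh K r w := by
          unfold Qh
          rw [ENNReal.tsum_mul_left, mul_assoc]
  unfold F0
  calc ((q : ℝ≥0∞) + 1) * ∑' w, mpow K (p + (q + r)) x w * rowDef D w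
      = ∑' w, (((q : ℝ≥0∞) + 1) * mpow K (p + (q + r)) x w) * rowDef D w := by
        rw [← ENNReal.tsum_mul_left]
        refine tsum_congr fun w => ?_
        ring
    _ ≤ ∑' w, (Qf K p x * C * Qh K r w) * rowDef D w :=
        ENNReal.tsum_le_tsum fun w => mul_le_mul_left (hkey w) _
    _ = Qf K p x * C * ∑' w, rowDef D w * Qh K r w := by
        rw [← ENNReal.tsum_mul_left]
        refine tsum_congr fun w => ?_
        ring

/-- The defect through the row sums vanishes in the limit. -/
theorem F1_tendsto (h : Kil P K D) (hΛ : ∑' x, ∑' y, D x y ≠ ∞)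
    (hreach : ∀ x y, D x y ≠ 0 → Tendsto (fun n => Qf K n y) atTop (𝓝 0)) :
    Tendsto (F1 K D) atTop (𝓝 0) := by
  let _ : MeasurableSpace G := ⊤
  have : MeasurableSingletonClass G := ⟨fun _ => trivial⟩
  have hF : ∀ r, F1 K D r = ∫⁻ y, colDef D y * Qf K r y ∂MeasureTheory.Measure.count := by
    intro r
    rw [MeasureTheory.lintegral_count]
    rfl
  have hlim0 : (0 : ℝ≥0∞) = ∫⁻ _y, 0 ∂(MeasureTheory.Measure.count : MeasureTheory.Measure G) := by
    simp
  have hfun : F1 K D = fun r => ∫⁻ y, colDef D y * Qf K r y ∂MeasureTheory.Measure.count :=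
    funext hF
  rw [hfun, hlim0]
  refine MeasureTheory.tendsto_lintegral_of_dominated_convergence (colDef D)
    (fun r => measurable_from_top) ?_ ?_ ?_
  · intro r
    refine Filter.Eventually.of_forall fun y => ?_
    calc colDef D y * Qf K r y ≤ colDef D y * 1 := mul_le_mul_right (Qf_le_one h r y) _
      _ = colDef D y := mul_one _
  · rw [MeasureTheory.lintegral_count]
    unfold colDef
    rw [ENNReal.tsum_comm]
    exact hΛ
  · refine Filter.Eventually.of_forall fun y => ?_
    by_cases hy : colDef D y = 0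
    · simp [hy]
    · have hne : ∃ x, D x y ≠ 0 := by
        by_contra hcon
        push Not at hcon
        apply hy
        unfold colDef
        simp [hcon]
      obtain ⟨x, hx⟩ := hne
      have hcol : colDef D y ≠ ∞ := by
        intro htop
        apply hΛ
        rw [ENNReal.tsum_comm]
        exact ENNReal.tsum_eq_top_of_eq_top ⟨y, htop⟩
      have := ENNReal.Tendsto.const_mul (a := colDef D y) (hreach x y hx) (Or.inr hcol)
      simpa using this

/-- The abstract theorem: the row sums of the killed chain cannot be summable. -/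
theorem sausage_main (h : Kil P K D) (C : ℝ≥0∞) (hC : C ≠ ∞)
    (hconc : ∀ (n : ℕ) (x y : G), ((n : ℝ≥0∞) + 1) * mpow P n x y ≤ C)
    (hΛ : ∑' x, ∑' y, D x y ≠ ∞) (x₀ : G)
    (hsum : ∑' n, Qf K n x₀ ≠ ∞)
    (hreach : ∀ x y, D x y ≠ 0 → Tendsto (fun n => Qf K n y) atTop (𝓝 0))
    (A : ℝ) (hlow : ∀ N : ℕ, (1 / 2) * Real.exp (-A * (Real.sqrt N + 1)) ≤ (Qf K N x₀).toReal) :
    False := by
  have hQfin : ∀ n, Qf K n x₀ ≠ ∞ := fun n =>
    ne_top_of_le_ne_top ENNReal.one_ne_top (Qf_le_one h n x₀)
  have hFfin : ∀ r, F0 K D r ≠ ∞ := fun r => ne_top_of_le_ne_top hΛ (F0_le h r)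
  set Q : ℕ → ℝ := fun n => (Qf K n x₀).toReal with hQ
  set η : ℕ → ℝ := fun s => 2 * C.toReal * (F0 K D (s / 2)).toReal with hη
  have hQpos : ∀ n, 0 < Q n := fun n =>
    lt_of_lt_of_le (by positivity) (hlow n)
  have hQanti : Antitone Q := by
    refine antitone_nat_of_succ_le fun n => ?_
    exact ENNReal.toReal_mono (hQfin n) (Qf_anti h n x₀)
  have hF0anti : Antitone (F0 K D) := by
    refine antitone_nat_of_succ_le fun n => ?_
    rw [F0_step h n]
    exact le_self_add
  have hηanti : Antitone η := by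
    intro s t hst
    have h1 : (F0 K D (t / 2)).toReal ≤ (F0 K D (s / 2)).toReal :=
      ENNReal.toReal_mono (hFfin _) (hF0anti (Nat.div_le_div_right hst))
    have h2 : 0 ≤ 2 * C.toReal := by positivity
    exact mul_le_mul_of_nonneg_left h1 h2
  have hηnn : ∀ s, 0 ≤ η s := fun s => by
    have : 0 ≤ C.toReal := ENNReal.toReal_nonneg
    have h2 : 0 ≤ (F0 K D (s / 2)).toReal := ENNReal.toReal_nonneg
    positivity
  have hη0 : Tendsto η atTop (𝓝 0) := by
    have h1 : Tendsto (F0 K D) atTop (𝓝 0) := by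
      have : F0 K D = F1 K D := funext (F0_eq_F1 h hΛ)
      rw [this]
      exact F1_tendsto h hΛ hreach
    have h2 : Tendsto (fun s : ℕ => s / 2) atTop atTop :=
      Nat.tendsto_div_const_atTop (by norm_num)
    have h3 : Tendsto (fun s => (F0 K D (s / 2)).toReal) atTop (𝓝 0) := by
      have := (ENNReal.tendsto_toReal ENNReal.zero_ne_top).comp (h1.comp h2)
      simpa [Function.comp_def] using this
    have h4 := h3.const_mul (2 * C.toReal)
    simpa using h4
  have hdiff : ∀ s m : ℕ, 2 ≤ s → s ≤ m → Q m - Q (m + 1) ≤ η s / s * Q (m - s) := by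
    intro s m hs hsm
    set r := s / 2 with hr
    set q := s - r with hq
    set p := m - s with hp
    have hm : m = p + (q + r) := by omega
    set T : ℝ≥0∞ := ∑' w, mpow K m x₀ w * rowDef D w with hT
    have hstep : Qf K m x₀ = Qf K (m + 1) x₀ + T := Qf_step h m x₀
    have hTfin : T ≠ ∞ := by
      apply ne_top_of_le_ne_top (hQfin m)
      rw [hstep]
      exact le_add_self
    have hQm : Q m = Q (m + 1) + T.toReal := by
      simp only [hQ]
      rw [hstep, ENNReal.toReal_add (hQfin _) hTfin]
    have hdef := defect_le h C hconc p q r x₀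
    rw [← hm] at hdef
    have hreal : ((q : ℝ) + 1) * T.toReal ≤ Q p * C.toReal * (F0 K D r).toReal := by
      have h1 := ENNReal.toReal_mono
        (ENNReal.mul_ne_top (ENNReal.mul_ne_top (hQfin p) hC) (hFfin r)) hdef
      rw [ENNReal.toReal_mul, ENNReal.toReal_mul, ENNReal.toReal_mul] at h1
      have h2 : ((q : ℝ≥0∞) + 1).toReal = (q : ℝ) + 1 := by
        rw [ENNReal.toReal_add (by simp) (by simp)]
        simp
      rw [h2] at h1
      exact h1
    have hsr : (2 : ℝ) ≤ s := by exact_mod_cast hs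
    have hq2 : (s : ℝ) ≤ 2 * ((q : ℝ) + 1) := by
      have : s ≤ 2 * (q + 1) := by omega
      exact_mod_cast this
    have hT0 : 0 ≤ T.toReal := ENNReal.toReal_nonneg
    have hgoal : Q m - Q (m + 1) = T.toReal := by rw [hQm]; ring
    rw [hgoal]
    have hspos : (0 : ℝ) < s := by linarith
    have hform : η s / s * Q p = 2 * (Q p * C.toReal * (F0 K D r).toReal) / s := by
      simp only [hη]
      ring
    rw [hform, le_div_iff₀ hspos]
    have h5 : T.toReal * s ≤ T.toReal * (2 * ((q : ℝ) + 1)) :=
      mul_le_mul_of_nonneg_left hq2 hT0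
    nlinarith
  have hns := bootstrap Q η hQpos hQanti hηanti hηnn hη0 hdiff A hlow
  exact hns (ENNReal.summable_toReal hsum)

end Vale.Agent.Lib.P147T
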