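import Vale.Agent.Lib.P147T.Star
import Vale.Agent.Lib.P147T.Conc
import Vale.Agent.Lib.P147T.Sausage

/-!
# P147: explicit atoms of grade one, reachability and the lower bound for the killed chain.

`lvl i` is the coordinate functional.  `e = (i, true)`, `e' = (i, false)`.
-/

open scoped ENNReal BigOperators
open Filter Topology

namespace Vale.Agent.Lib.P147T

variable {d : ℕ}

/-- The `i`-th coordinate as an additive map. -/
def lvl (i : Fin d) : Site d →+ ℤ := Pi.evalAddMonoidHom (fun _ => ℤ) i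

theorem lvl_apply (i : Fin d) (x : Site d) : lvl i x = x i := rfl

theorem lvl_vec_ne {i : Fin d} {s : Step d} (hs : s.1 ≠ i) : lvl i (stepVec s) = 0 := by
  simp [lvl, stepVec, hs.symm]

theorem lvl_vec_up (i : Fin d) : lvl i (stepVec (i, true)) = 1 := by
  simp [lvl, stepVec]

theorem lvl_vec_down (i : Fin d) : lvl i (stepVec (i, false)) = -1 := by
  simp [lvl, stepVec]

theorem lvl_unit (i : Fin d) (s : Step d) : |lvl i (stepVec s)| ≤ 1 := by
  obtain ⟨j, b⟩ := s
  by_cases hj : j = i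
  · subst hj
    cases b
    · rw [lvl_vec_down]; simp
    · rw [lvl_vec_up]; simp
  · rw [lvl_vec_ne (s := (j, b)) hj]; simp

theorem neg_lvl_unit (i : Fin d) (s : Step d) : |(-lvl i) (stepVec s)| ≤ 1 := by
  have := lvl_unit i s
  simpa using this

theorem up_two {i : Fin d} {s : Step d} (hs : s.1 ≠ i) :
    Up (lvl i) 1 [s, (i, true)] := by
  refine ⟨?_, ?_⟩
  · simp [map_add, lvl_vec_ne hs, lvl_vec_up]
  · intro x hx
    simp only [mem_dep_cons] at hx
    rcases hx with rfl | ⟨y, hy, rfl⟩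
    · simp
    · rcases hy with rfl | ⟨z, hz, rfl⟩
      · simp [lvl_vec_ne hs]
      · simp at hz

theorem down_two {i : Fin d} {s : Step d} (hs : s.1 ≠ i) :
    Up (-lvl i) 1 [s, (i, false)] := by
  refine ⟨?_, ?_⟩
  · simp [map_add, lvl_vec_ne hs, lvl_vec_down]
  · intro x hx
    simp only [mem_dep_cons] at hx
    rcases hx with rfl | ⟨y, hy, rfl⟩
    · simp
    · rcases hy with rfl | ⟨z, hz, rfl⟩
      · simp [lvl_vec_ne hs]
      · simp at hz

theorem down_one (i : Fin d) : Up (-lvl i) 1 [(i, false)] := by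
  refine ⟨?_, ?_⟩
  · simp [lvl_vec_down]
  · intro x hx
    simp only [mem_dep_cons] at hx
    rcases hx with rfl | ⟨y, hy, rfl⟩
    · simp
    · simp at hy

theorem Mon.irr_of_g_one {L : Site d →+ ℤ} {m : Mon L} (h : m.g = 1) : Mon.Irr m := by
  refine ⟨by omega, fun x y hxy => ?_⟩
  have : m.g = x.g + y.g := by rw [hxy]; rfl
  omega

section
variable (W : Wt d) (i : Fin d)

/-- Grade one atom with up path `[s, +e_i]` and down path `[s', -e_i]`, where `s, s'` are steps
in directions other than `i`.  -/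
def coinAtom (s s' : Step d) (hs : s.1 ≠ i) (hs' : s'.1 ≠ i) : Atom (lvl i) :=
  ⟨⟨1, [s, (i, true)], [s', (i, false)], up_two hs, down_two hs'⟩, Mon.irr_of_g_one rfl⟩

/-- Grade one atom with up path `[s, +e_i]` and down path `[-e_i]`. -/
def moveAtom (s : Step d) (hs : s.1 ≠ i) : Atom (lvl i) :=
  ⟨⟨1, [s, (i, true)], [(i, false)], up_two hs, down_one i⟩, Mon.irr_of_g_one rfl⟩

theorem stepVec_false_eq (i : Fin d) : stepVec (i, false) = - stepVec ((i, true) : Step d) := by
  funext j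
  by_cases hj : j = i <;> simp [stepVec, hj]

theorem coinAtom_Delta (s s' : Step d) (hs : s.1 ≠ i) (hs' : s'.1 ≠ i) :
    Delta (coinAtom i s s' hs hs').1 = stepVec s + stepVec s' := by
  simp only [Delta, coinAtom, endp_cons, endp_nil, add_zero, stepVec_false_eq]
  abel

theorem coinAtom_weight (s s' : Step d) (hs : s.1 ≠ i) (hs' : s'.1 ≠ i) :
    wM W (coinAtom i s s' hs hs').1 ≠ 0 := by
  exact mul_ne_zero (W.w_pos _) (W.w_pos _)

theorem moveAtom_Delta (s : Step d) (hs : s.1 ≠ i) :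
    Delta (moveAtom i s hs).1 = stepVec s := by
  simp only [Delta, moveAtom, endp_cons, endp_nil, add_zero, stepVec_false_eq]
  abel

theorem moveAtom_weight (s : Step d) (hs : s.1 ≠ i) :
    wM W (moveAtom i s hs).1 ≠ 0 := by
  exact mul_ne_zero (W.w_pos _) (W.w_pos _)

theorem moveAtom_noClash (s : Step d) (hs : s.1 ≠ i) (x : Site d) (hx : x ≠ 0)
    (hx' : x + stepVec s ≠ 0) : ¬ Clash (lvl i) (i, true) x (moveAtom i s hs).1 := by
  rintro ⟨-, u, hu, y, hy, h⟩
  simp only [moveAtom, endp_cons, endp_nil, add_zero] at h hu hy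
  have hy0 : y = 0 := by
    rcases mem_dep_cons.1 hy with rfl | ⟨z, hz, -⟩
    · rfl
    · simp at hz
  subst hy0
  rcases mem_dep_cons.1 hu with rfl | ⟨z, hz, rfl⟩
  · apply hx'
    have : x + stepVec s = (x - stepVec ((i, true) : Step d) + 0) -
        (0 - (stepVec s + stepVec ((i, true) : Step d))) := by abel
    rw [this, ← h]; abel
  · rcases mem_dep_cons.1 hz with rfl | ⟨z', hz', -⟩
    · apply hx
      have : x = (x - stepVec ((i, true) : Step d) + 0) -
          (stepVec s + 0 - (stepVec s + stepVec ((i, true) : Step d))) := by abel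
      rw [this, ← h]; abel
    · simp at hz'

/-- One step of the killed chain towards a neighbour. -/
theorem Qf_move (s : Step d) (hs : s.1 ≠ i) (x : Site d) (hx : x ≠ 0) (hx' : x + stepVec s ≠ 0)
    (n : ℕ) :
    wM W (moveAtom i s hs).1 * Qf (kK W (lvl i) (i, true)) n (x + stepVec s) ≤
      Qf (kK W (lvl i) (i, true)) (n + 1) x := by
  classical
  rw [Qf_succ]
  refine le_trans (le_of_eq ?_) (ENNReal.le_tsum (moveAtom i s hs))
  rw [if_neg (moveAtom_noClash i s hs x hx hx'), moveAtom_Delta]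

/-- At the offset `0` every atom clashes. -/
theorem Up.exists_last (g : ℕ) (a : List (Step d)) (hg : 0 < g) (h : Up (lvl i) g a) :
    ∃ u ∈ dep a, endp a = u + stepVec ((i, true) : Step d) := by
  rcases List.eq_nil_or_concat a with rfl | ⟨l, s, rfl⟩
  · have := h.1
    simp only [endp_nil, map_zero] at this
    omega
  · rw [List.concat_eq_append] at h ⊢
    have hmem : endp l ∈ dep (l ++ [s]) := endp_mem_dep_append l (by simp)
    have h1 := h.2 _ hmem
    have h2 := h.1
    rw [endp_append, map_add] at h2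
    simp only [endp_cons, endp_nil, add_zero] at h2
    have hs : s = (i, true) := by
      obtain ⟨j, b⟩ := s
      by_cases hj : j = i
      · subst hj
        cases b
        · rw [lvl_vec_down] at h2
          omega
        · rfl
      · rw [lvl_vec_ne (s := (j, b)) hj] at h2
        omega
    subst hs
    exact ⟨endp l, hmem, by simp [endp_append]⟩

theorem atom_clash_zero (C : Atom (lvl i)) : Clash (lvl i) (i, true) 0 C.1 := by
  refine ⟨map_zero _, ?_⟩
  obtain ⟨u, hu, he⟩ := Up.exists_last i C.1.g C.1.a C.2.1 C.1.ha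
  have hb : C.1.b ≠ [] := by
    intro hb
    have h := C.1.hb.1
    rw [hb] at h
    have := C.2.1
    simp only [endp_nil, map_zero] at h
    omega
  obtain ⟨s, r, hr⟩ := List.exists_cons_of_ne_nil hb
  refine ⟨u, hu, 0, ?_, ?_⟩
  · rw [hr]
    exact mem_dep_cons.2 (Or.inl rfl)
  · rw [he]; abel

theorem Qf_zero_site (n : ℕ) : Qf (kK W (lvl i) (i, true)) (n + 1) 0 = 0 := by
  classical
  rw [Qf_succ, ENNReal.tsum_eq_zero]
  intro C
  rw [if_pos (atom_clash_zero i C), mul_zero]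

/-- Reachability in the killed chain. -/
def Rch (y z : Site d) : Prop :=
  ∃ (k : ℕ) (a : ℝ≥0∞), a ≠ 0 ∧ ∀ n,
    a * Qf (kK W (lvl i) (i, true)) n y ≤ Qf (kK W (lvl i) (i, true)) (n + k) z

theorem Rch.refl (y : Site d) : Rch W i y y := ⟨0, 1, one_ne_zero, fun n => by simp⟩

variable {W i} in
theorem Rch.trans {y z u : Site d} (h1 : Rch W i y z) (h2 : Rch W i z u) : Rch W i y u := by
  obtain ⟨k, a, ha, h⟩ := h1
  obtain ⟨k', a', ha', h'⟩ := h2
  refine ⟨k + k', a' * a, mul_ne_zero ha' ha, fun n => ?_⟩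
  calc a' * a * Qf (kK W (lvl i) (i, true)) n y
      = a' * (a * Qf (kK W (lvl i) (i, true)) n y) := by ring
    _ ≤ a' * Qf (kK W (lvl i) (i, true)) (n + k) z := by gcongr; exact h n
    _ ≤ Qf (kK W (lvl i) (i, true)) (n + k + k') u := h' (n + k)
    _ = Qf (kK W (lvl i) (i, true)) (n + (k + k')) u := by rw [add_assoc]

theorem Rch.edge (s : Step d) (hs : s.1 ≠ i) (x : Site d) (hx : x ≠ 0) (hx' : x + stepVec s ≠ 0) :
    Rch W i (x + stepVec s) x :=
  ⟨1, _, moveAtom_weight W i s hs, fun n => Qf_move W i s hs x hx hx' n⟩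

theorem stepVec_flip (s : Step d) : stepVec (s.1, !s.2) = - stepVec s := by
  obtain ⟨j, b⟩ := s
  funext k
  by_cases hk : k = j
  · subst hk
    cases b <;> simp [stepVec]
  · simp [stepVec, hk]

theorem Rch.edge' (s : Step d) (hs : s.1 ≠ i) (x : Site d) (hx : x ≠ 0) (hx' : x + stepVec s ≠ 0) :
    Rch W i x (x + stepVec s) := by
  have h := Rch.edge W i (s.1, !s.2) hs (x + stepVec s) hx' (by
    rw [stepVec_flip, add_neg_cancel_right]; exact hx)
  rwa [stepVec_flip, add_neg_cancel_right] at h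

theorem stepVec_self (j : Fin d) (b : Bool) : stepVec (j, b) j = if b then 1 else -1 := by
  simp [stepVec]

theorem stepVec_ne {j k : Fin d} (b : Bool) (h : k ≠ j) : stepVec (j, b) k = 0 := by
  simp [stepVec, h]

theorem Rch_unit_ne {j j' : Fin d} (hj : j ≠ i) (hj' : j' ≠ i) (hne : j ≠ j') (b : Bool) :
    Rch W i (stepVec (j, b)) (stepVec (j', true)) := by
  have hu : stepVec (j, b) ≠ 0 := by
    intro h
    have := congrFun h j
    rw [stepVec_self] at this
    cases b <;> simp at this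
  have hv : stepVec ((j', true) : Step d) ≠ 0 := by
    intro h
    have := congrFun h j'
    rw [stepVec_self] at this
    simp at this
  have huv : stepVec (j, b) + stepVec (j', true) ≠ 0 := by
    intro h
    have := congrFun h j'
    rw [Pi.add_apply, stepVec_self, stepVec_ne b hne.symm] at this
    simp at this
  have h1 := Rch.edge' W i (j', true) hj' (stepVec (j, b)) hu huv
  have h2 := Rch.edge W i (j, b) hj (stepVec (j', true)) hv (by rwa [add_comm])
  rw [add_comm] at h2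
  exact h1.trans h2

theorem exists_third (hd : 3 ≤ d) (i j : Fin d) : ∃ k : Fin d, k ≠ i ∧ k ≠ j := by
  by_contra hcon
  push Not at hcon
  have hsub : (Finset.univ : Finset (Fin d)) ⊆ {i, j} := by
    intro k _
    by_cases hk : k = i
    · simp [hk]
    · simp [hcon k hk]
  have h1 := Finset.card_le_card hsub
  have h2 : ({i, j} : Finset (Fin d)).card ≤ 2 := Finset.card_le_two
  rw [Finset.card_univ, Fintype.card_fin] at h1
  omega

theorem Rch_unit (hd : 3 ≤ d) {j₁ j : Fin d} (hj₁ : j₁ ≠ i) (hj : j ≠ i) (b : Bool) :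
    Rch W i (stepVec (j, b)) (stepVec (j₁, true)) := by
  by_cases hne : j = j₁
  · subst hne
    cases b with
    | true => exact Rch.refl W i _
    | false =>
      obtain ⟨k, hk1, hk2⟩ := exists_third hd i j
      exact (Rch_unit_ne W i hj hk1 (Ne.symm hk2) false).trans
        (Rch_unit_ne W i hk1 hj hk2 true)
  · exact Rch_unit_ne W i hj hj₁ hne b

/-- One step towards the origin lowers the `ℓ¹` norm. -/
theorem natAbs_step (y : Site d) (j : Fin d) (hj : y j ≠ 0) :
    ∑ k, ((y + stepVec (j, decide (y j < 0))) k).natAbs + 1 = ∑ k, (y k).natAbs := by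
  have h : ∀ k, ((y + stepVec (j, decide (y j < 0))) k).natAbs + (if k = j then 1 else 0) =
      (y k).natAbs := by
    intro k
    by_cases hk : k = j
    · subst hk
      rw [Pi.add_apply, stepVec_self, if_pos rfl]
      by_cases hlt : y k < 0
      · simp only [hlt, decide_true, if_true]
        omega
      · simp only [hlt, decide_false, Bool.false_eq_true, if_false]
        omega
    · rw [Pi.add_apply, stepVec_ne _ hk, if_neg hk]
      simp
  calc ∑ k, ((y + stepVec (j, decide (y j < 0))) k).natAbs + 1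
      = ∑ k, ((y + stepVec (j, decide (y j < 0))) k).natAbs + ∑ k, (if k = j then 1 else 0) := by
        simp
    _ = ∑ k, (((y + stepVec (j, decide (y j < 0))) k).natAbs + (if k = j then 1 else 0)) := by
        rw [Finset.sum_add_distrib]
    _ = _ := Finset.sum_congr rfl fun k _ => h k

theorem reach_aux (hd : 3 ≤ d) (j₁ : Fin d) (hj₁ : j₁ ≠ i) (n : ℕ) :
    ∀ y : Site d, y i = 0 → y ≠ 0 → ∑ k, (y k).natAbs = n → Rch W i y (stepVec (j₁, true)) := by
  induction n with
  | zero =>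
    intro y _ hy0 hs
    exfalso
    apply hy0
    funext k
    have := (Finset.sum_eq_zero_iff.1 hs) k (Finset.mem_univ k)
    simpa using this
  | succ n ih =>
    intro y hy hy0 hs
    obtain ⟨j, hj⟩ := Function.ne_iff.1 hy0
    have hji : j ≠ i := fun h => hj (by rw [h, hy]; rfl)
    have hstep := natAbs_step y j hj
    rw [hs] at hstep
    set s : Step d := (j, decide (y j < 0)) with hsdef
    by_cases hy' : y + stepVec s = 0
    · have hyeq : y = stepVec (j, !decide (y j < 0)) := by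
        have h1 := stepVec_flip s
        have h2 : stepVec (s.1, !s.2) = y := by
          rw [h1]
          exact (eq_neg_of_add_eq_zero_left hy').symm
        exact h2.symm
      rw [hyeq]
      exact Rch_unit W i hd hj₁ hji _
    · have h1 := Rch.edge' W i s hji y hy0 hy'
      have hi0 : (y + stepVec s) i = 0 := by
        rw [Pi.add_apply, hy, stepVec_ne _ hji.symm]
        rfl
      have h2 := ih (y + stepVec s) hi0 hy' (by omega)
      exact h1.trans h2

/-- Connectivity of the slice minus the origin. -/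
theorem reach (hd : 3 ≤ d) (j₁ : Fin d) (hj₁ : j₁ ≠ i) (y : Site d) (hy : y i = 0) (hy0 : y ≠ 0) :
    ∃ (k : ℕ) (a : ℝ≥0∞), a ≠ 0 ∧ ∀ n,
      a * Qf (kK W (lvl i) (i, true)) n y ≤ Qf (kK W (lvl i) (i, true)) (n + k) (stepVec (j₁, true)) :=
  reach_aux W i hd j₁ hj₁ _ y hy hy0 rfl

/-- Quantitative reachability in the positive quadrant of the plane `(j₁, j₂)`. -/
theorem reach_box (j₁ j₂ : Fin d) (hj₁ : j₁ ≠ i) (hj₂ : j₂ ≠ i) (hj : j₁ ≠ j₂) :
    ∃ q : ℝ≥0∞, q ≠ 0 ∧ q ≤ 1 ∧ ∀ p r n : ℕ,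
      q ^ (p + r) *
        Qf (kK W (lvl i) (i, true)) n ((p + 1 : ℤ) • stepVec (j₁, true) + (r : ℤ) • stepVec (j₂, true)) ≤
      Qf (kK W (lvl i) (i, true)) (n + (p + r)) (stepVec (j₁, true)) := by
  set w₁ := wM W (moveAtom i (j₁, true) hj₁).1 with hw₁
  set w₂ := wM W (moveAtom i (j₂, true) hj₂).1 with hw₂
  have h1 : w₁ ≠ 0 := moveAtom_weight W i _ hj₁
  have h2 : w₂ ≠ 0 := moveAtom_weight W i _ hj₂
  refine ⟨min (min w₁ w₂) 1, ?_, min_le_right _ _, ?_⟩
  · rw [← pos_iff_ne_zero] at h1 h2 ⊢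
    exact lt_min (lt_min h1 h2) one_pos
  set q := min (min w₁ w₂) 1 with hq
  have hq1 : q ≤ w₁ := (min_le_left _ _).trans (min_le_left _ _)
  have hq2 : q ≤ w₂ := (min_le_left _ _).trans (min_le_right _ _)
  -- the points
  let Y : ℕ → ℕ → Site d := fun p r =>
    ((p + 1 : ℤ) • stepVec (j₁, true) + (r : ℤ) • stepVec (j₂, true))
  have hY : ∀ p r, Y p r j₁ = p + 1 := by
    intro p r
    simp only [Y, Pi.add_apply, Pi.smul_apply, smul_eq_mul, stepVec_self, stepVec_ne _ hj]
    simp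
  have hY0 : ∀ p r, Y p r ≠ 0 := by
    intro p r h
    have := congrFun h j₁
    rw [hY] at this
    simp only [Pi.zero_apply] at this
    omega
  have hYp : ∀ p r, Y (p + 1) r = Y p r + stepVec (j₁, true) := by
    intro p r
    simp only [Y, Nat.cast_succ, add_smul, one_smul]
    abel
  have hYr : ∀ p r, Y p (r + 1) = Y p r + stepVec (j₂, true) := by
    intro p r
    simp only [Y, Nat.cast_succ, add_smul, one_smul]
    abel
  have hbase : Y 0 0 = stepVec (j₁, true) := by
    simp [Y]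
  -- first along j₁
  have hA : ∀ p n, q ^ p * Qf (kK W (lvl i) (i, true)) n (Y p 0) ≤
      Qf (kK W (lvl i) (i, true)) (n + p) (stepVec (j₁, true)) := by
    intro p
    induction p with
    | zero =>
      intro n
      simp [hbase]
    | succ p ih =>
      intro n
      have hm := Qf_move W i (j₁, true) hj₁ (Y p 0) (hY0 p 0) (by rw [← hYp]; exact hY0 _ _) n
      rw [← hYp] at hm
      calc q ^ (p + 1) * Qf (kK W (lvl i) (i, true)) n (Y (p + 1) 0)
          = q ^ p * (q * Qf (kK W (lvl i) (i, true)) n (Y (p + 1) 0)) := by ring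
        _ ≤ q ^ p * (w₁ * Qf (kK W (lvl i) (i, true)) n (Y (p + 1) 0)) := by gcongr
        _ ≤ q ^ p * Qf (kK W (lvl i) (i, true)) (n + 1) (Y p 0) := by gcongr
        _ ≤ Qf (kK W (lvl i) (i, true)) (n + 1 + p) (stepVec (j₁, true)) := ih (n + 1)
        _ = _ := by rw [show n + 1 + p = n + (p + 1) by ring]
  intro p r
  induction r with
  | zero =>
    intro n
    exact hA p n
  | succ r ih =>
    intro n
    have hm := Qf_move W i (j₂, true) hj₂ (Y p r) (hY0 p r) (by rw [← hYr]; exact hY0 _ _) n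
    rw [← hYr] at hm
    calc q ^ (p + (r + 1)) * Qf (kK W (lvl i) (i, true)) n (Y p (r + 1))
        = q ^ (p + r) * (q * Qf (kK W (lvl i) (i, true)) n (Y p (r + 1))) := by ring
      _ ≤ q ^ (p + r) * (w₂ * Qf (kK W (lvl i) (i, true)) n (Y p (r + 1))) := by gcongr
      _ ≤ q ^ (p + r) * Qf (kK W (lvl i) (i, true)) (n + 1) (Y p r) := by gcongr
      _ ≤ Qf (kK W (lvl i) (i, true)) (n + 1 + (p + r)) (stepVec (j₁, true)) := ih (n + 1)
      _ = _ := by rw [show n + 1 + (p + r) = n + (p + (r + 1)) by ring]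

/-- Concentration for the chain: from `conc_abstract`. -/
theorem kP_conc (hd : 3 ≤ d) {c : ℝ≥0∞} (hc : CrossLower W (lvl i) c) :
    ∃ C : ℝ≥0∞, C ≠ ∞ ∧ ∀ (n : ℕ) (x y : Site d),
      ((n : ℝ≥0∞) + 1) * mpow (kP W (lvl i)) n x y ≤ C := by
  classical
  -- two further directions
  obtain ⟨j₁, j₂, hj₁, hj₂, hj⟩ : ∃ j₁ j₂ : Fin d, j₁ ≠ i ∧ j₂ ≠ i ∧ j₁ ≠ j₂ := by
    have hcard : 1 < (Finset.univ.erase i).card := by
      rw [Finset.card_erase_of_mem (Finset.mem_univ i)]
      simp only [Finset.card_univ, Fintype.card_fin]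
      omega
    obtain ⟨a, ha, b, hb, hab⟩ := Finset.one_lt_card.1 hcard
    exact ⟨a, b, Finset.ne_of_mem_erase ha, Finset.ne_of_mem_erase hb, hab⟩
  -- the four coin atoms
  let coin : Bool × Bool → Atom (lvl i) := fun σ =>
    coinAtom i (j₁, σ.1) (j₂, σ.2) hj₁ hj₂
  have hcoin : Function.Injective coin := by
    rintro ⟨a, b⟩ ⟨a', b'⟩ h
    have h1 : coin (a, b) = coin (a', b') := h
    have h2 := congrArg (fun C : Atom (lvl i) => C.1.a) h1
    have h3 := congrArg (fun C : Atom (lvl i) => C.1.b) h1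
    simp only [coin, coinAtom, List.cons.injEq, Prod.mk.injEq, true_and, and_true] at h2 h3
    rw [h2, h3]
  obtain ⟨σ₀, hσ₀⟩ := Finite.exists_min (fun σ => wM W (coin σ).1)
  let e₁ : Site d := stepVec ((j₁, true) : Step d)
  let e₂ : Site d := stepVec ((j₂, true) : Step d)
  have hvec : ∀ (j : Fin d) (b : Bool), stepVec ((j, b) : Step d) =
      sgn b • stepVec ((j, true) : Step d) := by
    intro j b
    funext k
    cases b <;> by_cases hk : k = j <;> simp [stepVec, sgn, hk]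
  have hind : ∀ k l : ℤ, k • e₁ + l • e₂ = 0 → k = 0 ∧ l = 0 := by
    intro k l h
    have h1 := congrFun h j₁
    have h2 := congrFun h j₂
    simp [e₁, e₂, stepVec, hj, hj.symm] at h1 h2
    exact ⟨h1, h2⟩
  have hconc := conc_abstract (G := Site d) (ι := Atom (lvl i)) (fun C => wM W C.1)
    (fun C => Delta C.1) (atom_total_eq_one W hc) e₁ e₂ hind coin hcoin
    (fun σ => by
      show Delta (coinAtom i (j₁, σ.1) (j₂, σ.2) hj₁ hj₂).1 = _
      rw [coinAtom_Delta, hvec j₁ σ.1, hvec j₂ σ.2])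
    (wM W (coin σ₀).1) (coinAtom_weight W i _ _ _ _) hσ₀
  have hkP : kP W (lvl i) = fun x y => ∑' C : Atom (lvl i),
      wM W C.1 * (@ite _ (x + Delta C.1 = y) (Classical.propDecidable _) 1 0) := by
    funext x y
    simp only [kP]
    refine tsum_congr fun C => ?_
    congr
  have hq4 : (4 : ℝ≥0∞) * wM W (coin σ₀).1 ≠ 0 :=
    mul_ne_zero (by norm_num) (coinAtom_weight W i _ _ _ _)
  refine ⟨(4 * wM W (coin σ₀).1)⁻¹, ENNReal.inv_ne_top.2 hq4, fun n x y => ?_⟩
  rw [ENNReal.le_inv_iff_mul_le, hkP]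
  refine le_trans (le_of_eq ?_) (hconc n x y)
  ring

/-- The subexponential lower bound. -/
theorem Qf_lower (hd : 3 ≤ d) {c : ℝ≥0∞} (hc : CrossLower W (lvl i) c)
    (hΛ : ∑' x, ∑' y, kD W (lvl i) (i, true) x y ≠ ∞) (j₁ : Fin d) (hj₁ : j₁ ≠ i) :
    ∃ A : ℝ, ∀ N : ℕ, (1 / 2) * Real.exp (-A * (Real.sqrt N + 1)) ≤
      (Qf (kK W (lvl i) (i, true)) N (stepVec (j₁, true))).toReal := by
  classical
  obtain ⟨j₂, hj₂i, hj₂1⟩ := exists_third hd i j₁
  obtain ⟨q, hq0, hq1, hbox⟩ := reach_box W i j₁ j₂ hj₁ hj₂i (Ne.symm hj₂1)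
  have hK : Kil (kP W (lvl i)) (kK W (lvl i) (i, true)) (kD W (lvl i) (i, true)) :=
    ⟨kP_eq W (i, true), kP_row W hc, kP_col W hc⟩
  set K := kK W (lvl i) (i, true) with hKdef
  set D := kD W (lvl i) (i, true) with hDdef
  set Λ : ℝ≥0∞ := ∑' x, ∑' y, D x y with hΛdef
  have hqtop : q ≠ ∞ := ne_top_of_le_ne_top ENNReal.one_ne_top hq1
  set q' : ℝ := q.toReal with hq'
  have hq'pos : 0 < q' := ENNReal.toReal_pos hq0 hqtop
  have hq'1 : q' ≤ 1 := by
    have := ENNReal.toReal_mono ENNReal.one_ne_top hq1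
    simpa using this
  set ℓ : ℝ := - Real.log q' with hℓ
  have hℓ0 : 0 ≤ ℓ := by
    have := Real.log_nonpos hq'pos.le hq'1
    rw [hℓ]; linarith
  set Λ' : ℝ := Λ.toReal with hΛ'
  have hΛ'0 : 0 ≤ Λ' := ENNReal.toReal_nonneg
  refine ⟨2 * ℓ * (Real.sqrt (2 * Λ') + 2), fun N => ?_⟩
  set S : ℝ := Real.sqrt (2 * N * Λ') with hS
  have hS0 : 0 ≤ S := Real.sqrt_nonneg _
  set ρ : ℕ := ⌈S⌉₊ + 1 with hρdef
  have hρ1 : S < ρ := by
    have h1 : S ≤ ⌈S⌉₊ := Nat.le_ceil S
    rw [hρdef]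
    push_cast
    linarith
  have hρ2 : (ρ : ℝ) < S + 2 := by
    have h1 : (⌈S⌉₊ : ℝ) < S + 1 := Nat.ceil_lt_add_one hS0
    rw [hρdef]
    push_cast
    linarith
  have hρ3 : 2 * (N : ℝ) * Λ' < (ρ : ℝ) ^ 2 := by
    have h0 : (0 : ℝ) < ρ := lt_of_le_of_lt hS0 hρ1
    exact (Real.sqrt_lt' h0).1 hρ1
  -- the points
  let Y : ℕ × ℕ → Site d := fun p =>
    ((p.1 + 1 : ℤ) • stepVec (j₁, true) + (p.2 : ℤ) • stepVec (j₂, true))
  have hY1 : ∀ p, Y p j₁ = p.1 + 1 := by
    intro p
    simp only [Y, Pi.add_apply, Pi.smul_apply, smul_eq_mul, stepVec_self,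
      stepVec_ne _ (Ne.symm hj₂1)]
    simp
  have hY2 : ∀ p, Y p j₂ = p.2 := by
    intro p
    simp only [Y, Pi.add_apply, Pi.smul_apply, smul_eq_mul, stepVec_self, stepVec_ne _ hj₂1]
    simp
  have hYinj : Function.Injective Y := by
    rintro ⟨p, r⟩ ⟨p', r'⟩ h
    have h1 := hY1 (p, r)
    have h2 := hY2 (p, r)
    rw [h] at h1 h2
    rw [hY1] at h1
    rw [hY2] at h2
    simp only at h1 h2
    have hp : p' = p := by omega
    have hr : r' = r := by omega
    rw [hp, hr]
  -- pigeonhole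
  obtain ⟨⟨p, r⟩, hpr, hrem⟩ : ∃ x ∈ Finset.range ρ ×ˢ Finset.range ρ,
      Rem K D N (Y x) ≤ 1 / 2 := by
    by_contra hcon
    push Not at hcon
    have h1 : ((ρ : ℝ≥0∞)) ^ 2 * (1 / 2) ≤ ∑ x ∈ Finset.range ρ ×ˢ Finset.range ρ, Rem K D N (Y x) := by
      calc ((ρ : ℝ≥0∞)) ^ 2 * (1 / 2)
          = ∑ _x ∈ Finset.range ρ ×ˢ Finset.range ρ, (1 / 2 : ℝ≥0∞) := by
            rw [Finset.sum_const, Finset.card_product, Finset.card_range, nsmul_eq_mul]
            push_cast
            ring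
        _ ≤ _ := Finset.sum_le_sum fun x hx => (hcon x hx).le
    have h2 : ∑ x ∈ Finset.range ρ ×ˢ Finset.range ρ, Rem K D N (Y x) ≤ ∑' x, Rem K D N x := by
      rw [← Finset.sum_image (s := Finset.range ρ ×ˢ Finset.range ρ) (g := Y)
        (f := fun x => Rem K D N x) (fun a _ b _ h => hYinj h)]
      exact ENNReal.sum_le_tsum _
    have h3 := Rem_total_le hK N
    have h4 := (h1.trans h2).trans h3
    have hfin : (N : ℝ≥0∞) * Λ ≠ ∞ := ENNReal.mul_ne_top (ENNReal.natCast_ne_top N) hΛ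
    have h5 := ENNReal.toReal_mono hfin h4
    rw [ENNReal.toReal_mul, ENNReal.toReal_mul, ENNReal.toReal_natCast] at h5
    simp only [ENNReal.toReal_pow, ENNReal.toReal_natCast, ENNReal.toReal_div, ENNReal.toReal_one,
      ENNReal.toReal_ofNat] at h5
    have h6 : 2 * (N : ℝ) * Λ' = 2 * ((N : ℝ) * Λ') := by ring
    rw [h6] at hρ3
    linarith
  obtain ⟨hp, hr⟩ := Finset.mem_product.1 hpr
  simp only [Finset.mem_range] at hp hr
  -- half of the mass survives at the box point
  have hhalf : (1 / 2 : ℝ≥0∞) ≤ Qf K N (Y (p, r)) := by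
    have h1 := Qf_add_Rem hK N (Y (p, r))
    have h2 : (1 : ℝ≥0∞) ≤ Qf K N (Y (p, r)) + 2⁻¹ := by
      rw [← h1]
      rw [one_div] at hrem
      gcongr
    rw [one_div]
    calc (2 : ℝ≥0∞)⁻¹ = 1 - 2⁻¹ := ENNReal.one_sub_inv_two.symm
      _ ≤ _ := tsub_le_iff_right.2 h2
  have hanti : ∀ k x, Qf K (N + k) x ≤ Qf K N x := by
    intro k x
    induction k with
    | zero => simp
    | succ k ih => exact (Qf_anti hK (N + k) x).trans ih
  have hchain : q ^ (p + r) * (1 / 2) ≤ Qf K N (stepVec (j₁, true)) :=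
    calc q ^ (p + r) * (1 / 2) ≤ q ^ (p + r) * Qf K N (Y (p, r)) := by gcongr
      _ ≤ Qf K (N + (p + r)) (stepVec (j₁, true)) := hbox p r N
      _ ≤ _ := hanti _ _
  have hfin : Qf K N (stepVec (j₁, true)) ≠ ∞ :=
    ne_top_of_le_ne_top ENNReal.one_ne_top (Qf_le_one hK N _)
  have hreal := ENNReal.toReal_mono hfin hchain
  rw [ENNReal.toReal_mul, ENNReal.toReal_pow] at hreal
  simp only [ENNReal.toReal_div, ENNReal.toReal_one, ENNReal.toReal_ofNat] at hreal
  refine le_trans ?_ hreal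
  rw [mul_comm]
  apply mul_le_mul_of_nonneg_right _ (by norm_num)
  have hpow : q' ^ (p + r) = Real.exp (-(((p + r : ℕ) : ℝ) * ℓ)) := by
    have h1 : Real.exp (((p + r : ℕ) : ℝ) * Real.log q') = (Real.exp (Real.log q')) ^ (p + r) :=
      Real.exp_nat_mul _ _
    rw [Real.exp_log hq'pos] at h1
    rw [← h1, hℓ]
    congr 1
    ring
  rw [hpow]
  apply Real.exp_le_exp.2
  have hS' : S = Real.sqrt (2 * Λ') * Real.sqrt N := by
    rw [hS, show 2 * (N : ℝ) * Λ' = 2 * Λ' * N by ring, Real.sqrt_mul (by positivity)]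
  have ha : 0 ≤ Real.sqrt (2 * Λ') := Real.sqrt_nonneg _
  have hb : 0 ≤ Real.sqrt (N : ℝ) := Real.sqrt_nonneg _
  have hpr : ((p + r : ℕ) : ℝ) ≤ 2 * (Real.sqrt (2 * Λ') + 2) * (Real.sqrt N + 1) := by
    have h1 : ((p + r : ℕ) : ℝ) ≤ 2 * ρ := by
      have : p + r ≤ 2 * ρ := by omega
      exact_mod_cast this
    nlinarith [mul_nonneg ha hb]
  have := mul_le_mul_of_nonneg_right hpr hℓ0
  nlinarith

end

end Vale.Agent.Lib.P147T
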