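import Vale.Agent.Lib.P147T.Defs

/-!
# P147: paths, departure sites, abstract path weights
-/

open scoped ENNReal BigOperators

namespace Vale.Agent.Lib.P147T

variable {d : ℕ}

/-- End point of a path started at `0`. -/
def endp : List (Step d) → Site d
  | [] => 0
  | s :: l => stepVec s + endp l

open Classical in
/-- The sites from which a path started at `0` departs. -/
noncomputable def dep : List (Step d) → Finset (Site d)
  | [] => ∅
  | s :: l => insert 0 ((dep l).image (fun x => stepVec s + x))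

@[simp] theorem endp_nil : endp ([] : List (Step d)) = 0 := rfl
@[simp] theorem endp_cons (s : Step d) (l) : endp (s :: l) = stepVec s + endp l := rfl
@[simp] theorem dep_nil : dep ([] : List (Step d)) = ∅ := rfl
theorem dep_cons (s : Step d) (l) :
    dep (s :: l) = open Classical in insert 0 ((dep l).image (fun x => stepVec s + x)) := rfl

theorem endp_append (l₁ l₂ : List (Step d)) : endp (l₁ ++ l₂) = endp l₁ + endp l₂ := by
  induction l₁ with
  | nil => simp
  | cons s l ih => simp [ih, add_assoc]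

open Classical in
/-- Translate of a finite set of sites. -/
noncomputable def tr (t : Site d) (S : Finset (Site d)) : Finset (Site d) :=
  S.image (fun x => t + x)

theorem mem_tr {t x : Site d} {S : Finset (Site d)} : x ∈ tr t S ↔ ∃ y ∈ S, x = t + y := by
  classical
  simp only [tr, Finset.mem_image]
  constructor
  · rintro ⟨y, hy, rfl⟩; exact ⟨y, hy, rfl⟩
  · rintro ⟨y, hy, rfl⟩; exact ⟨y, hy, rfl⟩

theorem mem_dep_cons {s : Step d} {l : List (Step d)} {x : Site d} :
    x ∈ dep (s :: l) ↔ x = 0 ∨ ∃ y ∈ dep l, x = stepVec s + y := by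
  classical
  simp only [dep_cons, Finset.mem_insert, Finset.mem_image]
  constructor
  · rintro (h | ⟨y, hy, rfl⟩)
    · exact Or.inl h
    · exact Or.inr ⟨y, hy, rfl⟩
  · rintro (h | ⟨y, hy, rfl⟩)
    · exact Or.inl h
    · exact Or.inr ⟨y, hy, rfl⟩

theorem mem_dep_append {l₁ l₂ : List (Step d)} {x : Site d} :
    x ∈ dep (l₁ ++ l₂) ↔ x ∈ dep l₁ ∨ ∃ y ∈ dep l₂, x = endp l₁ + y := by
  induction l₁ generalizing x with
  | nil => simp
  | cons s l ih =>
    simp only [List.cons_append, mem_dep_cons, ih, endp_cons]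
    constructor
    · rintro (h | ⟨y, hy | ⟨z, hz, rfl⟩, rfl⟩)
      · exact Or.inl (Or.inl h)
      · exact Or.inl (Or.inr ⟨y, hy, rfl⟩)
      · exact Or.inr ⟨z, hz, by abel⟩
    · rintro ((h | ⟨y, hy, rfl⟩) | ⟨z, hz, rfl⟩)
      · exact Or.inl h
      · exact Or.inr ⟨y, Or.inl hy, rfl⟩
      · exact Or.inr ⟨endp l + z, Or.inr ⟨z, hz, rfl⟩, by abel⟩

/-- The abstract weight system of the annealed walk: `w l` is the annealed probability that
the walk starts with the steps of `l`. -/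
structure Wt (d : ℕ) where
  /-- the weight -/
  w : List (Step d) → ℝ≥0∞
  w_nil : w [] = 1
  w_snoc : ∀ l, ∑ s : Step d, w (l ++ [s]) = w l
  /-- factorisation when the two pieces of the path use disjoint departure sites -/
  w_split : ∀ l₁ l₂, (∀ x ∈ dep l₁, ∀ y ∈ dep l₂, x ≠ endp l₁ + y) →
    w (l₁ ++ l₂) = w l₁ * w l₂
  /-- quenched probabilities are at most one, and translation invariance -/
  w_le : ∀ f l, w (f ++ l) ≤ w l
  /-- ellipticity -/
  w_pos : ∀ l, w l ≠ 0

/-- `Up L g l`: the path `l` departs only from `L`-levels in `[0, g)` and ends at level `g`. -/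
def Up (L : Site d →+ ℤ) (g : ℕ) (l : List (Step d)) : Prop :=
  L (endp l) = g ∧ ∀ x ∈ dep l, 0 ≤ L x ∧ L x < g

theorem endp_mem_dep_append (l₁ : List (Step d)) {t : List (Step d)} (ht : t ≠ []) :
    endp l₁ ∈ dep (l₁ ++ t) := by
  obtain ⟨s, r, rfl⟩ := List.exists_cons_of_ne_nil ht
  refine mem_dep_append.2 (Or.inr ⟨0, ?_, by simp⟩)
  exact mem_dep_cons.2 (Or.inl rfl)

theorem Up.append {L : Site d →+ ℤ} {g₁ g₂ : ℕ} {l₁ l₂ : List (Step d)}
    (h₁ : Up L g₁ l₁) (h₂ : Up L g₂ l₂) : Up L (g₁ + g₂) (l₁ ++ l₂) := by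
  refine ⟨by rw [endp_append, map_add, h₁.1, h₂.1]; push_cast; rfl, ?_⟩
  intro x hx
  rcases mem_dep_append.1 hx with hx | ⟨y, hy, rfl⟩
  · have := h₁.2 x hx
    push_cast
    omega
  · have := h₂.2 y hy
    rw [map_add, h₁.1]
    push_cast
    omega

theorem Up.mid {L : Site d →+ ℤ} {g₁ n g₂ : ℕ} {l₁ t s : List (Step d)}
    (h₁ : Up L g₁ l₁) (h : Up L (g₁ + n) (l₁ ++ t)) (h' : Up L (n + g₂) (t ++ s)) : Up L n t := by
  refine ⟨?_, ?_⟩
  · have := h.1
    rw [endp_append, map_add, h₁.1] at this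
    push_cast at this
    omega
  · intro y hy
    have h3 := h.2 (endp l₁ + y) (mem_dep_append.2 (Or.inr ⟨y, hy, rfl⟩))
    have h4 := h'.2 y (mem_dep_append.2 (Or.inl hy))
    rw [map_add, h₁.1] at h3
    push_cast at h3
    omega

theorem Up.zero_iff {L : Site d →+ ℤ} {l : List (Step d)} : Up L 0 l ↔ l = [] := by
  constructor
  · intro h
    by_contra hne
    obtain ⟨s, r, rfl⟩ := List.exists_cons_of_ne_nil hne
    have := h.2 0 (mem_dep_cons.2 (Or.inl rfl))
    simp at this
  · rintro rfl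
    exact ⟨by simp, by simp⟩

theorem Up.initSeg {L : Site d →+ ℤ} {g₁ g₂ : ℕ} {l₁ l₂ t₁ t₂ : List (Step d)}
    (h₁ : Up L g₁ l₁) (h₂ : Up L g₂ l₂) (hg : g₁ ≤ g₂) (he : l₁ ++ t₁ = l₂ ++ t₂) :
    ∃ t, l₂ = l₁ ++ t := by
  rcases List.append_eq_append_iff.1 he with ⟨a', rfl, _⟩ | ⟨c', rfl, _⟩
  · exact ⟨a', rfl⟩
  · by_cases hc : c' = []
    · subst hc
      exact ⟨[], by simp⟩
    · have := h₁.2 _ (endp_mem_dep_append l₂ hc)
      rw [h₂.1] at this
      omega

end Vale.Agent.Lib.P147T
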