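import Vale.Agent.Lib.P147T.Basic

/-!
# P147: renewal structure of the grades.
-/

open scoped ENNReal BigOperators
open Filter Topology

namespace Vale.Agent.Lib.P147T

variable {d : ℕ}

/-- Discrete renewal theory with a two-sided bound on the renewal sequence. -/
theorem renewal_abstract (π v : ℕ → ℝ≥0∞) (c : ℝ≥0∞) (hc : c ≠ 0) (hv0 : v 0 = 1)
    (hup : ∀ g, v g ≤ 1) (hlow : ∀ g, c ≤ v g)
    (hrec : ∀ g, v (g + 1) = ∑ s ∈ Finset.range (g + 1), π (s + 1) * v (g - s)) :
    ∑' s, π (s + 1) = 1 ∧ ∑' s : ℕ, ((s : ℝ≥0∞) + 1) * π (s + 1) ≤ 1 / c := by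
  classical
  -- partial sums
  set V : ℕ → ℝ≥0∞ := fun G => ∑ g ∈ Finset.range (G + 1), v g with hV
  have hVsucc : ∀ G, V (G + 1) = V G + v (G + 1) := fun G => by
    simp only [hV]; rw [Finset.sum_range_succ]
  have hVtop : ∀ G, V G ≠ ∞ := fun G => by
    refine ENNReal.sum_ne_top.2 fun g _ => ne_top_of_le_ne_top ENNReal.one_ne_top (hup g)
  have hVlow : ∀ G : ℕ, ((G : ℝ≥0∞) + 1) * c ≤ V G := by
    intro G
    calc ((G : ℝ≥0∞) + 1) * c = ∑ g ∈ Finset.range (G + 1), c := by
          simp [Finset.sum_const, nsmul_eq_mul]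
      _ ≤ V G := Finset.sum_le_sum fun g _ => hlow g
  have hVmono : Monotone V := monotone_nat_of_le_succ fun G => by
    rw [hVsucc]; exact le_self_add
  -- the renewal identity for the partial sums
  have hVrec : ∀ G, V (G + 1) = 1 + ∑ s ∈ Finset.range (G + 1), π (s + 1) * V (G - s) := by
    intro G
    induction G with
    | zero =>
      rw [hVsucc, hrec 0]
      simp [hV, hv0]
    | succ G ih =>
      rw [hVsucc, ih, hrec (G + 1), add_assoc]
      congr 1
      rw [Finset.sum_range_succ (fun s => π (s + 1) * V (G + 1 - s)) (G + 1),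
        Finset.sum_range_succ (fun s => π (s + 1) * v (G + 1 - s)) (G + 1), ← add_assoc,
        ← Finset.sum_add_distrib]
      have h1 : V (G + 1 - (G + 1)) = v (G + 1 - (G + 1)) := by simp [hV]
      rw [h1]
      congr 1
      refine Finset.sum_congr rfl fun s hs => ?_
      have hs' : s ≤ G := by simpa [Nat.lt_succ_iff] using hs
      have h2 : G + 1 - s = (G - s) + 1 := by omega
      rw [← mul_add, h2, hVsucc]
  -- the atoms have finite mass
  have hπfin : ∀ s, π (s + 1) ≤ 1 := by
    intro s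
    have h1 : π (s + 1) * v (s - s) ≤ v (s + 1) := by
      rw [hrec s]
      exact Finset.single_le_sum (f := fun s' => π (s' + 1) * v (s - s')) (fun _ _ => bot_le)
        (Finset.mem_range.2 (Nat.lt_succ_self s))
    simp only [Nat.sub_self, hv0, mul_one] at h1
    exact h1.trans (hup _)
  -- total mass at most one
  have hθS : ∀ S : ℕ, ∑ s ∈ Finset.range S, π (s + 1) ≤ 1 := by
    intro S
    by_contra hcon
    push Not at hcon
    set θ := ∑ s ∈ Finset.range S, π (s + 1) with hθ
    have hθtop : θ ≠ ∞ := ENNReal.sum_ne_top.2 fun s _ =>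
      ne_top_of_le_ne_top ENNReal.one_ne_top (hπfin s)
    obtain ⟨ε, hεθ, hε0, hεtop⟩ : ∃ ε, θ = 1 + ε ∧ ε ≠ 0 ∧ ε ≠ ∞ := by
      refine ⟨θ - 1, (add_tsub_cancel_of_le hcon.le).symm, ?_, ?_⟩
      · exact (tsub_pos_of_lt hcon).ne'
      · exact ENNReal.sub_ne_top hθtop
    have key : ∀ X : ℕ, ε * V X ≤ S := by
      intro X
      have h1 : 1 + θ * V X ≤ V (X + S) + 1 := by
        rcases S with _ | S
        · simp only [hθ, Finset.range_zero, Finset.sum_empty] at hcon
          exact absurd hcon (by simp)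
        have h2 := hVrec (X + S)
        have h3 : X + (S + 1) = X + S + 1 := rfl
        rw [h3, h2]
        have h4 : θ * V X ≤ ∑ s ∈ Finset.range (X + S + 1), π (s + 1) * V (X + S - s) := by
          rw [hθ, Finset.sum_mul]
          calc ∑ s ∈ Finset.range (S + 1), π (s + 1) * V X
              ≤ ∑ s ∈ Finset.range (S + 1), π (s + 1) * V (X + S - s) := by
                refine Finset.sum_le_sum fun s hs => ?_
                have hs' : s ≤ S := by simpa [Nat.lt_succ_iff] using hs
                exact mul_le_mul_right (hVmono (by omega)) _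
            _ ≤ _ := Finset.sum_le_sum_of_subset (Finset.range_subset_range.2 (by omega))
        calc 1 + θ * V X ≤ 1 + _ := by gcongr
          _ ≤ _ := le_self_add
      have h5 : ∀ T : ℕ, V (X + T) ≤ V X + T := by
        intro T
        induction T with
        | zero => simp
        | succ T ih =>
          rw [← add_assoc, hVsucc]
          calc V (X + T) + v (X + T + 1) ≤ (V X + T) + 1 := add_le_add ih (hup _)
            _ = _ := by push_cast; rw [add_assoc]
      have h6 := h5 S
      have h7 : 1 + (1 + ε) * V X ≤ V X + S + 1 := by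
        rw [← hεθ]; exact h1.trans (by gcongr)
      have h8 : V X + (1 + ε * V X) ≤ V X + (S + 1) := by
        calc V X + (1 + ε * V X) = 1 + (1 + ε) * V X := by ring
          _ ≤ V X + S + 1 := h7
          _ = _ := by ring
      have h9 := (ENNReal.add_le_add_iff_left (hVtop X)).1 h8
      rw [add_comm] at h9
      exact (ENNReal.add_le_add_iff_right ENNReal.one_ne_top).1 h9
    obtain ⟨n, hn⟩ := ENNReal.exists_nat_mul_gt (mul_ne_zero hε0 hc) (ENNReal.natCast_ne_top S)
    have h1 := hVlow n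
    have h2 := key n
    have h3 : (n : ℝ≥0∞) * (ε * c) ≤ ε * V n := by
      calc (n : ℝ≥0∞) * (ε * c) = ε * ((n : ℝ≥0∞) * c) := by ring
        _ ≤ ε * (((n : ℝ≥0∞) + 1) * c) := by gcongr; exact le_self_add
        _ ≤ _ := by gcongr
    exact absurd (hn.trans_le (h3.trans h2)) (lt_irrefl _)
  have hθle : ∑' s, π (s + 1) ≤ 1 := by
    rw [ENNReal.tsum_eq_iSup_nat]
    exact iSup_le hθS
  -- total mass at least one
  have hθge : 1 ≤ ∑' s, π (s + 1) := by
    by_contra hcon
    push Not at hcon
    set θ := ∑' s, π (s + 1) with hθ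
    have hθtop : θ ≠ ∞ := hcon.ne_top
    obtain ⟨ε, hεθ, hε0⟩ : ∃ ε, θ + ε = 1 ∧ ε ≠ 0 := by
      refine ⟨1 - θ, add_tsub_cancel_of_le hcon.le, (tsub_pos_of_lt hcon).ne'⟩
    have key : ∀ G, ε * V (G + 1) ≤ 1 := by
      intro G
      have h1 : V (G + 1) ≤ 1 + θ * V (G + 1) := by
        rw [hVrec G]
        gcongr
        calc ∑ s ∈ Finset.range (G + 1), π (s + 1) * V (G - s)
            ≤ ∑ s ∈ Finset.range (G + 1), π (s + 1) * (1 + ∑ s ∈ Finset.range (G + 1), π (s + 1) * V (G - s)) := by
              refine Finset.sum_le_sum fun s _ => ?_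
              gcongr
              rw [← hVrec G]
              exact hVmono (by omega)
          _ = (∑ s ∈ Finset.range (G + 1), π (s + 1)) * _ := (Finset.sum_mul _ _ _).symm
          _ ≤ θ * _ := by
              gcongr
              exact ENNReal.sum_le_tsum _
      have h2 : θ * V (G + 1) + ε * V (G + 1) ≤ θ * V (G + 1) + 1 := by
        rw [← add_mul, hεθ, one_mul, add_comm (θ * V (G + 1))]
        exact h1
      exact (ENNReal.add_le_add_iff_left (ENNReal.mul_ne_top hθtop (hVtop _))).1 h2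
    obtain ⟨n, hn⟩ := ENNReal.exists_nat_mul_gt (mul_ne_zero hε0 hc) ENNReal.one_ne_top
    have h3 : (n : ℝ≥0∞) * (ε * c) ≤ ε * V (n + 1) := by
      calc (n : ℝ≥0∞) * (ε * c) = ε * ((n : ℝ≥0∞) * c) := by ring
        _ ≤ ε * (((n + 1 : ℕ) : ℝ≥0∞) + 1) * c := by
            rw [mul_assoc]
            gcongr
            push_cast
            calc (n : ℝ≥0∞) ≤ (n : ℝ≥0∞) + 1 := le_self_add
              _ ≤ _ := le_self_add
        _ = ε * (((n + 1 : ℕ) : ℝ≥0∞) + 1) * c := rfl
        _ ≤ _ := by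
            rw [mul_assoc]
            exact mul_le_mul_right (hVlow (n + 1)) _
    exact absurd (hn.trans_le (h3.trans (key n))) (lt_irrefl _)
  have hθ1 : ∑' s, π (s + 1) = 1 := le_antisymm hθle hθge
  refine ⟨hθ1, ?_⟩
  -- the mean
  set Fbar : ℕ → ℝ≥0∞ := fun n => ∑' t, π (n + 1 + t) with hF
  have hF0 : Fbar 0 = 1 := by
    simp only [hF, zero_add]
    rw [← hθ1]
    exact tsum_congr fun t => by rw [add_comm]
  have hFsucc : ∀ n, Fbar n = π (n + 1) + Fbar (n + 1) := by
    intro n
    simp only [hF]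
    rw [tsum_eq_zero_add' ENNReal.summable]
    simp only [add_zero]
    congr 1
    exact tsum_congr fun t => by congr 1; omega
  -- the last renewal identity
  have hR : ∀ G, ∑ T ∈ Finset.range (G + 1), v T * Fbar (G - T) = 1 := by
    intro G
    induction G with
    | zero => simp [hv0, hF0]
    | succ G ih =>
      rw [Finset.sum_range_succ]
      simp only [Nat.sub_self, hF0, mul_one]
      rw [← ih, hrec G]
      have h1 : ∑ T ∈ Finset.range (G + 1), v T * Fbar (G - T) =
          ∑ T ∈ Finset.range (G + 1), v T * π (G - T + 1) +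
            ∑ T ∈ Finset.range (G + 1), v T * Fbar (G - T + 1) := by
        rw [← Finset.sum_add_distrib]
        refine Finset.sum_congr rfl fun T _ => ?_
        rw [← mul_add, ← hFsucc]
      rw [h1, add_comm]
      congr 1
      · rw [← Finset.sum_range_reflect]
        refine Finset.sum_congr rfl fun T hT => ?_
        have hT' : T ≤ G := by simpa [Nat.lt_succ_iff] using hT
        have h2 : G + 1 - 1 - T = G - T := by omega
        have h3 : G - (G - T) = T := by omega
        simp only [h2, h3]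
        ring
      · refine Finset.sum_congr rfl fun T hT => ?_
        have hT' : T ≤ G := by simpa [Nat.lt_succ_iff] using hT
        have : G + 1 - T = G - T + 1 := by omega
        rw [this]
  have hFsum : ∀ G, c * ∑ n ∈ Finset.range (G + 1), Fbar n ≤ 1 := by
    intro G
    rw [← hR G, Finset.mul_sum, ← Finset.sum_range_reflect]
    refine Finset.sum_le_sum fun T hT => ?_
    have hT' : T ≤ G := by simpa [Nat.lt_succ_iff] using hT
    have h2 : G + 1 - 1 - T = G - T := by omega
    rw [h2]
    gcongr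
    exact hlow _
  -- telescoping identity for the mean
  have hid : ∀ S : ℕ, ∑ n ∈ Finset.range S, Fbar n =
      ∑ s ∈ Finset.range S, ((s : ℝ≥0∞) + 1) * π (s + 1) + S * Fbar S := by
    intro S
    induction S with
    | zero => simp
    | succ S ih =>
      rw [Finset.sum_range_succ, Finset.sum_range_succ, ih]
      have h1 := hFsucc S
      push_cast
      calc ∑ s ∈ Finset.range S, ((s : ℝ≥0∞) + 1) * π (s + 1) + (S : ℝ≥0∞) * Fbar S + Fbar S
          = ∑ s ∈ Finset.range S, ((s : ℝ≥0∞) + 1) * π (s + 1) + ((S : ℝ≥0∞) + 1) * Fbar S := by ring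
        _ = ∑ s ∈ Finset.range S, ((s : ℝ≥0∞) + 1) * π (s + 1) +
            ((S : ℝ≥0∞) + 1) * (π (S + 1) + Fbar (S + 1)) := by rw [← h1]
        _ = _ := by ring
  rw [ENNReal.tsum_eq_iSup_nat]
  refine iSup_le fun S => ?_
  have h1 : ∑ s ∈ Finset.range S, ((s : ℝ≥0∞) + 1) * π (s + 1) ≤
      ∑ n ∈ Finset.range (S + 1), Fbar n := by
    calc _ ≤ ∑ n ∈ Finset.range S, Fbar n := by rw [hid S]; exact le_self_add
      _ ≤ _ := Finset.sum_le_sum_of_subset (Finset.range_subset_range.2 (by omega))
  have h2 := hFsum S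
  calc _ ≤ ∑ n ∈ Finset.range (S + 1), Fbar n := h1
    _ ≤ 1 / c := by
      rw [ENNReal.le_div_iff_mul_le (Or.inl hc) (Or.inr ENNReal.one_ne_top), mul_comm]
      exact h2

section
variable (W : Wt d) (L : Site d →+ ℤ)

theorem vg_zero : vg W L 0 = 1 := by
  unfold vg
  rw [tsum_eq_single (1 : Mon L)]
  · simp
  · intro m hm
    have : m.g ≠ 0 := fun h => hm (Mon.g_eq_zero h)
    simp [this]

theorem atom_g_pos (C : Atom L) : 0 < C.1.g := C.2.1

theorem vg_succ (g : ℕ) :
    vg W L (g + 1) = ∑ s ∈ Finset.range (g + 1), atomMass W L (s + 1) * vg W L (g - s) := by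
  unfold vg
  rw [first_step W (fun m => if m.g = g + 1 then 1 else 0)]
  have h0 : (if (1 : Mon L).g = g + 1 then 1 else 0 : ℝ≥0∞) = 0 := if_neg (by simp)
  rw [h0, zero_add]
  simp only [atomMass]
  simp_rw [← ENNReal.tsum_mul_right]
  rw [← Summable.tsum_finsetSum (fun _ _ => ENNReal.summable)]
  refine tsum_congr fun C => ?_
  have hpos := atom_g_pos L C
  obtain ⟨s₀, hs₀⟩ := Nat.exists_eq_add_of_le' hpos
  by_cases hC : s₀ ≤ g
  · rw [Finset.sum_eq_single s₀]
    · rw [if_pos (by omega), mul_one]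
      congr 1
      refine tsum_congr fun m => ?_
      congr 1
      by_cases hm : m.g = g - s₀
      · rw [if_pos hm, if_pos (show (C.1 * m).g = g + 1 by simp only [Mon.mul_g]; omega)]
      · rw [if_neg hm, if_neg (show ¬ (C.1 * m).g = g + 1 by simp only [Mon.mul_g]; omega)]
    · intro s _ hs
      rw [if_neg (by omega)]
      simp
    · intro hs
      exfalso
      apply hs
      simp only [Finset.mem_range]
      omega
  · rw [Finset.sum_eq_zero]
    · convert mul_zero _
      refine ENNReal.tsum_eq_zero.2 fun m => ?_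
      rw [if_neg (show ¬ (C.1 * m).g = g + 1 by simp only [Mon.mul_g]; omega), mul_zero]
    · intro s hs
      have hs' : s ≤ g := by simpa [Nat.lt_succ_iff] using hs
      rw [if_neg (by omega)]
      simp

theorem atom_total_eq : ∑' C : Atom L, wM W C.1 = ∑' s, atomMass W L (s + 1) := by
  simp only [atomMass]
  rw [ENNReal.tsum_comm]
  refine tsum_congr fun C => ?_
  rw [ENNReal.tsum_mul_left]
  have hpos := atom_g_pos L C
  obtain ⟨s₀, hs₀⟩ := Nat.exists_eq_add_of_le' hpos
  rw [tsum_eq_single s₀]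
  · rw [if_pos hs₀, mul_one]
  · intro s hs
    rw [if_neg (by omega)]

theorem atom_mean_eq :
    ∑' C : Atom L, wM W C.1 * (C.1.g : ℝ≥0∞) = ∑' s : ℕ, ((s : ℝ≥0∞) + 1) * atomMass W L (s + 1) := by
  simp only [atomMass]
  simp_rw [← ENNReal.tsum_mul_left]
  rw [ENNReal.tsum_comm]
  refine tsum_congr fun C => ?_
  have hpos := atom_g_pos L C
  obtain ⟨s₀, hs₀⟩ := Nat.exists_eq_add_of_le' hpos
  rw [tsum_eq_single s₀]
  · rw [if_pos hs₀, mul_one, hs₀]
    push_cast
    ring
  · intro s hs
    rw [if_neg (by omega)]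
    simp

/-- Standing consequence of ballisticity: both crossing masses are bounded below. -/
def CrossLower (c : ℝ≥0∞) : Prop :=
  c ≠ 0 ∧ ∀ g, c ≤ crossing W L g ∧ c ≤ crossing W (-L) g

theorem up_replicate {L : Site d →+ ℤ} (e : Step d) (he : L (stepVec e) = 1) (g : ℕ) :
    Up L g (List.replicate g e) := by
  induction g with
  | zero => exact Up.zero_iff.2 rfl
  | succ g ih =>
    rw [List.replicate_succ']
    have h1 : Up L 1 [e] := by
      refine ⟨by simp [he], fun x hx => ?_⟩
      rcases mem_dep_cons.1 hx with rfl | ⟨y, hy, _⟩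
      · simp
      · simp at hy
    simpa using ih.append h1

theorem crossing_lower {L : Site d →+ ℤ} (e : Step d) (he : L (stepVec e) = 1)
    (h : Ballistic W L) : ∃ c, c ≠ 0 ∧ ∀ g, c ≤ crossing W L g := by
  classical
  obtain ⟨c₀, A, T₁, hc₀, hT⟩ := h
  have hsmall : ∀ T : ℕ, ∃ c, c ≠ 0 ∧ c ≤ c₀ ∧ ∀ g < T, c ≤ crossing W L g := by
    intro T
    induction T with
    | zero => exact ⟨c₀, hc₀, le_rfl, fun g hg => absurd hg (by omega)⟩
    | succ T ih =>
      obtain ⟨c, hc, hcc, hg⟩ := ih
      have hw : W.w (List.replicate T e) ≤ crossing W L T :=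
        ENNReal.le_tsum (f := fun a : {a : List (Step d) // Up L T a} => W.w a.1)
          ⟨_, up_replicate e he T⟩
      refine ⟨min c (W.w (List.replicate T e)), ?_, (min_le_left _ _).trans hcc, fun g hgT => ?_⟩
      · simp [hc, W.w_pos, min_eq_iff]
      · rcases Nat.lt_succ_iff_lt_or_eq.1 hgT with hlt | rfl
        · exact (min_le_left _ _).trans (hg g hlt)
        · exact (min_le_right _ _).trans hw
  obtain ⟨c, hc, hcc, hg⟩ := hsmall T₁
  refine ⟨c, hc, fun g => ?_⟩
  by_cases hgT : g < T₁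
  · exact hg g hgT
  · refine hcc.trans ((hT g (by omega)).trans ?_)
    have hinj : Function.Injective
        (fun a : {a : List (Step d) // Up L g a ∧ (dep a).card ≤ A * g} =>
          (⟨a.1, a.2.1⟩ : {a : List (Step d) // Up L g a})) := by
      intro a a' haa
      have h2 := congrArg Subtype.val haa
      exact Subtype.ext h2
    exact ENNReal.tsum_comp_le_tsum_of_injective hinj
      (fun a : {a : List (Step d) // Up L g a} => W.w a.1)

variable {L}

theorem vg_le_one (g : ℕ) : vg W L g ≤ 1 := by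
  rw [vg_eq]
  calc _ ≤ (1 : ℝ≥0∞) * 1 := mul_le_mul' (crossing_le_one _ _ _) (crossing_le_one _ _ _)
    _ = 1 := one_mul 1

theorem vg_lower {c : ℝ≥0∞} (hc : CrossLower W L c) (g : ℕ) : c * c ≤ vg W L g := by
  rw [vg_eq]
  exact mul_le_mul' (hc.2 g).1 (hc.2 g).2

theorem renewal_facts {c : ℝ≥0∞} (hc : CrossLower W L c) :
    ∑' s, atomMass W L (s + 1) = 1 ∧
      ∑' s : ℕ, ((s : ℝ≥0∞) + 1) * atomMass W L (s + 1) ≤ 1 / (c * c) :=
  renewal_abstract _ _ (c * c) (mul_ne_zero hc.1 hc.1) (vg_zero W L) (vg_le_one W)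
    (vg_lower W hc) (vg_succ W L)

theorem atom_total_eq_one {c : ℝ≥0∞} (hc : CrossLower W L c) : ∑' C : Atom L, wM W C.1 = 1 := by
  rw [atom_total_eq]
  exact (renewal_facts W hc).1

theorem atom_mean_ne_top {c : ℝ≥0∞} (hc : CrossLower W L c) :
    ∑' C : Atom L, wM W C.1 * (C.1.g : ℝ≥0∞) ≠ ∞ := by
  rw [atom_mean_eq]
  refine ne_top_of_le_ne_top ?_ (renewal_facts W hc).2
  exact ENNReal.div_ne_top ENNReal.one_ne_top (mul_ne_zero hc.1 hc.1)

end

end Vale.Agent.Lib.P147T
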