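import Vale.Agent.Lib.P147T.Chain

/-!
# P147: the key bound: avoiding pairs have finite total mass.
-/

open scoped ENNReal BigOperators
open Filter Topology

namespace Vale.Agent.Lib.P147T

variable {d : ℕ}

section
variable {L : Site d →+ ℤ}

variable (W : Wt d)

/-- Level of the end point is at most the length of the path. -/
theorem abs_level_endp_le (hunit : ∀ s : Step d, |L (stepVec s)| ≤ 1) (l : List (Step d)) :
    |L (endp l)| ≤ l.length := by
  induction l with
  | nil => simp
  | cons s l ih =>
    simp only [endp_cons, map_add, List.length_cons]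
    push_cast
    have := hunit s
    have h2 := abs_add_le (L (stepVec s)) (L (endp l))
    omega

/-- The departure sites of an initial segment. -/
theorem dep_take_subset (l : List (Step d)) (n : ℕ) {x : Site d} (hx : x ∈ dep (l.take n)) :
    x ∈ dep l := by
  have h : l = l.take n ++ l.drop n := (List.take_append_drop n l).symm
  rw [h]
  exact mem_dep_append.2 (Or.inl hx)

/-- A finite antichain of extensions of `t` has total weight at most `W.w t`. -/
theorem finset_segFree_sum_le (t : List (Step d)) (F : Finset (List (Step d)))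
    (hpf : ∀ l ∈ F, ∀ r, l ++ r ∈ F → r = []) (hext : ∀ l ∈ F, ∃ r, l = t ++ r) :
    ∑ l ∈ F, W.w l ≤ W.w t := by
  have := segFree_sum_le W t (↑F : Set (List (Step d)))
    (fun l hl r hr => hpf l (by simpa using hl) r (by simpa using hr))
    (fun l hl => hext l (by simpa using hl))
  have h2 : ∑' l : (↑F : Set (List (Step d))), W.w l.1 = ∑ l ∈ F, W.w l :=
    Finset.tsum_subtype F (fun l => W.w l)
  rwa [h2] at this

/-- The mass of the paths of length `n` whose departure sites all have `L`-level at most `0`
is bounded below by the crossing masses of `-L`. -/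
theorem stay_lower {c : ℝ≥0∞} (hc : c ≠ 0) (hlow : ∀ g, c ≤ crossing W (-L) g)
    (hunit : ∀ s : Step d, |L (stepVec s)| ≤ 1) (n : ℕ) :
    c ≤ ∑ l ∈ (lists n).filter (fun l : List (Step d) => ∀ x ∈ dep l, L x ≤ 0), W.w l := by
  classical
  refine (hlow n).trans ?_
  unfold crossing
  rw [ENNReal.tsum_eq_iSup_sum]
  refine iSup_le fun S => ?_
  set T : Finset (List (Step d)) := S.image (fun a => a.1) with hT
  have hTup : ∀ l ∈ T, Up (-L) n l := by
    intro l hl
    obtain ⟨a, _, rfl⟩ := Finset.mem_image.1 hl
    exact a.2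
  have h1 : ∑ a ∈ S, W.w a.1 = ∑ l ∈ T, W.w l := by
    rw [hT, Finset.sum_image]
    intro a _ b _ h
    exact Subtype.ext h
  rw [h1]
  set B := (lists n).filter (fun l : List (Step d) => ∀ x ∈ dep l, L x ≤ 0) with hB
  have hmaps : ∀ l ∈ T, l.take n ∈ B := by
    intro l hl
    have hup := hTup l hl
    have hlen : n ≤ l.length := by
      have h3 := abs_level_endp_le (L := L) hunit l
      have h4 := hup.1
      simp only [AddMonoidHom.neg_apply] at h4
      have : L (endp l) = -(n : ℤ) := by omega
      rw [this] at h3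
      simp only [abs_neg, Nat.abs_cast] at h3
      exact_mod_cast h3
    rw [hB, Finset.mem_filter, mem_lists]
    refine ⟨by simp [hlen], fun x hx => ?_⟩
    have h5 := (hup.2 x (dep_take_subset l n hx)).1
    simp only [AddMonoidHom.neg_apply] at h5
    omega
  rw [← Finset.sum_fiberwise_of_maps_to hmaps]
  refine Finset.sum_le_sum fun t _ => ?_
  refine finset_segFree_sum_le W t _ ?_ ?_
  · intro l hl r hr
    rw [Finset.mem_filter] at hl hr
    exact up_segFree (hTup l hl.1) (hTup _ hr.1)
  · intro l hl
    rw [Finset.mem_filter] at hl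
    exact ⟨l.drop n, by rw [← hl.2]; exact (List.take_append_drop n l).symm⟩

/-- The tail of the star path. -/
private def tailPath (init : List (Step d)) (m : Mon L) (d' : List (Step d)) : List (Step d) :=
  init ++ (m.b ++ d')

private theorem mem_dep_init {e₁ e' : Step d} {x : Site d} (hx : x ∈ dep [e₁, e']) :
    x = 0 ∨ x = stepVec e₁ := by
  rcases mem_dep_cons.1 hx with h | ⟨y, hy, rfl⟩
  · exact Or.inl h
  · rcases mem_dep_cons.1 hy with h | ⟨z, hz, _⟩
    · right; simp [h]
    · simp at hz

/-- All departure levels of the tail are at most `0`. -/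
private theorem tail_level {e₁ e' : Step d} (he' : L (stepVec e') = -1) (he₁ : L (stepVec e₁) = 0)
    (m : Mon L) {d' : List (Step d)} (hd' : ∀ x ∈ dep d', L x ≤ 0) {x : Site d}
    (hx : x ∈ dep (tailPath [e₁, e'] m d')) : L x ≤ 0 := by
  have hg := m.hb.1
  simp only [AddMonoidHom.neg_apply] at hg
  rcases mem_dep_append.1 hx with h | ⟨y, hy, rfl⟩
  · rcases mem_dep_init h with rfl | rfl
    · simp
    · simp [he₁]
  · have hend : L (endp [e₁, e']) = -1 := by simp [he₁, he']
    rw [map_add, hend]
    rcases mem_dep_append.1 hy with h | ⟨z, hz, rfl⟩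
    · have := (m.hb.2 y h).1
      simp only [AddMonoidHom.neg_apply] at this
      omega
    · have := hd' z hz
      rw [map_add]
      omega

/-- The weight of the star path factorises on clash free elements. -/
private theorem star_weight {e e' e₁ : Step d} (he' : L (stepVec e') = -1)
    (hee' : stepVec e' = - stepVec e) (he₁ : L (stepVec e₁) = 0)
    (m : Mon L) (hm : ¬ Clash L e (stepVec e₁) m) {d' : List (Step d)}
    (hd' : ∀ x ∈ dep d', L x ≤ 0) :
    W.w (m.a ++ tailPath [e₁, e'] m d') = wM W m * W.w [e₁, e'] * W.w d' := by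
  have hgb := m.hb.1
  simp only [AddMonoidHom.neg_apply] at hgb
  have hga := m.ha.1
  have hend : L (endp [e₁, e']) = -1 := by simp [he₁, he']
  -- the last split
  have h1 : W.w (m.b ++ d') = W.w m.b * W.w d' := by
    apply W.w_split
    intro x hx y hy hxy
    have h2 := m.hb.2 x hx
    simp only [AddMonoidHom.neg_apply] at h2
    have h3 := hd' y hy
    rw [hxy, map_add] at h2
    omega
  -- the middle split
  have h2 : W.w ([e₁, e'] ++ (m.b ++ d')) = W.w [e₁, e'] * W.w (m.b ++ d') := by
    apply W.w_split
    intro x hx y hy hxy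
    have hx0 : L x = 0 := by
      rcases mem_dep_init hx with rfl | rfl
      · simp
      · exact he₁
    rw [hxy, map_add, hend] at hx0
    have hy0 : L y ≤ 0 := by
      rcases mem_dep_append.1 hy with h | ⟨z, hz, rfl⟩
      · have := (m.hb.2 y h).1
        simp only [AddMonoidHom.neg_apply] at this
        omega
      · have := hd' z hz
        rw [map_add]
        have := Int.natCast_nonneg m.g
        omega
    omega
  -- the first split
  have h3 : W.w (m.a ++ tailPath [e₁, e'] m d') = W.w m.a * W.w (tailPath [e₁, e'] m d') := by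
    apply W.w_split
    intro x hx y hy hxy
    have hlev := m.ha.2 x hx
    rcases mem_dep_append.1 hy with h | ⟨z, hz, rfl⟩
    · -- the sites of the initial piece are at level `g`
      have hy0 : L y = 0 := by
        rcases mem_dep_init h with rfl | rfl
        · simp
        · exact he₁
      rw [hxy, map_add, hga, hy0] at hlev
      omega
    · rcases mem_dep_append.1 hz with h | ⟨t, ht, rfl⟩
      · -- a site of the down path: excluded by the absence of clash
        apply hm
        refine ⟨he₁, x, hx, z, h, ?_⟩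
        rw [hxy]
        simp only [endp_cons, endp_nil, hee']
        abel
      · -- a site of the final piece: below level `0`
        have ht0 := hd' t ht
        rw [hxy] at hlev
        simp only [map_add, hga, hend] at hlev
        omega
  rw [h3, tailPath, h2, h1, wM]
  ring

/-- Injectivity of the star map. -/
private theorem star_inj {e₁ e' : Step d} (he' : L (stepVec e') = -1) (he₁ : L (stepVec e₁) = 0)
    {m m' : Mon L} {d₁ d₂ : List (Step d)} (hd₁ : ∀ x ∈ dep d₁, L x ≤ 0)
    (hgle : m.g ≤ m'.g)
    (h : m.a ++ tailPath [e₁, e'] m d₁ = m'.a ++ tailPath [e₁, e'] m' d₂) :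
    m = m' ∧ d₁ = d₂ := by
  obtain ⟨t, ht⟩ := Up.initSeg m.ha m'.ha hgle h
  have hrest : tailPath [e₁, e'] m d₁ = t ++ tailPath [e₁, e'] m' d₂ := by
    have : m.a ++ tailPath [e₁, e'] m d₁ = m.a ++ (t ++ tailPath [e₁, e'] m' d₂) := by
      rw [h, ht, List.append_assoc]
    exact List.append_cancel_left this
  -- `t` is empty
  have ht0 : t = [] := by
    by_contra hne
    -- the end point of `t` is a departure site of the tail
    have hmem : endp t ∈ dep (tailPath [e₁, e'] m d₁) := by
      rw [hrest]
      exact endp_mem_dep_append t (by simp [tailPath])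
    have hlev := tail_level he' he₁ m hd₁ hmem
    have h1 := m'.ha.1
    rw [ht, endp_append, map_add, m.ha.1] at h1
    have hgg : m'.g = m.g := by omega
    have hU : Up L m.g (m.a ++ t) := by
      have := m'.ha
      rw [ht, hgg] at this
      exact this
    exact hne (up_segFree m.ha hU)
  subst ht0
  simp only [List.append_nil] at ht
  have hgg : m'.g = m.g := by
    have h1 := m'.ha.1
    rw [ht, m.ha.1] at h1
    omega
  simp only [tailPath, List.nil_append] at hrest
  have hbb : m.b ++ d₁ = m'.b ++ d₂ := List.append_cancel_left hrest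
  have hUb' : Up (-L) m.g m'.b := hgg ▸ m'.hb
  obtain ⟨t2, ht2⟩ := Up.initSeg m.hb hUb' le_rfl hbb
  have ht20 : t2 = [] := up_segFree m.hb (ht2 ▸ hUb')
  subst ht20
  simp only [List.append_nil] at ht2
  have hd : d₁ = d₂ := by
    rw [← ht2] at hbb
    exact List.append_cancel_left hbb
  refine ⟨?_, hd⟩
  ext1
  · exact hgg.symm
  · exact ht.symm
  · exact ht2.symm

/-- The key bound: for `e₁` a step with `L (stepVec e₁) = 0`, started at the offset `x₀ = stepVec e₁`,
with `e` the unit step up and `e'` the unit step down. -/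
theorem star_bound {c : ℝ≥0∞} (hc : CrossLower W L c) (e e' e₁ : Step d) (he : L (stepVec e) = 1)
    (he' : L (stepVec e') = -1) (hee' : stepVec e' = - stepVec e) (he₁ : L (stepVec e₁) = 0)
    (hunit : ∀ s : Step d, |L (stepVec s)| ≤ 1) :
    Jf W L e (stepVec e₁) * (W.w [e₁, e'] * c) ≤ 1 := by
  classical
  unfold Jf
  rw [← ENNReal.tsum_mul_right, ENNReal.tsum_eq_iSup_sum]
  refine iSup_le fun S₀ => ?_
  -- restrict to the clash free part
  set S := S₀.filter (fun m : Mon L => ¬ Clash L e (stepVec e₁) m) with hS
  have h0 : ∑ m ∈ S₀, wM W m * (if Clash L e (stepVec e₁) m then 0 else 1) * (W.w [e₁, e'] * c)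
      = ∑ m ∈ S, wM W m * (W.w [e₁, e'] * c) := by
    rw [hS, Finset.sum_filter]
    refine Finset.sum_congr rfl fun m _ => ?_
    by_cases hm : Clash L e (stepVec e₁) m <;> simp [hm]
  rw [h0]
  -- a common length
  set N₀ := S.sup (fun m : Mon L => m.a.length + m.b.length) with hN₀
  set N := N₀ + 2 with hN
  have hlen : ∀ m ∈ S, m.a.length + m.b.length ≤ N₀ := fun m hm =>
    Finset.le_sup (f := fun m : Mon L => m.a.length + m.b.length) hm
  -- the tails
  let D : Mon L → Finset (List (Step d)) := fun m =>
    (lists (N₀ - (m.a.length + m.b.length))).filter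
      (fun l : List (Step d) => ∀ x ∈ dep l, L x ≤ 0)
  have hDlow : ∀ m, c ≤ ∑ l ∈ D m, W.w l := fun m =>
    stay_lower W hc.1 (fun g => (hc.2 g).2) hunit _
  have h1 : ∑ m ∈ S, wM W m * (W.w [e₁, e'] * c)
      ≤ ∑ m ∈ S, ∑ l ∈ D m, W.w (m.a ++ tailPath [e₁, e'] m l) := by
    refine Finset.sum_le_sum fun m hm => ?_
    have hmc := (Finset.mem_filter.1 hm).2
    have h2 : ∑ l ∈ D m, W.w (m.a ++ tailPath [e₁, e'] m l)
        = wM W m * W.w [e₁, e'] * ∑ l ∈ D m, W.w l := by
      rw [Finset.mul_sum]
      refine Finset.sum_congr rfl fun l hl => ?_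
      exact star_weight W he' hee' he₁ m hmc (Finset.mem_filter.1 hl).2
    rw [h2, mul_assoc]
    exact mul_le_mul' le_rfl (mul_le_mul' le_rfl (hDlow m))
  refine h1.trans ?_
  rw [Finset.sum_sigma']
  have hone : ∑ r ∈ lists N, W.w r = 1 := by
    have := sum_lists W [] N
    simpa [W.w_nil] using this
  rw [← hone]
  -- injectivity
  set φ : (Σ _ : Mon L, List (Step d)) → List (Step d) :=
    fun x => x.1.a ++ tailPath [e₁, e'] x.1 x.2 with hφ
  have hinj : Set.InjOn φ (S.sigma D : Finset (Σ _ : Mon L, List (Step d))) := by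
    rintro ⟨m, l⟩ hx ⟨m', l'⟩ hx' hh
    have hx1 := Finset.mem_sigma.1 hx
    have hx2 := Finset.mem_sigma.1 hx'
    have hl := (Finset.mem_filter.1 hx1.2).2
    have hl' := (Finset.mem_filter.1 hx2.2).2
    simp only at hl hl'
    rcases le_total m.g m'.g with hg | hg
    · obtain ⟨rfl, rfl⟩ := star_inj he' he₁ hl hg hh
      rfl
    · obtain ⟨rfl, rfl⟩ := star_inj he' he₁ hl' hg hh.symm
      rfl
  have himg : ∑ x ∈ S.sigma D, W.w (φ x) = ∑ r ∈ (S.sigma D).image φ, W.w r :=
    (Finset.sum_image (f := W.w) hinj).symm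
  refine (le_of_eq himg).trans (Finset.sum_le_sum_of_subset ?_)
  intro r hr
  obtain ⟨⟨m, l⟩, hx, rfl⟩ := Finset.mem_image.1 hr
  have hx1 := Finset.mem_sigma.1 hx
  have hl := (Finset.mem_filter.1 hx1.2).1
  rw [mem_lists] at hl
  simp only at hl
  rw [mem_lists]
  have := hlen m hx1.1
  simp only [hφ, tailPath, List.length_append, List.length_cons, List.length_nil]
  omega

end

end Vale.Agent.Lib.P147T
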